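import Vale.Agent.P143.Quantile

/-!
# The infinite-volume sampler
-/

open MeasureTheory Set Filter Topology
open scoped unitInterval ENNReal

namespace Vale.Agent.P143

universe u

variable {E : Type u}

theorem ell_half : ell ⟨1 / 2, by norm_num, by norm_num⟩ = 0 := by
  unfold ell gden
  norm_num

theorem abs_ell_le (z : I) : |ell z| ≤ 1 := by
  have h := ell_lip z ⟨1 / 2, by norm_num, by norm_num⟩
  rw [ell_half, sub_zero] at h
  have h2 : |(z : ℝ) - 1 / 2| ≤ 1 / 2 := by
    rw [abs_le]; constructor <;> linarith [z.2.1, z.2.2]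
  have h3 : |(z : ℝ) - ((⟨1 / 2, by norm_num, by norm_num⟩ : I) : ℝ)| ≤ 1 / 2 := h2
  linarith

theorem continuous_ell : Continuous ell := by
  refine Metric.continuous_iff.mpr fun b ε hε => ⟨ε, hε, fun a ha => ?_⟩
  have h := ell_lip a b
  rw [Real.dist_eq]
  have : dist a b = |(a : ℝ) - b| := rfl
  rw [this] at ha
  nlinarith [abs_nonneg ((a : ℝ) - b)]

theorem abs_param_le {m : (E → ℝ) → E → ℝ} (hm : IsMean m) (U : E → I) (z : ℕ × E → I) (k : ℕ)
    (e : E) : |param m U z k e| ≤ 1 / 5 := by
  unfold param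
  have h0 := hm.nonneg (field U z k e) e
  have h1 := hm.le_one (field U z k e) e
  rw [abs_le]
  constructor <;> linarith

theorem abs_field_le (U : E → I) (z : ℕ × E → I) (k : ℕ) (e f : E) :
    |field U z k e f| ≤ k + 1 := by
  unfold field
  refine (abs_add_le _ _).trans (add_le_add ?_ ?_)
  · refine (Finset.abs_sum_le_sum_abs _ _).trans ?_
    calc ∑ i ∈ Finset.range k, |ell (z (i, f))| ≤ ∑ _i ∈ Finset.range k, (1 : ℝ) :=
          Finset.sum_le_sum fun i _ => abs_ell_le _
      _ = k := by simp
  · split_ifs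
    · exact abs_ell_le _
    · simp

/-- The Picard operator. -/
noncomputable def pstep (m : (E → ℝ) → E → ℝ) (U : E → I) (v z : ℕ × E → I) : ℕ × E → I :=
  fun j => sig (param m U z j.1 j.2) (v j)

theorem pstep_close {m : (E → ℝ) → E → ℝ} (hm : IsMean m) (U : E → I) (v : ℕ × E → I)
    {z z' : ℕ × E → I} {ε : ℝ} (hε : 0 ≤ ε)
    (h : ∀ j : ℕ × E, |(z j : ℝ) - z' j| ≤ ε * 2 ^ j.1) (j : ℕ × E) :
    |(pstep m U v z j : ℝ) - pstep m U v z' j| ≤ ε / 2 * 2 ^ j.1 := by
  obtain ⟨k, e⟩ := j
  have hf : ∀ f, |field U z k e f - field U z' k e f| ≤ 5 / 6 * ε * 2 ^ (k + 1) := by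
    intro f
    have h1 : ∀ i, |ell (z (i, f)) - ell (z' (i, f))| ≤ 5 / 6 * ε * 2 ^ i := by
      intro i
      refine (ell_lip _ _).trans ?_
      have := h (i, f)
      nlinarith
    unfold field
    have h2 : |(∑ i ∈ Finset.range k, ell (z (i, f))) - ∑ i ∈ Finset.range k, ell (z' (i, f))| ≤
        5 / 6 * ε * (2 ^ k - 1) := by
      rw [← Finset.sum_sub_distrib]
      refine (Finset.abs_sum_le_sum_abs _ _).trans ?_
      calc ∑ i ∈ Finset.range k, |ell (z (i, f)) - ell (z' (i, f))|
          ≤ ∑ i ∈ Finset.range k, 5 / 6 * ε * 2 ^ i := Finset.sum_le_sum fun i _ => h1 i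
        _ = 5 / 6 * ε * ∑ i ∈ Finset.range k, (2 : ℝ) ^ i := by rw [Finset.mul_sum]
        _ = 5 / 6 * ε * (2 ^ k - 1) := by
            congr 1
            have := geom_sum_eq (x := (2 : ℝ)) (by norm_num) k
            rw [this]; norm_num
    have h3 : |(open Classical in if U f < U e then ell (z (k, f)) else 0) -
        (open Classical in if U f < U e then ell (z' (k, f)) else 0)| ≤ 5 / 6 * ε * 2 ^ k := by
      split_ifs
      · exact h1 k
      · simp; positivity
    calc |((∑ i ∈ Finset.range k, ell (z (i, f))) +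
            (open Classical in if U f < U e then ell (z (k, f)) else 0)) -
          ((∑ i ∈ Finset.range k, ell (z' (i, f))) +
            (open Classical in if U f < U e then ell (z' (k, f)) else 0))|
        = |((∑ i ∈ Finset.range k, ell (z (i, f))) - ∑ i ∈ Finset.range k, ell (z' (i, f))) +
          ((open Classical in if U f < U e then ell (z (k, f)) else 0) -
            (open Classical in if U f < U e then ell (z' (k, f)) else 0))| := by
          congr 1; ring
      _ ≤ 5 / 6 * ε * (2 ^ k - 1) + 5 / 6 * ε * 2 ^ k := (abs_add_le _ _).trans (add_le_add h2 h3)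
      _ ≤ 5 / 6 * ε * 2 ^ (k + 1) := by
          have : 0 ≤ 5 / 6 * ε := by positivity
          rw [pow_succ]; nlinarith
  have hmm := hm.lip _ _ _ hf e
  have hp : |param m U z k e - param m U z' k e| ≤ 2 / 5 * (2 * (5 / 6 * ε * 2 ^ (k + 1))) := by
    unfold param
    have : 1 / 5 * (2 * m (field U z k e) e - 1) - 1 / 5 * (2 * m (field U z' k e) e - 1) =
        2 / 5 * (m (field U z k e) e - m (field U z' k e) e) := by ring
    rw [this, abs_mul, abs_of_pos (by norm_num : (0 : ℝ) < 2 / 5)]
    gcongr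
  have hs := sig_lip (abs_param_le hm U z k e) (abs_param_le hm U z' k e) (v (k, e))
  unfold pstep
  refine hs.trans ?_
  have h2k : (0 : ℝ) < 2 ^ k := by positivity
  calc 5 / 16 * |param m U z k e - param m U z' k e|
      ≤ 5 / 16 * (2 / 5 * (2 * (5 / 6 * ε * 2 ^ (k + 1)))) := by gcongr
    _ = 5 / 12 * ε * 2 ^ k := by rw [pow_succ]; ring
    _ ≤ ε / 2 * 2 ^ k := by nlinarith [mul_nonneg hε h2k.le]

theorem isSol_unique {m : (E → ℝ) → E → ℝ} (hm : IsMean m) (U : E → I) (v : ℕ × E → I)
    {z z' : ℕ × E → I} (h : IsSol m U univ v z) (h' : IsSol m U univ v z') : z = z' := by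
  have key : ∀ n : ℕ, ∀ j : ℕ × E, |(z j : ℝ) - z' j| ≤ (1 / 2) ^ n * 2 ^ j.1 := by
    intro n
    induction n with
    | zero =>
      intro j
      have h1 : |(z j : ℝ) - z' j| ≤ 1 := by
        rw [abs_le]; constructor <;> linarith [(z j).2.1, (z j).2.2, (z' j).2.1, (z' j).2.2]
      have h2 : (1 : ℝ) ≤ 2 ^ j.1 := one_le_pow₀ (by norm_num)
      simpa using h1.trans h2
    | succ n ih =>
      intro j
      have := pstep_close hm U v (by positivity) ih j
      have e1 : pstep m U v z j = z j := (h j.1 j.2 (mem_univ _)).symm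
      have e2 : pstep m U v z' j = z' j := (h' j.1 j.2 (mem_univ _)).symm
      rw [e1, e2] at this
      refine this.trans (le_of_eq ?_)
      ring
  funext j
  have hlim : Tendsto (fun n : ℕ => ((1 : ℝ) / 2) ^ n * 2 ^ j.1) atTop (𝓝 0) := by
    have := (tendsto_pow_atTop_nhds_zero_of_lt_one (by norm_num : (0 : ℝ) ≤ 1 / 2)
      (by norm_num)).mul_const ((2 : ℝ) ^ j.1)
    simpa using this
  have h0 : |(z j : ℝ) - z' j| ≤ 0 := ge_of_tendsto' hlim fun n => key n j
  have h1 : (z j : ℝ) - z' j = 0 := abs_eq_zero.mp (le_antisymm h0 (abs_nonneg _))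
  exact Subtype.ext (by linarith)

/-- Picard iterates. -/
noncomputable def picard (m : (E → ℝ) → E → ℝ) (U : E → I) (v : ℕ × E → I) : ℕ → ℕ × E → I
  | 0 => fun _ => 0
  | n + 1 => pstep m U v (picard m U v n)

/-- The sampler: the limit of the Picard iterates. -/
noncomputable def sampler (m : (E → ℝ) → E → ℝ) (U : E → I) (v : ℕ × E → I) : ℕ × E → I :=
  fun j => limsup (fun n => picard m U v n j) atTop

theorem picard_close {m : (E → ℝ) → E → ℝ} (hm : IsMean m) (U : E → I) (v : ℕ × E → I) (n : ℕ)
    (j : ℕ × E) :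
    |(picard m U v n j : ℝ) - picard m U v (n + 1) j| ≤ (1 / 2) ^ n * 2 ^ j.1 := by
  induction n generalizing j with
  | zero =>
    have h1 : |(picard m U v 0 j : ℝ) - picard m U v 1 j| ≤ 1 := by
      rw [abs_le]
      constructor <;> linarith [(picard m U v 0 j).2.1, (picard m U v 0 j).2.2,
        (picard m U v 1 j).2.1, (picard m U v 1 j).2.2]
    have h2 : (1 : ℝ) ≤ 2 ^ j.1 := one_le_pow₀ (by norm_num)
    simpa using h1.trans h2
  | succ n ih =>
    have := pstep_close hm U v (by positivity) ih j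
    refine this.trans (le_of_eq ?_)
    ring

theorem tendsto_picard {m : (E → ℝ) → E → ℝ} (hm : IsMean m) (U : E → I) (v : ℕ × E → I)
    (j : ℕ × E) : Tendsto (fun n => picard m U v n j) atTop (𝓝 (sampler m U v j)) := by
  have hc : CauchySeq (fun n => picard m U v n j) := by
    refine cauchySeq_of_le_geometric (1 / 2) (2 ^ j.1) (by norm_num) fun n => ?_
    have := picard_close hm U v n j
    have e : dist (picard m U v n j) (picard m U v (n + 1) j) =
      |(picard m U v n j : ℝ) - picard m U v (n + 1) j| := rfl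
    rw [e]
    linarith
  obtain ⟨x, hx⟩ := cauchySeq_tendsto_of_complete hc
  have : sampler m U v j = x := hx.limsup_eq
  rw [this]
  exact hx

/-- Fields depend continuously on the signals. -/
theorem tendsto_field {ι : Type*} {F : Filter ι} (U : E → I) {zn : ι → ℕ × E → I}
    {z : ℕ × E → I} (h : ∀ j, Tendsto (fun n => zn n j) F (𝓝 (z j))) (k : ℕ) (e f : E) :
    Tendsto (fun n => field U (zn n) k e f) F (𝓝 (field U z k e f)) := by
  unfold field
  refine Tendsto.add (tendsto_finsetSum _ fun i _ => ?_) ?_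
  · exact (continuous_ell.tendsto _).comp (h (i, f))
  · split_ifs
    · exact (continuous_ell.tendsto _).comp (h (k, f))
    · exact tendsto_const_nhds

/-- Convergence of posterior mean functions along every filter. -/
def MeanTendsto (mn : ℕ → (E → ℝ) → E → ℝ) (m : (E → ℝ) → E → ℝ) : Prop :=
  ∀ F : Filter ℕ, F ≤ atTop → ∀ (yn : ℕ → E → ℝ) (y : E → ℝ) (M : ℝ), (∀ n f, |yn n f| ≤ M) →
    (∀ f, Tendsto (fun n => yn n f) F (𝓝 (y f))) →
    ∀ e, Tendsto (fun n => mn n (yn n) e) F (𝓝 (m y e))

theorem sig_continuous_aux {ι : Type*} {F : Filter ι} {sn : ι → ℝ} {s : ℝ} (v : I)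
    (hsn : ∀ n, |sn n| ≤ 1 / 5) (hs : |s| ≤ 1 / 5) (h : Tendsto sn F (𝓝 s)) :
    Tendsto (fun n => sig (sn n) v) F (𝓝 (sig s v)) := by
  rw [tendsto_iff_dist_tendsto_zero]
  have h0 : Tendsto (fun n => 5 / 16 * |sn n - s|) F (𝓝 0) := by
    have := ((h.sub_const s).abs).const_mul (5 / 16)
    simpa using this
  refine squeeze_zero (fun n => dist_nonneg) (fun n => ?_) h0
  exact sig_lip (hsn n) hs v

theorem isSol_sampler {m : (E → ℝ) → E → ℝ} (hm : IsMean m) (U : E → I) (v : ℕ × E → I) :
    IsSol m U univ v (sampler m U v) := by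
  have key : ∀ n : ℕ, ∀ j : ℕ × E,
      |(picard m U v n j : ℝ) - sampler m U v j| ≤ (2 * (1 / 2) ^ n) * 2 ^ j.1 := by
    intro n j
    have := dist_le_of_le_geometric_of_tendsto (1 / 2) (2 ^ j.1) (by norm_num)
      (f := fun n => picard m U v n j) (a := sampler m U v j) (fun n => by
        have := picard_close hm U v n j
        have e : dist (picard m U v n j) (picard m U v (n + 1) j) =
          |(picard m U v n j : ℝ) - picard m U v (n + 1) j| := rfl
        rw [e]
        linarith) (tendsto_picard hm U v j) n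
    have e : dist (picard m U v n j) (sampler m U v j) =
          |(picard m U v n j : ℝ) - sampler m U v j| := rfl
    rw [e] at this
    refine this.trans (le_of_eq ?_)
    norm_num
    ring
  intro k e _
  -- both sides are limits of `picard (n + 1) (k, e)`
  have h1 : Tendsto (fun n => picard m U v (n + 1) (k, e)) atTop (𝓝 (sampler m U v (k, e))) :=
    (tendsto_add_atTop_iff_nat 1).mpr (tendsto_picard hm U v (k, e))
  have h2 : Tendsto (fun n => picard m U v (n + 1) (k, e)) atTop
      (𝓝 (pstep m U v (sampler m U v) (k, e))) := by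
    rw [tendsto_iff_dist_tendsto_zero]
    have h0 : Tendsto (fun n : ℕ => (2 * (1 / 2 : ℝ) ^ n) / 2 * 2 ^ k) atTop (𝓝 0) := by
      have := ((tendsto_pow_atTop_nhds_zero_of_lt_one (by norm_num : (0 : ℝ) ≤ 1 / 2)
        (by norm_num)).mul_const ((2 : ℝ) ^ k))
      simp only [zero_mul] at this
      refine this.congr fun n => ?_
      ring
    refine squeeze_zero (fun n => dist_nonneg) (fun n => ?_) h0
    exact pstep_close hm U v (by positivity) (key n) (k, e)
  exact tendsto_nhds_unique h1 h2

theorem sampler_unique {m : (E → ℝ) → E → ℝ} (hm : IsMean m) (U : E → I) (v : ℕ × E → I)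
    {z : ℕ × E → I} (h : IsSol m U univ v z) : z = sampler m U v :=
  isSol_unique hm U v h (isSol_sampler hm U v)

/-- Stability of the sampler under convergence of the posterior mean functions. -/
theorem tendsto_sampler {mn : ℕ → (E → ℝ) → E → ℝ} {m : (E → ℝ) → E → ℝ}
    (hmn : ∀ n, IsMean (mn n)) (hm : IsMean m) (hlim : MeanTendsto mn m) (U : E → I)
    (v : ℕ × E → I) (j : ℕ × E) :
    Tendsto (fun n => sampler (mn n) U v j) atTop (𝓝 (sampler m U v j)) := by
  suffices H : Tendsto (fun n => sampler (mn n) U v) atTop (𝓝 (sampler m U v)) from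
    (tendsto_pi_nhds.mp H) j
  rw [tendsto_iff_ultrafilter]
  intro g hg
  obtain ⟨z, hz⟩ : ∃ z, Tendsto (fun n => sampler (mn n) U v) g (𝓝 z) :=
    ⟨_, (g.map (fun n => sampler (mn n) U v)).le_nhds_lim⟩
  have hzj : ∀ j, Tendsto (fun n => sampler (mn n) U v j) g (𝓝 (z j)) := fun j =>
    (tendsto_pi_nhds.mp hz) j
  have hsol : IsSol m U univ v z := by
    intro k e _
    refine tendsto_nhds_unique (hzj (k, e)) ?_
    have hpar : Tendsto (fun n => param (mn n) U (sampler (mn n) U v) k e) g
        (𝓝 (param m U z k e)) := by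
      unfold param
      refine Tendsto.const_mul _ ((Tendsto.const_mul _ ?_).sub_const _)
      exact hlim g hg (fun n => field U (sampler (mn n) U v) k e) (field U z k e) (k + 1)
        (fun n f => abs_field_le _ _ _ _ _) (fun f => tendsto_field U hzj k e f) e
    have hs := sig_continuous_aux (v (k, e))
      (fun n => abs_param_le (hmn n) U (sampler (mn n) U v) k e) (abs_param_le hm U z k e) hpar
    refine hs.congr fun n => ?_
    exact (isSol_sampler (hmn n) U v k e (mem_univ _)).symm
  rw [← sampler_unique hm U v hsol]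
  exact hz


/-! ### Measurability and naturality -/

theorem measurable_ell : Measurable ell := continuous_ell.measurable

theorem measurable_field {Ω : Type*} [MeasurableSpace Ω] {U : Ω → E → I} {z : Ω → ℕ × E → I}
    (hU : ∀ e, Measurable fun ω => U ω e) (hz : ∀ j, Measurable fun ω => z ω j) (k : ℕ)
    (e f : E) : Measurable (fun ω => field (U ω) (z ω) k e f) := by
  unfold field
  refine Measurable.add ?_ ?_
  · exact Finset.measurable_fun_sum _ fun i _ => measurable_ell.comp (hz (i, f))
  · exact Measurable.ite (measurableSet_lt (hU f) (hU e)) (measurable_ell.comp (hz (k, f)))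
      measurable_const

theorem measurable_picard {Ω A : Type*} [MeasurableSpace Ω] [MeasurableSpace A]
    {m : A → (E → ℝ) → E → ℝ} (hm : ∀ e, Measurable fun p : A × (E → ℝ) => m p.1 p.2 e)
    {a : Ω → A} (ha : Measurable a) {U : Ω → E → I} {v : Ω → ℕ × E → I}
    (hU : ∀ e, Measurable fun ω => U ω e) (hv : ∀ j, Measurable fun ω => v ω j) (n : ℕ)
    (j : ℕ × E) : Measurable (fun ω => picard (m (a ω)) (U ω) (v ω) n j) := by
  induction n generalizing j with
  | zero => exact measurable_const
  | succ n ih =>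
    have h1 : Measurable (fun ω => param (m (a ω)) (U ω) (picard (m (a ω)) (U ω) (v ω) n) j.1 j.2) := by
      unfold param
      have h2 : Measurable (fun ω => (a ω, field (U ω) (picard (m (a ω)) (U ω) (v ω) n) j.1 j.2)) :=
        ha.prodMk (measurable_pi_iff.mpr fun f => measurable_field hU ih j.1 j.2 f)
      exact (((hm j.2).comp h2).const_mul 2 |>.sub_const 1).const_mul (1 / 5)
    exact measurable_sig.comp (h1.prodMk (hv j))

theorem measurable_sampler {Ω A : Type*} [MeasurableSpace Ω] [MeasurableSpace A]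
    {m : A → (E → ℝ) → E → ℝ} (hm : ∀ e, Measurable fun p : A × (E → ℝ) => m p.1 p.2 e)
    {a : Ω → A} (ha : Measurable a) {U : Ω → E → I} {v : Ω → ℕ × E → I}
    (hU : ∀ e, Measurable fun ω => U ω e) (hv : ∀ j, Measurable fun ω => v ω j)
    (j : ℕ × E) : Measurable (fun ω => sampler (m (a ω)) (U ω) (v ω) j) := by
  unfold sampler
  exact Measurable.limsup fun n => measurable_picard hm ha hU hv n j

/-- Naturality under injective maps of the index set. -/
theorem picard_comp {E' : Type*} {m : (E → ℝ) → E → ℝ} {m' : (E' → ℝ) → E' → ℝ} (ι : E → E')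
    (h : ∀ (y : E' → ℝ) (e : E), m' y (ι e) = m (fun f => y (ι f)) e) (U : E' → I)
    (v : ℕ × E' → I) (n : ℕ) (j : ℕ × E) :
    picard m' U v n (j.1, ι j.2) =
      picard m (fun e => U (ι e)) (fun i => v (i.1, ι i.2)) n j := by
  induction n generalizing j with
  | zero => rfl
  | succ n ih =>
    change pstep m' U v (picard m' U v n) (j.1, ι j.2) = pstep m _ _ (picard m _ _ n) j
    unfold pstep param
    simp only
    rw [h]
    congr 5
    funext f
    unfold field
    congr 1
    · exact Finset.sum_congr rfl fun i _ => by rw [ih (i, f)]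
    · rw [ih (j.1, f)]

theorem sampler_comp {E' : Type*} {m : (E → ℝ) → E → ℝ} {m' : (E' → ℝ) → E' → ℝ} (ι : E → E')
    (h : ∀ (y : E' → ℝ) (e : E), m' y (ι e) = m (fun f => y (ι f)) e) (U : E' → I)
    (v : ℕ × E' → I) (j : ℕ × E) :
    sampler m' U v (j.1, ι j.2) =
      sampler m (fun e => U (ι e)) (fun i => v (i.1, ι i.2)) j := by
  unfold sampler
  congr 1
  funext n
  exact picard_comp ι h U v n j

end Vale.Agent.P143
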