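import Vale.Agent.P143.Energy
import Vale.Agent.P143.Sampler

/-!
# Effective conductances in infinite volume and the posterior mean function
-/

open MeasureTheory Set Filter Topology
open scoped unitInterval ENNReal

namespace Vale.Agent.P143

universe u

variable {V : Type u}

@[simp] theorem dsq_mk (h : V → ℝ) (a b : V) : dsq h s(a, b) = (h a - h b) ^ 2 := rfl

theorem dsq_nonneg (h : V → ℝ) (e : Sym2 V) : 0 ≤ dsq h e := by
  induction e with
  | _ a b => exact sq_nonneg _

theorem energy_nonneg (H : Finset (Sym2 V)) (y : Sym2 V → ℝ) (h : V → ℝ) : 0 ≤ energy H y h :=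
  Finset.sum_nonneg fun f _ => mul_nonneg (Real.exp_pos _).le (dsq_nonneg h f)

theorem econd_bddBelow (H : Finset (Sym2 V)) (y : Sym2 V → ℝ) (e : Sym2 V) :
    BddBelow (Set.range fun h : {h : V → ℝ // dsq h e = 1} => energy H y h.1) :=
  ⟨0, by rintro _ ⟨h, rfl⟩; exact energy_nonneg _ _ _⟩

theorem exists_dsq_one {e : Sym2 V} (he : ¬ e.IsDiag) : ∃ h : V → ℝ, dsq h e = 1 := by
  classical
  induction e with
  | _ a b =>
    have hab : a ≠ b := he
    refine ⟨fun x => if x = a then 1 else 0, ?_⟩
    simp [hab.symm]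

theorem econd_nonneg (H : Finset (Sym2 V)) (y : Sym2 V → ℝ) (e : Sym2 V) : 0 ≤ econd H y e := by
  unfold econd
  exact Real.iInf_nonneg fun h => energy_nonneg _ _ _

theorem econd_le {H : Finset (Sym2 V)} {y : Sym2 V → ℝ} {e : Sym2 V} {h : V → ℝ}
    (hh : dsq h e = 1) : econd H y e ≤ energy H y h :=
  ciInf_le (econd_bddBelow H y e) ⟨h, hh⟩

theorem le_econd {H : Finset (Sym2 V)} {y : Sym2 V → ℝ} {e : Sym2 V} (he : ¬ e.IsDiag) {c : ℝ}
    (hc : ∀ h : V → ℝ, dsq h e = 1 → c ≤ energy H y h) : c ≤ econd H y e := by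
  obtain ⟨h0, hh0⟩ := exists_dsq_one he
  have : Nonempty {h : V → ℝ // dsq h e = 1} := ⟨⟨h0, hh0⟩⟩
  exact le_ciInf fun h => hc h.1 h.2

theorem exists_energy_lt {H : Finset (Sym2 V)} {y : Sym2 V → ℝ} {e : Sym2 V} (he : ¬ e.IsDiag)
    {ε : ℝ} (hε : 0 < ε) : ∃ h : V → ℝ, dsq h e = 1 ∧ energy H y h < econd H y e + ε := by
  obtain ⟨h0, hh0⟩ := exists_dsq_one he
  have : Nonempty {h : V → ℝ // dsq h e = 1} := ⟨⟨h0, hh0⟩⟩
  obtain ⟨h, hh⟩ := exists_lt_of_ciInf_lt
    (show (⨅ h : {h : V → ℝ // dsq h e = 1}, energy H y h.1) < econd H y e + ε by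
      have : econd H y e = ⨅ h : {h : V → ℝ // dsq h e = 1}, energy H y h.1 := rfl
      linarith)
  exact ⟨h.1, h.2, hh⟩

theorem energy_mono {H H' : Finset (Sym2 V)} (hH : H ⊆ H') (y : Sym2 V → ℝ) (h : V → ℝ) :
    energy H y h ≤ energy H' y h :=
  Finset.sum_le_sum_of_subset_of_nonneg hH fun f _ _ =>
    mul_nonneg (Real.exp_pos _).le (dsq_nonneg h f)

theorem econd_mono {H H' : Finset (Sym2 V)} (hH : H ⊆ H') (y : Sym2 V → ℝ) {e : Sym2 V}
    (he : ¬ e.IsDiag) : econd H y e ≤ econd H' y e :=
  le_econd he fun _ hh => (econd_le hh).trans (energy_mono hH y _)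

theorem energy_scale {H : Finset (Sym2 V)} {y y' : Sym2 V → ℝ} {s : ℝ}
    (hy : ∀ f ∈ H, y' f ≤ y f + s) (h : V → ℝ) :
    energy H y' h ≤ Real.exp s * energy H y h := by
  unfold energy
  rw [Finset.mul_sum]
  refine Finset.sum_le_sum fun f hf => ?_
  rw [← mul_assoc, ← Real.exp_add]
  refine mul_le_mul_of_nonneg_right (Real.exp_le_exp.mpr ?_) (dsq_nonneg h f)
  linarith [hy f hf]

theorem econd_scale {H : Finset (Sym2 V)} {y y' : Sym2 V → ℝ} {s : ℝ} {e : Sym2 V}
    (he : ¬ e.IsDiag) (hy : ∀ f ∈ H, y' f ≤ y f + s) :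
    econd H y' e ≤ Real.exp s * econd H y e := by
  have h1 : Real.exp (-s) * econd H y' e ≤ econd H y e := by
    refine le_econd he fun h hh => ?_
    have h2 := (econd_le (H := H) (y := y') hh).trans (energy_scale hy h)
    calc Real.exp (-s) * econd H y' e ≤ Real.exp (-s) * (Real.exp s * energy H y h) := by gcongr
      _ = energy H y h := by rw [← mul_assoc, ← Real.exp_add]; simp
  calc econd H y' e = Real.exp s * (Real.exp (-s) * econd H y' e) := by
        rw [← mul_assoc, ← Real.exp_add]; simp
    _ ≤ Real.exp s * econd H y e := by gcongr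

theorem exp_le_econd {H : Finset (Sym2 V)} {y : Sym2 V → ℝ} {e : Sym2 V} (he : ¬ e.IsDiag)
    (heH : e ∈ H) : Real.exp (y e) ≤ econd H y e := by
  refine le_econd he fun h hh => ?_
  unfold energy
  calc Real.exp (y e) = Real.exp (y e) * dsq h e := by rw [hh, mul_one]
    _ ≤ _ := Finset.single_le_sum
        (f := fun f => Real.exp (y f) * dsq h f)
        (fun f _ => mul_nonneg (Real.exp_pos _).le (dsq_nonneg h f)) heH

/-- Concavity of the effective conductance along rays. -/
theorem econd_concave {H H' : Finset (Sym2 V)} (hH : H ⊆ H') {y y' : Sym2 V → ℝ} {lam : ℝ}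
    (hlam : 1 ≤ lam) {e : Sym2 V} (he : ¬ e.IsDiag) (hy : ∀ f ∈ H, y' f = y f)
    (hy' : ∀ f ∈ H', f ∉ H → Real.exp (y' f) ≤ lam * Real.exp (y f)) :
    econd H' y' e ≤ econd H' y e + (lam - 1) * (econd H' y e - econd H y e) := by
  classical
  refine le_of_forall_pos_le_add fun ε hε => ?_
  obtain ⟨h, hh, hlt⟩ := exists_energy_lt (H := H') (y := y) he (ε := ε / lam) (by positivity)
  have hsplit : ∀ w : Sym2 V → ℝ, energy H' w h = energy H w h + energy (H' \ H) w h := by
    intro w
    unfold energy
    rw [add_comm]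
    exact (Finset.sum_sdiff hH).symm
  have h1 : energy H y' h = energy H y h := by
    unfold energy
    exact Finset.sum_congr rfl fun f hf => by rw [hy f hf]
  have h2 : energy (H' \ H) y' h ≤ lam * energy (H' \ H) y h := by
    unfold energy
    rw [Finset.mul_sum]
    refine Finset.sum_le_sum fun f hf => ?_
    rw [Finset.mem_sdiff] at hf
    rw [← mul_assoc]
    exact mul_le_mul_of_nonneg_right (hy' f hf.1 hf.2) (dsq_nonneg h f)
  have h3 : econd H y e ≤ energy H y h := econd_le hh
  have h4 : econd H' y' e ≤ energy H' y' h := econd_le hh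
  have h5 := hsplit y
  have h6 := hsplit y'
  have h7 : energy H' y' h ≤ energy H' y h + (lam - 1) * (energy H' y h - energy H y h) := by
    rw [h6, h1, h5]
    nlinarith
  have h8 : energy H' y h + (lam - 1) * (energy H' y h - energy H y h) ≤
      econd H' y e + (lam - 1) * (econd H' y e - econd H y e) + lam * (ε / lam) := by
    have hl : 0 ≤ lam - 1 := by linarith
    nlinarith [mul_nonneg hl (sub_nonneg.mpr h3), mul_nonneg hl (sub_nonneg.mpr hlt.le)]
  have h9 : lam * (ε / lam) = ε := by
    have : lam ≠ 0 := by positivity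
    field_simp
  linarith

/-- Effective conductance of the infinite graph: supremum over its finite subgraphs. -/
noncomputable def icond (G : SimpleGraph V) (y : Sym2 V → ℝ) (e : Sym2 V) : ℝ≥0∞ :=
  ⨆ (H : Finset (Sym2 V)) (_ : (H : Set (Sym2 V)) ⊆ G.edgeSet), ENNReal.ofReal (econd H y e)

open Classical in
/-- The posterior mean function of the free uniform spanning forest. -/
noncomputable def gmean (G : SimpleGraph V) (y : Sym2 V → ℝ) (e : Sym2 V) : ℝ :=
  if e ∈ G.edgeSet then (ENNReal.ofReal (Real.exp (y e)) / icond G y e).toReal else 0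

theorem econd_le_icond {G : SimpleGraph V} {H : Finset (Sym2 V)}
    (hH : (H : Set (Sym2 V)) ⊆ G.edgeSet) (y : Sym2 V → ℝ) (e : Sym2 V) :
    ENNReal.ofReal (econd H y e) ≤ icond G y e :=
  le_iSup₂ (f := fun (H : Finset (Sym2 V)) (_ : (H : Set (Sym2 V)) ⊆ G.edgeSet) =>
    ENNReal.ofReal (econd H y e)) H hH

theorem exp_le_icond {G : SimpleGraph V} {e : Sym2 V} (he : e ∈ G.edgeSet) (y : Sym2 V → ℝ) :
    ENNReal.ofReal (Real.exp (y e)) ≤ icond G y e := by
  have hd : ¬ e.IsDiag := G.not_isDiag_of_mem_edgeSet he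
  refine le_trans (ENNReal.ofReal_le_ofReal ?_)
    (econd_le_icond (H := {e}) (by simpa using he) y e)
  exact exp_le_econd hd (by simp)

theorem gmean_nonneg (G : SimpleGraph V) (y : Sym2 V → ℝ) (e : Sym2 V) : 0 ≤ gmean G y e := by
  unfold gmean
  split_ifs
  · exact ENNReal.toReal_nonneg
  · exact le_rfl

theorem gmean_le_one (G : SimpleGraph V) (y : Sym2 V → ℝ) (e : Sym2 V) : gmean G y e ≤ 1 := by
  unfold gmean
  split_ifs with he
  · refine ENNReal.toReal_le_of_le_ofReal zero_le_one ?_
    rw [ENNReal.ofReal_one]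
    exact ENNReal.div_le_of_le_mul (by rw [one_mul]; exact exp_le_icond he y)
  · exact zero_le_one


/-! ### The Lipschitz property -/

theorem icond_scale {G : SimpleGraph V} {y y' : Sym2 V → ℝ} {s : ℝ} {e : Sym2 V}
    (he : ¬ e.IsDiag) (hy : ∀ f, y' f ≤ y f + s) :
    icond G y' e ≤ ENNReal.ofReal (Real.exp s) * icond G y e := by
  refine iSup₂_le fun H hH => ?_
  calc ENNReal.ofReal (econd H y' e) ≤ ENNReal.ofReal (Real.exp s * econd H y e) :=
        ENNReal.ofReal_le_ofReal (econd_scale he fun f _ => hy f)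
    _ = ENNReal.ofReal (Real.exp s) * ENNReal.ofReal (econd H y e) :=
        ENNReal.ofReal_mul (Real.exp_pos _).le
    _ ≤ _ := by gcongr; exact econd_le_icond hH y e

theorem gmean_scale {G : SimpleGraph V} {y y' : Sym2 V → ℝ} {s : ℝ} (e : Sym2 V)
    (hy : ∀ f, |y f - y' f| ≤ s) : gmean G y e ≤ Real.exp (2 * s) * gmean G y' e := by
  by_cases he : e ∈ G.edgeSet
  · have hd : ¬ e.IsDiag := G.not_isDiag_of_mem_edgeSet he
    unfold gmean
    rw [if_pos he, if_pos he]
    have h1 : icond G y' e ≤ ENNReal.ofReal (Real.exp s) * icond G y e :=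
      icond_scale hd fun f => by linarith [(abs_le.mp (hy f)).1]
    have hs0 : 0 ≤ s := (abs_nonneg _).trans (hy e)
    have hpos : ∀ w : Sym2 V → ℝ, icond G w e ≠ 0 := by
      intro w h0
      have := exp_le_icond he w
      rw [h0] at this
      have h2 := ENNReal.ofReal_pos.mpr (Real.exp_pos (w e))
      exact absurd this (not_le.mpr h2)
    by_cases hfin : icond G y e = ∞
    · rw [hfin]
      simp only [ENNReal.div_top, ENNReal.toReal_zero]
      positivity
    · have hfin' : icond G y' e ≠ ∞ :=
        ne_top_of_le_ne_top (ENNReal.mul_ne_top ENNReal.ofReal_ne_top hfin) h1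
      rw [← ENNReal.toReal_ofReal (Real.exp_pos (2 * s)).le, ← ENNReal.toReal_mul]
      refine ENNReal.toReal_mono ?_ ?_
      · exact ENNReal.mul_ne_top ENNReal.ofReal_ne_top
          (ENNReal.div_ne_top ENNReal.ofReal_ne_top (hpos y'))
      · rw [ENNReal.div_le_iff (hpos y) hfin]
        have e1 : Real.exp (y e) ≤ Real.exp s * Real.exp (y' e) := by
          rw [← Real.exp_add]
          exact Real.exp_le_exp.mpr (by linarith [(abs_le.mp (hy e)).2])
        calc ENNReal.ofReal (Real.exp (y e))
            ≤ ENNReal.ofReal (Real.exp s * Real.exp (y' e)) := ENNReal.ofReal_le_ofReal e1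
          _ = ENNReal.ofReal (Real.exp s) * ENNReal.ofReal (Real.exp (y' e)) :=
              ENNReal.ofReal_mul (Real.exp_pos _).le
          _ = ENNReal.ofReal (Real.exp s) * (ENNReal.ofReal (Real.exp (y' e)) / icond G y' e *
                icond G y' e) := by
              rw [ENNReal.div_mul_cancel (hpos y') hfin']
          _ ≤ ENNReal.ofReal (Real.exp s) * (ENNReal.ofReal (Real.exp (y' e)) / icond G y' e *
                (ENNReal.ofReal (Real.exp s) * icond G y e)) := by gcongr
          _ = (ENNReal.ofReal (Real.exp s) * ENNReal.ofReal (Real.exp s)) *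
                (ENNReal.ofReal (Real.exp (y' e)) / icond G y' e) * icond G y e := by ring
          _ = _ := by
              rw [← ENNReal.ofReal_mul (Real.exp_pos _).le, ← Real.exp_add, two_mul]
  · unfold gmean
    rw [if_neg he, if_neg he, mul_zero]

theorem isMean_gmean (G : SimpleGraph V) : IsMean (gmean G) where
  nonneg := gmean_nonneg G
  le_one := gmean_le_one G
  lip := by
    intro y y' s hs e
    have hs0 : 0 ≤ s := (abs_nonneg _).trans (hs e)
    have key : ∀ w w' : Sym2 V → ℝ, (∀ f, |w f - w' f| ≤ s) →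
        gmean G w e - gmean G w' e ≤ 2 * s := by
      intro w w' hw
      have h1 : gmean G w e ≤ Real.exp (2 * s) * gmean G w' e := gmean_scale e hw
      have h2 := gmean_le_one G w e
      have h3 := gmean_nonneg G w e
      have h4 : Real.exp (-(2 * s)) * gmean G w e ≤ gmean G w' e := by
        calc Real.exp (-(2 * s)) * gmean G w e
            ≤ Real.exp (-(2 * s)) * (Real.exp (2 * s) * gmean G w' e) := by gcongr
          _ = gmean G w' e := by rw [← mul_assoc, ← Real.exp_add]; simp
      have h5 : 1 - 2 * s ≤ Real.exp (-(2 * s)) := by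
        have := Real.add_one_le_exp (-(2 * s))
        linarith
      nlinarith
    rw [abs_le]
    constructor
    · have := key y' y (fun f => by rw [abs_sub_comm]; exact hs f)
      linarith
    · exact key y y' hs

/-! ### Continuity and measurability -/

theorem tendsto_econd {ι : Type*} {F : Filter ι} (H : Finset (Sym2 V)) {e : Sym2 V}
    (he : ¬ e.IsDiag) {yn : ι → Sym2 V → ℝ} {y : Sym2 V → ℝ}
    (h : ∀ f ∈ H, Tendsto (fun n => yn n f) F (𝓝 (y f))) :
    Tendsto (fun n => econd H (yn n) e) F (𝓝 (econd H y e)) := by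
  set s : ι → ℝ := fun n => ∑ f ∈ H, |yn n f - y f| with hs
  have hs0 : Tendsto s F (𝓝 0) := by
    have : Tendsto s F (𝓝 (∑ f ∈ H, |y f - y f|)) :=
      tendsto_finsetSum _ fun f hf => ((h f hf).sub_const _).abs
    simpa using this
  have hle : ∀ n, ∀ f ∈ H, |yn n f - y f| ≤ s n := fun n f hf =>
    Finset.single_le_sum (f := fun f => |yn n f - y f|) (fun _ _ => abs_nonneg _) hf
  have hup : ∀ n, econd H (yn n) e ≤ Real.exp (s n) * econd H y e := fun n =>
    econd_scale he fun f hf => by linarith [(abs_le.mp (hle n f hf)).2]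
  have hlow : ∀ n, Real.exp (-(s n)) * econd H y e ≤ econd H (yn n) e := by
    intro n
    have h1 : econd H y e ≤ Real.exp (s n) * econd H (yn n) e :=
      econd_scale he fun f hf => by linarith [(abs_le.mp (hle n f hf)).1]
    calc Real.exp (-(s n)) * econd H y e
        ≤ Real.exp (-(s n)) * (Real.exp (s n) * econd H (yn n) e) := by gcongr
      _ = econd H (yn n) e := by rw [← mul_assoc, ← Real.exp_add]; simp
  have t1 : Tendsto (fun n => Real.exp (s n) * econd H y e) F (𝓝 (econd H y e)) := by
    have := ((Real.continuous_exp.tendsto 0).comp hs0).mul_const (econd H y e)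
    simpa using this
  have t2 : Tendsto (fun n => Real.exp (-(s n)) * econd H y e) F (𝓝 (econd H y e)) := by
    have := ((Real.continuous_exp.tendsto (-0)).comp hs0.neg).mul_const (econd H y e)
    simpa using this
  exact tendsto_of_tendsto_of_tendsto_of_le_of_le t2 t1 hlow hup

theorem econd_diag {H : Finset (Sym2 V)} {y : Sym2 V → ℝ} {e : Sym2 V} (he : e.IsDiag) :
    econd H y e = 0 := by
  have : IsEmpty {h : V → ℝ // dsq h e = 1} := by
    constructor
    rintro ⟨h, hh⟩
    induction e with
    | _ a b =>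
      have hab : a = b := he
      subst hab
      simp at hh
  unfold econd
  exact Real.iInf_of_isEmpty _

theorem continuous_econd (H : Finset (Sym2 V)) (e : Sym2 V) :
    Continuous (fun y : Sym2 V → ℝ => econd H y e) := by
  by_cases he : e.IsDiag
  · simp only [econd_diag he]
    exact continuous_const
  · refine continuous_iff_continuousAt.mpr fun y => ?_
    exact tendsto_econd H he fun f _ => (continuous_apply f).tendsto y

theorem measurable_econd [Countable V] (H : Finset (Sym2 V)) (e : Sym2 V) :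
    Measurable (fun y : Sym2 V → ℝ => econd H y e) := by
  have : Countable (Sym2 V) := Quot.mk_surjective.countable
  exact (continuous_econd H e).measurable

theorem measurableSet_subset_edgeSet (H : Finset (Sym2 V)) :
    MeasurableSet {G : SimpleGraph V | (H : Set (Sym2 V)) ⊆ G.edgeSet} := by
  have : {G : SimpleGraph V | (H : Set (Sym2 V)) ⊆ G.edgeSet} =
      ⋂ e ∈ H, {G : SimpleGraph V | e ∈ G.edgeSet} := by
    ext G
    simp [Set.subset_def]
  rw [this]
  refine Finset.measurableSet_biInter _ fun e _ => ?_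
  exact measurableSet_setOfPred.2 (measurable_set_iff.1 SimpleGraph.measurable_edgeSet e)

theorem measurable_icond [Countable V] (e : Sym2 V) :
    Measurable (fun p : SimpleGraph V × (Sym2 V → ℝ) => icond p.1 p.2 e) := by
  have hc : Countable (Sym2 V) := Quot.mk_surjective.countable
  unfold icond
  refine Measurable.iSup fun H => ?_
  classical
  have : (fun p : SimpleGraph V × (Sym2 V → ℝ) =>
      ⨆ (_ : (H : Set (Sym2 V)) ⊆ p.1.edgeSet), ENNReal.ofReal (econd H p.2 e)) =
      fun p => if (H : Set (Sym2 V)) ⊆ p.1.edgeSet then ENNReal.ofReal (econd H p.2 e) else 0 := by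
    funext p
    rw [iSup_eq_if]
    rfl
  rw [this]
  refine Measurable.ite ?_ ?_ measurable_const
  · exact measurable_fst (measurableSet_subset_edgeSet H)
  · exact ((measurable_econd H e).comp measurable_snd).ennreal_ofReal

theorem measurable_gmean [Countable V] (e : Sym2 V) :
    Measurable (fun p : SimpleGraph V × (Sym2 V → ℝ) => gmean p.1 p.2 e) := by
  unfold gmean
  refine Measurable.ite ?_ ?_ measurable_const
  · exact measurable_fst
      (measurableSet_setOfPred.2 (measurable_set_iff.1 SimpleGraph.measurable_edgeSet e))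
  · refine Measurable.ennreal_toReal (Measurable.div ?_ (measurable_icond e))
    exact (Real.measurable_exp.comp ((measurable_pi_apply e).comp measurable_snd)).ennreal_ofReal

end Vale.Agent.P143
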