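import Vale.Agent.P143.Limit

/-!
# Decoding the edge set from the signals
-/

open MeasureTheory Set Filter Topology ProbabilityTheory
open scoped unitInterval ENNReal

namespace Vale.Agent.P143

universe u

variable {V : Type u} [Countable V] {G : SimpleGraph V}

/-- The sign of the edge `e` in `S`. -/
noncomputable def esgn {E : Type*} (S : Finset E) (e : E) : ℝ :=
  open Classical in sgnb (decide (e ∈ S))

theorem abs_esgn {E : Type*} (S : Finset E) (e : E) : |esgn S e| = 1 := by
  unfold esgn sgnb; split_ifs <;> simp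

theorem esgn_sq {E : Type*} (S : Finset E) (e : E) : esgn S e ^ 2 = 1 := by
  rw [← sq_abs, abs_esgn]; norm_num

/-- The error bound for the estimators. -/
theorem integral_abs_stat_sub {E : Type*} {J : Finset (ℕ × E)} {N : ℕ} (hN : 0 < N)
    (S : Finset E) {e : E} (he : ∀ k < N, (k, e) ∈ J) {lam : ℝ} (hlam : 0 < lam) :
    ∫ z, |stat N z e - esgn S e| ∂(sigLaws J S) ≤ (lam * (225 / N) + 1 / lam) / 2 := by
  have hsq : ∫ z, (stat N z e - esgn S e) ^ 2 ∂(sigLaws J S) ≤ 225 / N :=
    integral_stat_sub_sq hN S he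
  set b := esgn S e with hb
  have hb1 : |b| ≤ 1 := (abs_esgn S e).le
  have hbd : ∀ z : ℕ × E → I, |stat N z e - b| ≤ 16 := fun z =>
    (abs_sub _ _).trans (by linarith [abs_stat_le N z e])
  have hms : Measurable (fun z : ℕ × E → I => stat N z e - b) :=
    (measurable_stat N e).sub_const b
  have hint1 : Integrable (fun z : ℕ × E → I => |stat N z e - b|) (sigLaws J S) :=
    integrable_of_bounded hms.abs (C := 16) fun z => by rw [abs_abs]; exact hbd z
  have hint2 : Integrable (fun z : ℕ × E → I => (stat N z e - b) ^ 2) (sigLaws J S) :=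
    integrable_of_bounded (hms.pow_const 2) (C := 256) fun z => by
      rw [abs_pow]
      have := hbd z
      have h0 := abs_nonneg (stat N z e - b)
      nlinarith
  have hle : ∀ z : ℕ × E → I,
      |stat N z e - b| ≤ (lam * (stat N z e - b) ^ 2 + 1 / lam) / 2 := by
    intro z
    have h1 : 0 ≤ (lam * |stat N z e - b| - 1) ^ 2 / lam := by positivity
    have h2 : (lam * |stat N z e - b| - 1) ^ 2 / lam =
        lam * (stat N z e - b) ^ 2 - 2 * |stat N z e - b| + 1 / lam := by
      rw [← sq_abs (stat N z e - b)]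
      field_simp
      ring
    linarith
  calc ∫ z, |stat N z e - b| ∂(sigLaws J S)
      ≤ ∫ z, (lam * (stat N z e - b) ^ 2 + 1 / lam) / 2 ∂(sigLaws J S) :=
        integral_mono hint1 (((hint2.const_mul lam).add (integrable_const _)).div_const 2) hle
    _ = (lam * ∫ z, (stat N z e - b) ^ 2 ∂(sigLaws J S) + 1 / lam) / 2 := by
        rw [integral_div, integral_add (hint2.const_mul lam) (integrable_const _),
          integral_const_mul]
        simp
    _ ≤ (lam * (225 / N) + 1 / lam) / 2 := by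
        gcongr

/-- Transfer of bounds from the conditional laws of the signals to the sampler. -/
theorem integral_Zs_le (hG : ∀ v, (G.neighborSet v).Finite) {H : ℕ → G.Subgraph}
    (hH : IsExhaustion G H) (U : Sym2 V → I) (hU : Function.Injective U) {e : Sym2 V}
    (he : e ∈ G.edgeSet) (N : ℕ) (F : (ℕ × Sym2 V → I) → ℝ) (hF : Measurable F)
    {C : ℝ} (hC : ∀ z, |F z| ≤ C)
    (hcont : ∀ (zn : ℕ → ℕ × Sym2 V → I) (z : ℕ × Sym2 V → I),
      (∀ j, Tendsto (fun n => zn n j) atTop (𝓝 (z j))) →
      Tendsto (fun n => F (zn n)) atTop (𝓝 (F z)))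
    (hloc : ∀ z z' : ℕ × Sym2 V → I, (∀ k < N, z (k, e) = z' (k, e)) → F z = F z')
    {K : ℝ} (hK : ∀ (J : Finset (ℕ × Sym2 V)) (S : Finset (Sym2 V)),
      (∀ k < N, (k, e) ∈ J) → ∫ z, F z ∂(sigLaws J S) ≤ K) :
    ∫ v, F (Zs G U v) ∂(iidSeeds (ℕ × Sym2 V)) ≤ K := by
  have hE : ∀ n, (H n).edgeSet.Finite := fun n => edgeSet_finite (hH.finite n)
  have h1 := tendsto_integral_Zs hG hH U F hF hC hcont
  refine le_of_tendsto h1 ?_
  filter_upwards [hH.eventually_mem he] with n hn
  have h2 := integral_Zs_finite (H n) (hH.finite n) (hE n) (hH.connected n) U hU N F hF hC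
    (fun z z' hz => hloc z z' fun k hk => hz (k, e)
      (Finset.mem_product.mpr ⟨Finset.mem_range.mpr hk, by simpa using hn⟩))
  have hpos := treeSets_card_pos (H n) (hH.finite n) (hE n) (hH.connected n)
  have h3 : ∑ S ∈ treeSets (H n) (hE n),
      ∫ z, F z ∂(sigLaws (Finset.range N ×ˢ (hE n).toFinset) S) ≤
      (treeSets (H n) (hE n)).card * K := by
    refine (Finset.sum_le_sum fun S _ => hK _ S fun k hk =>
      Finset.mem_product.mpr ⟨Finset.mem_range.mpr hk, by simpa using hn⟩).trans ?_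
    rw [Finset.sum_const, nsmul_eq_mul]
  rw [← h2] at h3
  exact le_of_mul_le_mul_left h3 hpos

/-- The estimators at time `4 ^ i`. -/
noncomputable def st (i : ℕ) (z : ℕ × Sym2 V → I) (e : Sym2 V) : ℝ := stat (4 ^ i) z e

theorem integral_st_diff (hG : ∀ v, (G.neighborSet v).Finite) {H : ℕ → G.Subgraph}
    (hH : IsExhaustion G H) (U : Sym2 V → I) (hU : Function.Injective U) {e : Sym2 V}
    (he : e ∈ G.edgeSet) (i : ℕ) :
    ∫ v, |st (i + 1) (Zs G U v) e - st i (Zs G U v) e| ∂(iidSeeds (ℕ × Sym2 V)) ≤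
      226 * (1 / 2) ^ i := by
  classical
  refine integral_Zs_le hG hH U hU he (4 ^ (i + 1))
    (fun z => |st (i + 1) z e - st i z e|) ?_ (C := 30) (fun z => ?_) ?_ ?_ ?_
  · exact ((measurable_stat _ e).sub (measurable_stat _ e)).abs
  · rw [abs_abs]
    exact (abs_sub _ _).trans (by
      have h1 := abs_stat_le (4 ^ (i + 1)) z e
      have h2 := abs_stat_le (4 ^ i) z e
      unfold st; linarith)
  · intro zn z hz
    exact ((tendsto_stat _ hz e).sub (tendsto_stat _ hz e)).abs
  · intro z z' hz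
    unfold st
    rw [stat_congr hz, stat_congr fun k hk => hz k (hk.trans_le
      (Nat.pow_le_pow_right (by norm_num) (Nat.le_succ i)))]
  · intro J S hJ
    have hJ' : ∀ k < 4 ^ i, (k, e) ∈ J := fun k hk => hJ k (hk.trans_le
      (Nat.pow_le_pow_right (by norm_num) (Nat.le_succ i)))
    have h1 := integral_abs_stat_sub (J := J) (N := 4 ^ (i + 1)) (by positivity) S hJ
      (lam := 2 ^ i) (by positivity)
    have h2 := integral_abs_stat_sub (J := J) (N := 4 ^ i) (by positivity) S hJ'
      (lam := 2 ^ i) (by positivity)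
    have hb1 : |esgn S e| = 1 := abs_esgn _ _
    set b := esgn S e with hb
    have hint : ∀ N : ℕ, Integrable (fun z : ℕ × Sym2 V → I => |stat N z e - b|)
        (sigLaws J S) := fun N =>
      integrable_of_bounded ((measurable_stat N e).sub_const b).abs (C := 16) fun z => by
        rw [abs_abs]
        exact (abs_sub _ _).trans (by linarith [abs_stat_le N z e])
    have h3 : ∫ z, |st (i + 1) z e - st i z e| ∂(sigLaws J S) ≤
        ∫ z, |stat (4 ^ (i + 1)) z e - b| ∂(sigLaws J S) +
          ∫ z, |stat (4 ^ i) z e - b| ∂(sigLaws J S) := by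
      rw [← integral_add (hint _) (hint _)]
      refine integral_mono ?_ ((hint _).add (hint _)) fun z => ?_
      · exact integrable_of_bounded ((measurable_stat _ e).sub (measurable_stat _ e)).abs
          (C := 30) fun z => by
            rw [abs_abs]
            exact (abs_sub _ _).trans (by
              have h1 := abs_stat_le (4 ^ (i + 1)) z e
              have h2 := abs_stat_le (4 ^ i) z e
              unfold st; linarith)
      · have : st (i + 1) z e - st i z e =
            (stat (4 ^ (i + 1)) z e - b) - (stat (4 ^ i) z e - b) := by unfold st; ring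
        rw [this]
        exact abs_sub _ _
    refine h3.trans ((add_le_add h1 h2).trans ?_)
    push_cast
    have e1 : (2 : ℝ) ^ i * (225 / 4 ^ (i + 1)) = 225 / 4 * (1 / 2) ^ i := by
      rw [pow_succ, show (4 : ℝ) ^ i = 2 ^ i * 2 ^ i by rw [← mul_pow]; norm_num]
      rw [one_div, inv_pow]
      field_simp
    have e2 : (2 : ℝ) ^ i * (225 / 4 ^ i) = 225 * (1 / 2) ^ i := by
      rw [show (4 : ℝ) ^ i = 2 ^ i * 2 ^ i by rw [← mul_pow]; norm_num]
      rw [one_div, inv_pow]
      field_simp
    have e3 : 1 / (2 : ℝ) ^ i = (1 / 2) ^ i := by rw [one_div, one_div, inv_pow]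
    rw [e1, e2, e3]
    have : (0 : ℝ) < (1 / 2) ^ i := by positivity
    linarith

theorem integral_st_sq (hG : ∀ v, (G.neighborSet v).Finite) {H : ℕ → G.Subgraph}
    (hH : IsExhaustion G H) (U : Sym2 V → I) (hU : Function.Injective U) {e : Sym2 V}
    (he : e ∈ G.edgeSet) (i : ℕ) :
    ∫ v, |st i (Zs G U v) e ^ 2 - 1| ∂(iidSeeds (ℕ × Sym2 V)) ≤ 1808 * (1 / 2) ^ i := by
  classical
  refine integral_Zs_le hG hH U hU he (4 ^ i)
    (fun z => |st i z e ^ 2 - 1|) ?_ (C := 226) (fun z => ?_) ?_ ?_ ?_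
  · exact (((measurable_stat _ e).pow_const 2).sub_const 1).abs
  · rw [abs_abs]
    have h2 := abs_stat_le (4 ^ i) z e
    refine (abs_sub _ _).trans ?_
    rw [abs_pow, abs_one]
    unfold st
    nlinarith [abs_nonneg (stat (4 ^ i) z e)]
  · intro zn z hz
    exact (((tendsto_stat _ hz e).pow 2).sub_const 1).abs
  · intro z z' hz
    unfold st
    rw [stat_congr hz]
  · intro J S hJ
    have h2 := integral_abs_stat_sub (J := J) (N := 4 ^ i) (by positivity) S hJ
      (lam := 2 ^ i) (by positivity)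
    have hb1 : |esgn S e| = 1 := abs_esgn _ _
    have hb2 : esgn S e ^ 2 = 1 := esgn_sq _ _
    set b := esgn S e with hb
    have hint : ∀ N : ℕ, Integrable (fun z : ℕ × Sym2 V → I => |stat N z e - b|)
        (sigLaws J S) := fun N =>
      integrable_of_bounded ((measurable_stat N e).sub_const b).abs (C := 16) fun z => by
        rw [abs_abs]
        exact (abs_sub _ _).trans (by linarith [abs_stat_le N z e])
    have h3 : ∫ z, |st i z e ^ 2 - 1| ∂(sigLaws J S) ≤
        ∫ z, 16 * |stat (4 ^ i) z e - b| ∂(sigLaws J S) := by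
      refine integral_mono ?_ ((hint _).const_mul 16) fun z => ?_
      · exact integrable_of_bounded (((measurable_stat _ e).pow_const 2).sub_const 1).abs
          (C := 226) fun z => by
            rw [abs_abs]
            have h2 := abs_stat_le (4 ^ i) z e
            refine (abs_sub _ _).trans ?_
            rw [abs_pow, abs_one]
            unfold st
            nlinarith [abs_nonneg (stat (4 ^ i) z e)]
      · have h4 : st i z e ^ 2 - 1 = (stat (4 ^ i) z e - b) * (stat (4 ^ i) z e + b) := by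
          unfold st
          have : (stat (4 ^ i) z e - b) * (stat (4 ^ i) z e + b) =
            stat (4 ^ i) z e ^ 2 - b ^ 2 := by ring
          rw [this, hb2]
        have h5 : |stat (4 ^ i) z e + b| ≤ 16 :=
          (abs_add_le _ _).trans (by linarith [abs_stat_le (4 ^ i) z e])
        show |st i z e ^ 2 - 1| ≤ 16 * |stat (4 ^ i) z e - b|
        rw [h4, abs_mul]
        nlinarith [abs_nonneg (stat (4 ^ i) z e - b)]
    rw [integral_const_mul] at h3
    refine h3.trans ((mul_le_mul_of_nonneg_left h2 (by norm_num : (0 : ℝ) ≤ 16)).trans ?_)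
    push_cast
    have e2 : (2 : ℝ) ^ i * (225 / 4 ^ i) = 225 * (1 / 2) ^ i := by
      rw [show (4 : ℝ) ^ i = 2 ^ i * 2 ^ i by rw [← mul_pow]; norm_num]
      rw [one_div, inv_pow]
      field_simp
    have e3 : 1 / (2 : ℝ) ^ i = (1 / 2) ^ i := by rw [one_div, one_div, inv_pow]
    rw [e2, e3]
    have : (0 : ℝ) < (1 / 2) ^ i := by positivity
    linarith

theorem ae_summable_of_integral_le {Ω : Type*} [MeasurableSpace Ω] {μ : Measure Ω}
    [IsProbabilityMeasure μ] {f : ℕ → Ω → ℝ} (hf : ∀ i, Measurable (f i))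
    (hnn : ∀ i ω, 0 ≤ f i ω) {C K : ℝ} (hC : ∀ i ω, f i ω ≤ C)
    (hle : ∀ i, ∫ ω, f i ω ∂μ ≤ K * (1 / 2) ^ i) : ∀ᵐ ω ∂μ, Summable fun i => f i ω := by
  have hint : ∀ i, Integrable (f i) μ := fun i =>
    integrable_of_bounded (hf i) (C := C) fun ω => by
      rw [abs_of_nonneg (hnn i ω)]; exact hC i ω
  have hK : 0 ≤ K := by
    have h0 := (integral_nonneg (hnn 0)).trans (hle 0)
    simpa using h0
  have h1 : ∫⁻ ω, ∑' i, ENNReal.ofReal (f i ω) ∂μ < ∞ := by
    rw [lintegral_tsum fun i => (hf i).ennreal_ofReal.aemeasurable]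
    have h2 : ∀ i, ∫⁻ ω, ENNReal.ofReal (f i ω) ∂μ ≤ ENNReal.ofReal (K * (1 / 2) ^ i) := by
      intro i
      rw [← ofReal_integral_eq_lintegral_ofReal (hint i) (ae_of_all _ (hnn i))]
      exact ENNReal.ofReal_le_ofReal (hle i)
    refine lt_of_le_of_lt (ENNReal.tsum_le_tsum h2) ?_
    have hs : Summable fun i : ℕ => K * (1 / 2 : ℝ) ^ i :=
      (summable_geometric_of_lt_one (by norm_num) (by norm_num)).mul_left K
    rw [← ENNReal.ofReal_tsum_of_nonneg (fun i => by positivity) hs]
    exact ENNReal.ofReal_lt_top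
  have h3 := ae_lt_top (Measurable.tsum fun i => (hf i).ennreal_ofReal) h1.ne
  filter_upwards [h3] with ω hω
  have := ENNReal.summable_toReal hω.ne
  refine this.congr fun i => ?_
  rw [ENNReal.toReal_ofReal (hnn i ω)]

/-- The limit of the estimators. -/
noncomputable def xlim (z : ℕ × Sym2 V → I) (e : Sym2 V) : ℝ := limsup (fun i => st i z e) atTop

theorem measurable_xlim (e : Sym2 V) : Measurable (fun z : ℕ × Sym2 V → I => xlim z e) :=
  Measurable.limsup fun i => measurable_stat (4 ^ i) e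

/-- Almost surely the estimators converge to `1` or `-1`. -/
theorem ae_tendsto_st (hG : ∀ v, (G.neighborSet v).Finite) {H : ℕ → G.Subgraph}
    (hH : IsExhaustion G H) (U : Sym2 V → I) (hU : Function.Injective U) {e : Sym2 V}
    (he : e ∈ G.edgeSet) :
    ∀ᵐ v ∂(iidSeeds (ℕ × Sym2 V)),
      Tendsto (fun i => st i (Zs G U v) e) atTop (𝓝 (xlim (Zs G U v) e)) ∧
        xlim (Zs G U v) e ^ 2 = 1 := by
  have hZ := measurable_Zs G U
  have hst : ∀ i, Measurable (fun v => st i (Zs G U v) e) := fun i =>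
    (measurable_stat (4 ^ i) e).comp hZ
  have hbd : ∀ i v, |st i (Zs G U v) e| ≤ 15 := fun i v => abs_stat_le _ _ _
  have h1 := ae_summable_of_integral_le (μ := iidSeeds (ℕ × Sym2 V))
    (f := fun i v => |st (i + 1) (Zs G U v) e - st i (Zs G U v) e|)
    (fun i => ((hst (i + 1)).sub (hst i)).abs) (fun i v => abs_nonneg _) (C := 30)
    (fun i v => (abs_sub _ _).trans (by linarith [hbd i v, hbd (i + 1) v]))
    (integral_st_diff hG hH U hU he)
  have h2 := ae_summable_of_integral_le (μ := iidSeeds (ℕ × Sym2 V))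
    (f := fun i v => |st i (Zs G U v) e ^ 2 - 1|)
    (fun i => (((hst i).pow_const 2).sub_const 1).abs) (fun i v => abs_nonneg _) (C := 226)
    (fun i v => by
      refine (abs_sub _ _).trans ?_
      rw [abs_pow, abs_one]
      nlinarith [hbd i v, abs_nonneg (st i (Zs G U v) e)])
    (integral_st_sq hG hH U hU he)
  filter_upwards [h1, h2] with v hv1 hv2
  have hc : CauchySeq (fun i => st i (Zs G U v) e) := by
    refine cauchySeq_of_summable_dist (hv1.congr fun i => ?_)
    rw [Real.dist_eq, abs_sub_comm]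
  obtain ⟨x, hx⟩ := cauchySeq_tendsto_of_complete hc
  have hxl : xlim (Zs G U v) e = x := hx.limsup_eq
  refine ⟨hxl ▸ hx, ?_⟩
  rw [hxl]
  have h3 : Tendsto (fun i => |st i (Zs G U v) e ^ 2 - 1|) atTop (𝓝 |x ^ 2 - 1|) :=
    ((hx.pow 2).sub_const 1).abs
  have h4 := tendsto_nhds_unique h3 hv2.tendsto_atTop_zero
  have h5 := abs_eq_zero.mp h4
  linarith

/-- The decoded edge set. -/
def decode (G : SimpleGraph V) (z : ℕ × Sym2 V → I) : Set (Sym2 V) :=
  {e | e ∈ G.edgeSet ∧ 0 < xlim z e}

theorem prod_sign {E : Type*} (A B : Finset E) (x : E → ℝ) (hx : ∀ e ∈ A, x e ^ 2 = 1) :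
    ∏ e ∈ A, ((1 + pat B e * x e) / 2) =
      (open Classical in if (∀ e ∈ A, (0 < x e ↔ e ∈ B)) then 1 else 0) := by
  classical
  have h1 : ∀ e ∈ A, (1 + pat B e * x e) / 2 = if (0 < x e ↔ e ∈ B) then 1 else 0 := by
    intro e he
    have h2 : x e = 1 ∨ x e = -1 := sq_eq_one_iff.mp (hx e he)
    unfold pat
    rcases h2 with h | h <;> by_cases hB : e ∈ B <;> simp [h, hB]
  rw [Finset.prod_congr rfl h1, Finset.prod_ite_zero]
  simp

end Vale.Agent.P143
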