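import Mathlib

/-!
# Definitions for the free uniform spanning forest
-/

open MeasureTheory Set Filter Topology
open scoped unitInterval ENNReal

namespace Vale.Agent.P143

universe u

variable {V : Type u}

/-- The spanning trees of a subgraph `H` of `G`: the subgraphs of `H` on the same vertex set
which are trees. -/
def spanningTrees {G : SimpleGraph V} (H : G.Subgraph) : Set G.Subgraph :=
  {T | T ≤ H ∧ T.verts = H.verts ∧ T.coe.IsTree}

/-- `ustProb H A B` is the probability that the uniform spanning tree of the finite connected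
graph `H` contains, among the edges of the finite set `A`, exactly those belonging to `B`. -/
noncomputable def ustProb {G : SimpleGraph V} (H : G.Subgraph) (A B : Finset (Sym2 V)) : ℝ :=
  ((spanningTrees H ∩ {T | ∀ e ∈ A, (e ∈ T.edgeSet ↔ e ∈ B)}).ncard : ℝ) /
    ((spanningTrees H).ncard : ℝ)

/-- `H 0 ≤ H 1 ≤ ...` are finite connected subgraphs of `G` with union `G`. -/
structure IsExhaustion (G : SimpleGraph V) (H : ℕ → G.Subgraph) : Prop where
  mono : Monotone H
  finite : ∀ n, (H n).verts.Finite
  connected : ∀ n, (H n).Connected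
  iSup_eq : ⨆ n, H n = ⊤

/-- The probability measure `μ` on edge sets is the free uniform spanning forest of `G`:
`G` has an exhaustion by finite connected subgraphs, and along every such exhaustion the laws
of the uniform spanning trees converge weakly (that is, on all cylinder events) to `μ`. -/
structure IsFUSF (G : SimpleGraph V) (μ : Measure (Set (Sym2 V))) : Prop where
  prob : IsProbabilityMeasure μ
  exists_exhaustion : ∃ H : ℕ → G.Subgraph, IsExhaustion G H
  tendsto : ∀ H : ℕ → G.Subgraph, IsExhaustion G H → ∀ A B : Finset (Sym2 V),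
    Tendsto (fun n => ustProb (H n) A B) atTop
      (𝓝 (μ.real {ω | ∀ e ∈ A, (e ∈ ω ↔ e ∈ B)}))

/-- The law of i.i.d. uniform labels on the vertices. -/
noncomputable def iidLabels (V : Type u) : Measure (V → I) :=
  Measure.infinitePi fun _ : V => (volume : Measure I)

/-- The edge set `ω` translated by the bijection `g` of the vertices. -/
def mapEdges {V W : Type*} (g : V ≃ W) (ω : Set (Sym2 V)) : Set (Sym2 W) :=
  Sym2.map g '' ω

/-- A `Γ`-factor of i.i.d. on edge sets, for a group `Γ` acting on itself by left
multiplication: a measurable map `Φ` with `Φ (γ U) = γ Φ(U)`. Here `(γ U) v = U (γ⁻¹ v)`. -/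
structure IsGroupFactor {Γ : Type u} [Group Γ] (Φ : (Γ → I) → Set (Sym2 Γ)) : Prop where
  measurable : Measurable Φ
  equivariant : ∀ (γ : Γ) (U : Γ → I),
    Φ (fun v => U (γ⁻¹ * v)) = mapEdges (Equiv.mulLeft γ) (Φ U)

/-- A graph factor: a Borel function of a graph on the vertex set `ℕ`, of vertex labels and of
an edge, depending only on the isomorphism class of the labelled graph with distinguished
edge. -/
structure IsGraphFactor (Φ : SimpleGraph ℕ → (ℕ → I) → Set (Sym2 ℕ)) : Prop where
  measurable : Measurable (fun p : SimpleGraph ℕ × (ℕ → I) => Φ p.1 p.2)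
  invariant : ∀ (G G' : SimpleGraph ℕ) (φ : G ≃g G') (U : ℕ → I),
    Φ G' (fun v => U (φ.symm v)) = mapEdges φ.toEquiv (Φ G U)

/-- A unimodular random graph: a random rooted graph on the vertex set `ℕ`, almost surely
connected and locally finite, satisfying the mass transport principle. -/
structure IsUnimodular (μ : Measure (SimpleGraph ℕ × ℕ)) : Prop where
  prob : IsProbabilityMeasure μ
  connected : ∀ᵐ p ∂μ, p.1.Connected
  locallyFinite : ∀ᵐ p ∂μ, ∀ v, (p.1.neighborSet v).Finite
  massTransport : ∀ f : SimpleGraph ℕ → ℕ → ℕ → ℝ≥0∞,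
    Measurable (fun p : SimpleGraph ℕ × ℕ × ℕ => f p.1 p.2.1 p.2.2) →
    (∀ (G G' : SimpleGraph ℕ) (φ : G ≃g G') (x y : ℕ), f G' (φ x) (φ y) = f G x y) →
    ∫⁻ p, ∑' v, f p.1 p.2 v ∂μ = ∫⁻ p, ∑' v, f p.1 v p.2 ∂μ

end Vale.Agent.P143
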