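import Vale.Agent.P143.Defs

/-!
# Energies and effective conductances
-/

open MeasureTheory Set Filter Topology
open scoped unitInterval ENNReal

namespace Vale.Agent.P143

universe u

variable {V : Type u}

/-- The squared gradient of `h` along an edge. -/
def dsq (h : V → ℝ) : Sym2 V → ℝ :=
  Sym2.lift ⟨fun a b => (h a - h b) ^ 2, fun a b => by ring⟩

/-- The energy of `h` over a finite set of edges with weights `exp (y f)`. -/
noncomputable def energy (H : Finset (Sym2 V)) (y : Sym2 V → ℝ) (h : V → ℝ) : ℝ :=
  ∑ f ∈ H, Real.exp (y f) * dsq h f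

/-- The effective conductance between the endpoints of `e`. -/
noncomputable def econd (H : Finset (Sym2 V)) (y : Sym2 V → ℝ) (e : Sym2 V) : ℝ :=
  ⨅ h : {h : V → ℝ // dsq h e = 1}, energy H y h.1

open Classical in
/-- The edge sets of the spanning trees of `H`, as a finset of finsets. -/
noncomputable def treeSets {G : SimpleGraph V} (H : G.Subgraph) (hE : H.edgeSet.Finite) :
    Finset (Finset (Sym2 V)) :=
  hE.toFinset.powerset.filter (fun S => ∃ T ∈ spanningTrees H, T.edgeSet = (S : Set (Sym2 V)))

end Vale.Agent.P143
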