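import Vale.Agent.P143.Factor

/-!
# Equivariance of the factor map
-/

open MeasureTheory Set Filter Topology ProbabilityTheory
open scoped unitInterval ENNReal

namespace Vale.Agent.P143

universe u

variable {V V' : Type u}

/-- The bijection of pairs induced by a bijection of vertices. -/
def symEquiv (φ : V ≃ V') : Sym2 V ≃ Sym2 V' where
  toFun := Sym2.map φ
  invFun := Sym2.map φ.symm
  left_inv := by
    intro e
    rw [Sym2.map_map]
    simp
  right_inv := by
    intro e
    rw [Sym2.map_map]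
    simp

@[simp] theorem symEquiv_apply (φ : V ≃ V') (e : Sym2 V) : symEquiv φ e = Sym2.map φ e := rfl

theorem dsq_map (φ : V ≃ V') (h : V' → ℝ) (e : Sym2 V) :
    dsq h (Sym2.map φ e) = dsq (fun v => h (φ v)) e := by
  induction e with
  | _ a b => rfl

theorem econd_map (φ : V ≃ V') (H : Finset (Sym2 V)) (y : Sym2 V' → ℝ) (e : Sym2 V) :
    econd (H.map (symEquiv φ).toEmbedding) y (Sym2.map φ e) =
      econd H (fun f => y (Sym2.map φ f)) e := by
  unfold econd
  let Ψ : {h : V' → ℝ // dsq h (Sym2.map φ e) = 1} ≃ {h : V → ℝ // dsq h e = 1} :=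
    { toFun := fun h => ⟨fun v => h.1 (φ v), by rw [← dsq_map]; exact h.2⟩
      invFun := fun h => ⟨fun v => h.1 (φ.symm v), by rw [dsq_map]; simpa using h.2⟩
      left_inv := fun h => by ext v; simp
      right_inv := fun h => by ext v; simp }
  refine Equiv.iInf_congr Ψ fun h => ?_
  unfold energy
  rw [Finset.sum_map]
  refine Finset.sum_congr rfl fun f _ => ?_
  have h1 : (symEquiv φ).toEmbedding f = Sym2.map φ f := rfl
  rw [h1, dsq_map]
  rfl

theorem icond_map {G : SimpleGraph V} {G' : SimpleGraph V'} (φ : G ≃g G') (y : Sym2 V' → ℝ)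
    (e : Sym2 V) :
    icond G' y (Sym2.map φ e) = icond G (fun f => y (Sym2.map φ f)) e := by
  unfold icond
  symm
  refine Equiv.iSup_congr (symEquiv φ.toEquiv).finsetCongr fun H => ?_
  have h1 : (symEquiv φ.toEquiv).finsetCongr H = H.map (symEquiv φ.toEquiv).toEmbedding := rfl
  rw [h1]
  refine iSup_congr_Prop ?_ fun _ => ?_
  · constructor
    · intro h e he
      have he' : Sym2.map φ e ∈ G'.edgeSet :=
        h (by
          rw [Finset.coe_map]
          exact ⟨e, he, rfl⟩)
      exact (SimpleGraph.Iso.map_mem_edgeSet_iff φ).1 he'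
    · intro h
      rw [Finset.coe_map]
      rintro _ ⟨e, he, rfl⟩
      exact (SimpleGraph.Iso.map_mem_edgeSet_iff φ).2 (h he)
  · exact congrArg ENNReal.ofReal (econd_map φ.toEquiv H y e)

theorem gmean_map {G : SimpleGraph V} {G' : SimpleGraph V'} (φ : G ≃g G') (y : Sym2 V' → ℝ)
    (e : Sym2 V) :
    gmean G' y (Sym2.map φ e) = gmean G (fun f => y (Sym2.map φ f)) e := by
  have h := SimpleGraph.Iso.map_mem_edgeSet_iff φ (e := e)
  unfold gmean
  rw [icond_map]
  by_cases he : e ∈ G.edgeSet
  · rw [if_pos he, if_pos (h.2 he)]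
  · rw [if_neg he, if_neg fun h' => he (h.1 h')]

theorem xlim_map {φ : V → V'} {z : ℕ × Sym2 V → I} {z' : ℕ × Sym2 V' → I} {e : Sym2 V}
    (h : ∀ k, z' (k, Sym2.map φ e) = z (k, e)) : xlim z' (Sym2.map φ e) = xlim z e := by
  unfold xlim st stat
  simp only [h]

theorem fac_map {G : SimpleGraph V} {G' : SimpleGraph V'} (φ : G ≃g G') (W : V → ℕ → I) :
    fac G' (fun v => W (φ.symm v)) = mapEdges φ.toEquiv (fac G W) := by
  have hz : ∀ (k : ℕ) (e : Sym2 V),
      Zs G' (fun e => seed G' (fun v => W (φ.symm v)) e 0)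
        (fun j => seed G' (fun v => W (φ.symm v)) j.2 (j.1 + 1)) (k, Sym2.map φ e) =
      Zs G (fun e => seed G W e 0) (fun j => seed G W j.2 (j.1 + 1)) (k, e) := by
    intro k e
    unfold Zs
    refine (sampler_comp (m := gmean G) (m' := gmean G') (Sym2.map φ) (gmean_map φ)
      _ _ (k, e)).trans ?_
    congr 1
    · funext f
      exact seed_map G G' φ W f 0
    · funext j
      exact seed_map G G' φ W j.2 (j.1 + 1)
  ext e'
  obtain ⟨e, rfl⟩ := (symEquiv φ.toEquiv).surjective e'
  have h1 : (symEquiv φ.toEquiv) e = Sym2.map φ e := rfl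
  have h2 : Sym2.map φ e ∈ mapEdges φ.toEquiv (fac G W) ↔ e ∈ fac G W := by
    unfold mapEdges
    exact (Sym2.map.injective φ.injective).mem_set_image
  rw [h1, h2]
  unfold fac dec2 decode
  simp only [mem_ofPred_eq]
  rw [SimpleGraph.Iso.map_mem_edgeSet_iff φ, xlim_map fun k => hz k e]

theorem factorMap_map [Countable V] [Countable V'] {G : SimpleGraph V} {G' : SimpleGraph V'}
    (φ : G ≃g G') (U : V → I) :
    factorMap G' (fun v => U (φ.symm v)) = mapEdges φ.toEquiv (factorMap G U) :=
  fac_map φ fun v => splitLabel (U v)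

end Vale.Agent.P143
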