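import Vale.Agent.P143.Defs

/-!
# Existence of exhaustions
-/

open MeasureTheory Set Filter Topology
open scoped unitInterval ENNReal

namespace Vale.Agent.P143

universe u

variable {V : Type u}

/-- The ball of radius `n` around `o`. -/
def gball (G : SimpleGraph V) (o : V) : ℕ → Set V
  | 0 => {o}
  | n + 1 => gball G o n ∪ ⋃ v ∈ gball G o n, G.neighborSet v

theorem gball_mono (G : SimpleGraph V) (o : V) : Monotone (gball G o) :=
  monotone_nat_of_le_succ fun _ => subset_union_left

theorem root_mem_gball (G : SimpleGraph V) (o : V) (n : ℕ) : o ∈ gball G o n :=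
  gball_mono G o (Nat.zero_le n) (mem_singleton o)

theorem gball_finite {G : SimpleGraph V} (hG : ∀ v, (G.neighborSet v).Finite) (o : V) (n : ℕ) :
    (gball G o n).Finite := by
  induction n with
  | zero => exact finite_singleton o
  | succ n ih => exact ih.union (ih.biUnion fun v _ => hG v)

theorem gball_reachable (G : SimpleGraph V) (o : V) (n : ℕ) :
    ∀ v (hv : v ∈ gball G o n),
      (G.induce (gball G o n)).Reachable ⟨o, root_mem_gball G o n⟩ ⟨v, hv⟩ := by
  induction n with
  | zero =>
    intro v hv
    obtain rfl : v = o := hv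
    exact SimpleGraph.Reachable.refl _
  | succ n ih =>
    have hsub : gball G o n ⊆ gball G o (n + 1) := gball_mono G o (Nat.le_succ n)
    have h1 : ∀ v (hv : v ∈ gball G o n),
        (G.induce (gball G o (n + 1))).Reachable ⟨o, root_mem_gball G o (n + 1)⟩
          ⟨v, hsub hv⟩ := by
      intro v hv
      exact (ih v hv).map (SimpleGraph.induceHomOfLE G hsub).toHom
    intro v hv
    rcases hv with hv | hv
    · exact h1 v hv
    · obtain ⟨w, hw, hwv⟩ := mem_iUnion₂.1 hv
      refine (h1 w hw).trans (SimpleGraph.Adj.reachable ?_)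
      exact hwv

theorem exists_mem_gball {G : SimpleGraph V} (hc : G.Connected) (o v : V) :
    ∃ n, v ∈ gball G o n := by
  obtain ⟨p⟩ := hc.preconnected o v
  have h : ∀ (u v : V) (p : G.Walk u v) (n : ℕ), u ∈ gball G o n → ∃ m, v ∈ gball G o m := by
    intro u v p
    induction p with
    | nil => intro n hn; exact ⟨n, hn⟩
    | cons hadj _ ih =>
      intro n hn
      exact ih (n + 1) (Or.inr (mem_iUnion₂.2 ⟨_, hn, hadj⟩))
  exact h o v p 0 (mem_singleton o)

/-- Every connected locally finite graph has an exhaustion. -/
theorem exists_isExhaustion {G : SimpleGraph V} (hc : G.Connected)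
    (hG : ∀ v, (G.neighborSet v).Finite) : ∃ H, IsExhaustion G H := by
  obtain ⟨o⟩ := hc.nonempty
  refine ⟨fun n => (⊤ : G.Subgraph).induce (gball G o n), ?_, ?_, ?_, ?_⟩
  · intro m n hmn
    exact SimpleGraph.Subgraph.induce_mono_right (gball_mono G o hmn)
  · intro n
    exact gball_finite hG o n
  · intro n
    rw [← SimpleGraph.connected_induce_iff]
    refine G.induce_connected_of_patches o (root_mem_gball G o n) fun {v} hv => ?_
    exact ⟨gball G o n, subset_rfl, root_mem_gball G o n, hv, gball_reachable G o n v hv⟩
  · ext a b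
    · rw [SimpleGraph.Subgraph.verts_iSup]
      simp only [SimpleGraph.Subgraph.induce_verts, mem_iUnion, SimpleGraph.Subgraph.verts_top,
        mem_univ, iff_true]
      exact exists_mem_gball hc o a
    · rw [SimpleGraph.Subgraph.iSup_adj]
      simp only [SimpleGraph.Subgraph.induce_adj, SimpleGraph.Subgraph.top_adj]
      constructor
      · rintro ⟨n, _, _, h⟩
        exact h
      · intro h
        obtain ⟨n, hn⟩ := exists_mem_gball hc o a
        exact ⟨n + 1, gball_mono G o (Nat.le_succ n) hn, Or.inr (mem_iUnion₂.2 ⟨a, hn, h⟩), h⟩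

/-- A connected locally finite graph is countable. -/
theorem countable_of_connected {G : SimpleGraph V} (hc : G.Connected)
    (hG : ∀ v, (G.neighborSet v).Finite) : Countable V := by
  obtain ⟨o⟩ := hc.nonempty
  have h : (⋃ n, gball G o n) = univ := by
    ext v
    simpa using exists_mem_gball hc o v
  rw [← Set.countable_univ_iff, ← h]
  exact countable_iUnion fun n => (gball_finite hG o n).countable

section Cayley

variable {Γ : Type u} [Group Γ] {S : Set Γ}

/-- Left multiplication is an automorphism of the Cayley graph. -/
def cayleyAut (S : Set Γ) (γ : Γ) : SimpleGraph.mulCayley S ≃g SimpleGraph.mulCayley S where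
  toEquiv := Equiv.mulLeft γ
  map_rel_iff' := by
    intro a b
    exact SimpleGraph.mulCayley_adj_mul_iff_right

theorem cayley_reachable_mul {a b : Γ} (γ : Γ)
    (h : (SimpleGraph.mulCayley S).Reachable a b) :
    (SimpleGraph.mulCayley S).Reachable (γ * a) (γ * b) :=
  h.map (cayleyAut S γ).toHom

theorem cayley_connected (hS : Subgroup.closure S = ⊤) : (SimpleGraph.mulCayley S).Connected := by
  have h1 : ∀ g : Γ, (SimpleGraph.mulCayley S).Reachable 1 g := by
    intro g
    have hg : g ∈ Subgroup.closure S := hS ▸ Subgroup.mem_top g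
    induction hg using Subgroup.closure_induction with
    | mem s hs =>
      by_cases h : (1 : Γ) = s
      · exact h ▸ SimpleGraph.Reachable.refl _
      · refine SimpleGraph.Adj.reachable ?_
        rw [SimpleGraph.mulCayley_adj]
        exact ⟨h, Or.inl (by simpa using hs)⟩
    | one => exact SimpleGraph.Reachable.refl _
    | mul x y _ _ hx hy =>
      have := cayley_reachable_mul x hy
      rw [mul_one] at this
      exact hx.trans this
    | inv x _ hx =>
      have := cayley_reachable_mul x⁻¹ hx
      rw [mul_one, inv_mul_cancel] at this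
      exact this.symm
  exact { preconnected := fun a b => (h1 a).symm.trans (h1 b), nonempty := ⟨1⟩ }

theorem cayley_locallyFinite (hS : S.Finite) (v : Γ) :
    ((SimpleGraph.mulCayley S).neighborSet v).Finite := by
  refine ((hS.image (fun s => v * s)).union (hS.image (fun s => v * s⁻¹))).subset ?_
  intro w hw
  rw [SimpleGraph.mem_neighborSet, SimpleGraph.mulCayley_adj] at hw
  rcases hw.2 with h | h
  · exact Or.inl ⟨_, h, by simp⟩
  · exact Or.inr ⟨_, h, by simp⟩

end Cayley

end Vale.Agent.P143
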