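import Vale.Agent.P143.LimitLaw
import Vale.Agent.P143.Exhaust

/-!
# The factor map
-/

open MeasureTheory Set Filter Topology ProbabilityTheory
open scoped unitInterval ENNReal

namespace Vale.Agent.P143

universe u

variable {V : Type u}

theorem econd_congr {H : Finset (Sym2 V)} {y y' : Sym2 V → ℝ} (h : ∀ f ∈ H, y f = y' f)
    (e : Sym2 V) : econd H y e = econd H y' e := by
  unfold econd energy
  congr 1
  funext g
  exact Finset.sum_congr rfl fun f hf => by rw [h f hf]

theorem gmean_congr {G : SimpleGraph V} {y y' : Sym2 V → ℝ} (h : ∀ f ∈ G.edgeSet, y f = y' f)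
    (e : Sym2 V) : gmean G y e = gmean G y' e := by
  unfold gmean
  split_ifs with he
  · rw [h e he]
    congr 2
    unfold icond
    refine iSup_congr fun H => iSup_congr fun hH => ?_
    rw [econd_congr fun f hf => h f (hH hf)]
  · rfl

/-- Membership in the decoded set only depends on the signals at the edge. -/
theorem xlim_congr {z z' : ℕ × Sym2 V → I} {e : Sym2 V} (h : ∀ k, z (k, e) = z' (k, e)) :
    xlim z e = xlim z' e := by
  unfold xlim st
  congr 1
  funext i
  exact stat_congr fun k _ => h k

open Classical in
/-- The posterior mean function on the edge set. -/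
noncomputable def rmean (G : SimpleGraph V) (y : G.edgeSet → ℝ) (e : G.edgeSet) : ℝ :=
  gmean G (fun f => if h : f ∈ G.edgeSet then y ⟨f, h⟩ else 0) e

theorem Zs_edge (G : SimpleGraph V) (U : Sym2 V → I) (v : ℕ × Sym2 V → I) (k : ℕ)
    (e : G.edgeSet) :
    Zs G U v (k, e) = sampler (rmean G) (fun e => U e) (fun j => v (j.1, j.2)) (k, e) := by
  unfold Zs
  refine sampler_comp (m := rmean G) (m' := gmean G) (fun e : G.edgeSet => (e : Sym2 V)) ?_
    U v (k, e)
  intro y e
  unfold rmean
  refine gmean_congr (fun f hf => ?_) _
  rw [dif_pos hf]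

theorem decode_Zs_congr {G : SimpleGraph V} {U U' : Sym2 V → I} {v v' : ℕ × Sym2 V → I}
    (hU : ∀ e ∈ G.edgeSet, U e = U' e) (hv : ∀ k, ∀ e ∈ G.edgeSet, v (k, e) = v' (k, e)) :
    decode G (Zs G U v) = decode G (Zs G U' v') := by
  have h : ∀ e ∈ G.edgeSet, xlim (Zs G U v) e = xlim (Zs G U' v') e := by
    intro e he
    refine xlim_congr fun k => ?_
    have h1 := Zs_edge G U v k ⟨e, he⟩
    have h2 := Zs_edge G U' v' k ⟨e, he⟩
    simp only at h1 h2
    rw [h1, h2]
    congr 1
    · funext f
      exact hU f f.2
    · funext j
      exact hv j.1 j.2 j.2.2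
  ext e
  unfold decode
  simp only [mem_ofPred_eq]
  exact and_congr_right fun he => by rw [h e he]

section Law

open Classical in
/-- Extension of seeds from the edges to all pairs. -/
noncomputable def extSeeds (G : SimpleGraph V) (s : G.edgeSet × ℕ → I) :
    (Sym2 V → I) × (ℕ × Sym2 V → I) :=
  (fun e => if h : e ∈ G.edgeSet then s (⟨e, h⟩, 0) else 0,
    fun j => if h : j.2 ∈ G.edgeSet then s (⟨j.2, h⟩, j.1 + 1) else 0)

theorem measurable_extSeeds (G : SimpleGraph V) : Measurable (extSeeds G) := by
  refine Measurable.prodMk (measurable_pi_iff.mpr fun e => ?_) (measurable_pi_iff.mpr fun j => ?_)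
  · by_cases h : e ∈ G.edgeSet
    · simp only [h, dif_pos]
      exact measurable_pi_apply _
    · simp only [h, dif_neg, not_false_eq_true]
      exact measurable_const
  · by_cases h : j.2 ∈ G.edgeSet
    · simp only [h, dif_pos]
      exact measurable_pi_apply _
    · simp only [h, dif_neg, not_false_eq_true]
      exact measurable_const

/-- The seeds at the edges. -/
def resSeeds (G : SimpleGraph V) (p : (Sym2 V → I) × (ℕ × Sym2 V → I)) : G.edgeSet × ℕ → I :=
  fun j => assemble (fun e : G.edgeSet => p.1 e, fun i : G.edgeSet × ℕ => p.2 (i.2, i.1)) j.1 j.2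

theorem dec2_eq (G : SimpleGraph V) (p : (Sym2 V → I) × (ℕ × Sym2 V → I)) :
    dec2 G p = dec2 G (extSeeds G (resSeeds G p)) := by
  unfold dec2
  refine decode_Zs_congr (fun e he => ?_) (fun k e he => ?_)
  · simp only [extSeeds, he, dif_pos]
    rfl
  · simp only [extSeeds, he, dif_pos]
    rfl

variable [Countable V]

theorem map_resSeeds (G : SimpleGraph V) :
    Measure.map (resSeeds G) ((iidSeeds (Sym2 V)).prod (iidSeeds (ℕ × Sym2 V))) =
      Measure.infinitePi (fun _ : G.edgeSet × ℕ => (volume : Measure I)) := by
  have h1 : Measure.map (Prod.map (fun (b : Sym2 V → I) (e : G.edgeSet) => b e)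
      (fun (b : ℕ × Sym2 V → I) (i : G.edgeSet × ℕ) => b (i.2, i.1)))
      ((iidSeeds (Sym2 V)).prod (iidSeeds (ℕ × Sym2 V))) =
      (Measure.infinitePi (fun _ : G.edgeSet => (volume : Measure I))).prod
        (Measure.infinitePi (fun _ : G.edgeSet × ℕ => (volume : Measure I))) := by
    rw [← Measure.map_prod_map _ _ (by fun_prop) (by fun_prop)]
    congr 1
    · exact map_reindex (fun e : G.edgeSet => (e : Sym2 V)) Subtype.val_injective
    · refine map_reindex (fun i : G.edgeSet × ℕ => (i.2, (i.1 : Sym2 V))) ?_
      rintro ⟨e, k⟩ ⟨e', k'⟩ h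
      simp only [Prod.mk.injEq] at h
      exact Prod.ext (Subtype.ext h.2) h.1
  have h2 := map_assemble (V := G.edgeSet)
  have h3 := Measure.infinitePi_map_curry_symm (X := I) (fun (_ : G.edgeSet) (_ : ℕ) =>
    (volume : Measure I))
  rw [← h2, ← h1, Measure.map_map measurable_assemble (by fun_prop),
    Measure.map_map (MeasurableEquiv.measurable _)
      (measurable_assemble.comp (by fun_prop))] at h3
  exact h3

/-- The edge set computed from vertex labels in `I^ℕ`. -/
noncomputable def fac (G : SimpleGraph V) (W : V → ℕ → I) : Set (Sym2 V) :=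
  dec2 G (fun e => seed G W e 0, fun j => seed G W j.2 (j.1 + 1))

omit [Countable V] in
theorem fac_eq (G : SimpleGraph V) (W : V → ℕ → I) :
    fac G W = dec2 G (extSeeds G (fun j => seed G W j.1 j.2)) := by
  unfold fac dec2
  refine decode_Zs_congr (fun e he => ?_) (fun k e he => ?_)
  · simp only [extSeeds, he, dif_pos]
  · simp only [extSeeds, he, dif_pos]

theorem measurable_fac :
    Measurable (fun p : SimpleGraph V × (V → ℕ → I) => fac p.1 p.2) := by
  refine measurable_set_iff.2 fun e => ?_
  have h1 : Measurable (fun p : SimpleGraph V × (V → ℕ → I) =>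
      Zs p.1 (fun e => seed p.1 p.2 e 0) (fun j => seed p.1 p.2 j.2 (j.1 + 1))) := by
    refine measurable_pi_iff.mpr fun j => ?_
    exact measurable_sampler (A := SimpleGraph V) (m := gmean) measurable_gmean
      (a := fun p : SimpleGraph V × (V → ℕ → I) => p.1) measurable_fst
      (U := fun p e => seed p.1 p.2 e 0) (v := fun p j => seed p.1 p.2 j.2 (j.1 + 1))
      (fun e => measurable_seed e 0) (fun j => measurable_seed j.2 (j.1 + 1)) j
  have h2 : MeasurableSet {p : SimpleGraph V × (V → ℕ → I) |
      0 < xlim (Zs p.1 (fun e => seed p.1 p.2 e 0) (fun j => seed p.1 p.2 j.2 (j.1 + 1))) e} :=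
    measurableSet_lt measurable_const ((measurable_xlim e).comp h1)
  exact ((measurable_set_iff.1 SimpleGraph.measurable_edgeSet e).comp measurable_fst).and
    (measurableSet_setOfPred.1 h2)

/-- The law of the factor. -/
theorem tendsto_ustProb_fac {G : SimpleGraph V} (hG : ∀ v, (G.neighborSet v).Finite)
    {H : ℕ → G.Subgraph} (hH : IsExhaustion G H) (A B : Finset (Sym2 V)) :
    Tendsto (fun n => ustProb (H n) A B) atTop
      (𝓝 ((Measure.infinitePi fun _ : V => Measure.infinitePi fun _ : ℕ =>
        (volume : Measure I)).real (fac G ⁻¹' cyl A B))) := by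
  have h0 := tendsto_ustProb_prod hG hH A B
  have hms : MeasurableSet ((dec2 G ∘ extSeeds G) ⁻¹' cyl A B) :=
    ((measurable_dec2 G).comp (measurable_extSeeds G)) (measurableSet_cyl A B)
  have h1 : ((iidSeeds (Sym2 V)).prod (iidSeeds (ℕ × Sym2 V))).real (dec2 G ⁻¹' cyl A B) =
      (Measure.infinitePi (fun _ : G.edgeSet × ℕ => (volume : Measure I))).real
        ((dec2 G ∘ extSeeds G) ⁻¹' cyl A B) := by
    have hmr : Measurable (resSeeds G) := by
      refine measurable_pi_iff.mpr fun j => ?_
      unfold resSeeds
      refine (measurable_pi_apply j.2).comp ((measurable_pi_apply j.1).comp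
        (measurable_assemble.comp ?_))
      fun_prop
    rw [← map_resSeeds G, map_measureReal_apply hmr hms]
    congr 1
    ext p
    simp only [mem_preimage, Function.comp]
    rw [← dec2_eq]
  have h2 : (Measure.infinitePi fun _ : V => Measure.infinitePi fun _ : ℕ =>
        (volume : Measure I)).real (fac G ⁻¹' cyl A B) =
      (Measure.infinitePi (fun _ : G.edgeSet × ℕ => (volume : Measure I))).real
        ((dec2 G ∘ extSeeds G) ⁻¹' cyl A B) := by
    have hms2 : Measurable (fun (W : V → ℕ → I) (j : G.edgeSet × ℕ) => seed G W j.1 j.2) := by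
      refine measurable_pi_iff.mpr fun j => ?_
      exact (measurable_seed (j.1 : Sym2 V) j.2).comp (measurable_const.prodMk measurable_id)
    rw [← map_seed G hG, map_measureReal_apply hms2 hms]
    congr 1
    ext W
    simp only [mem_preimage, Function.comp]
    rw [← fac_eq]
  rw [h2, ← h1]
  exact h0

end Law

/-! ### From one uniform label to a sequence -/

theorem exists_split : ∃ D : I → ℕ → I, Measurable D ∧
    (volume : Measure I).map D = Measure.infinitePi (fun _ : ℕ => (volume : Measure I)) :=
  (Measure.infinitePi (fun _ : ℕ => (volume : Measure I))).exists_measurable_map_eq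

/-- A measurable map which turns one uniform label into a sequence of i.i.d. uniform labels. -/
noncomputable def splitLabel : I → ℕ → I := exists_split.choose

theorem measurable_splitLabel : Measurable splitLabel := exists_split.choose_spec.1

theorem map_splitLabel : (volume : Measure I).map splitLabel =
    Measure.infinitePi (fun _ : ℕ => (volume : Measure I)) := exists_split.choose_spec.2

/-- The factor map. -/
noncomputable def factorMap [Countable V] (G : SimpleGraph V) (U : V → I) : Set (Sym2 V) :=
  fac G (fun v => splitLabel (U v))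

theorem measurable_factorMap [Countable V] :
    Measurable (fun p : SimpleGraph V × (V → I) => factorMap p.1 p.2) := by
  have h1 : Measurable (fun p : SimpleGraph V × (V → I) => (p.1, fun v => splitLabel (p.2 v))) := by
    refine measurable_fst.prodMk (measurable_pi_iff.mpr fun v => ?_)
    exact measurable_splitLabel.comp ((measurable_pi_apply v).comp measurable_snd)
  exact measurable_fac.comp h1

theorem isFUSF_factorMap [Countable V] (G : SimpleGraph V) (hc : G.Connected)
    (hG : ∀ v, (G.neighborSet v).Finite) : IsFUSF G ((iidLabels V).map (factorMap G)) where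
  exists_exhaustion := exists_isExhaustion hc hG
  prob := by
    have : IsProbabilityMeasure (iidLabels V) := by unfold iidLabels; infer_instance
    exact Measure.isProbabilityMeasure_map
      (measurable_factorMap.comp (measurable_const.prodMk measurable_id)).aemeasurable
  tendsto := by
    intro H hH A B
    have h0 := tendsto_ustProb_fac hG hH A B
    have hmf : Measurable (factorMap G) :=
      measurable_factorMap.comp (measurable_const.prodMk measurable_id)
    have hmfac : Measurable (fac G) :=
      measurable_fac.comp (measurable_const.prodMk measurable_id)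
    have hml : Measurable (fun (U : V → I) v => splitLabel (U v)) :=
      measurable_pi_iff.mpr fun v => measurable_splitLabel.comp (measurable_pi_apply v)
    have h1 : Measure.map (fun (U : V → I) v => splitLabel (U v)) (iidLabels V) =
        Measure.infinitePi fun _ : V => Measure.infinitePi fun _ : ℕ => (volume : Measure I) := by
      unfold iidLabels
      rw [Measure.infinitePi_map_pi (fun _ : V => (volume : Measure I))
        (f := fun _ => splitLabel) (fun _ => measurable_splitLabel)]
      simp only [map_splitLabel]
    rw [← h1, map_measureReal_apply hml (hmfac (measurableSet_cyl A B))] at h0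
    change Tendsto _ _ (𝓝 (((iidLabels V).map (factorMap G)).real (cyl A B)))
    rw [map_measureReal_apply hmf (measurableSet_cyl A B)]
    exact h0

end Vale.Agent.P143
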