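import Vale.Agent.P143.Energy

/-!
# Kirchhoff's formula for the uniform spanning tree

The proof is combinatorial: the sum of the indicators of the sides of `T - e` over the spanning
trees `T` containing `e` is (a multiple of) the unit voltage, as one sees with the exchange
`T ↦ T - e + f`.
-/

open MeasureTheory Set Filter Topology
open scoped unitInterval ENNReal

namespace Vale.Agent.P143

universe u

variable {V : Type u}

namespace Kirch

/-- connectivity through a finite set of edges -/
def Rc (S : Finset (Sym2 V)) : V → V → Prop :=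
  Relation.ReflTransGen (fun x y => s(x, y) ∈ S)

theorem Rc.refl {S : Finset (Sym2 V)} (u : V) : Rc S u u := Relation.ReflTransGen.refl

theorem Rc.trans {S : Finset (Sym2 V)} {u v w : V} (h : Rc S u v) (h' : Rc S v w) : Rc S u w :=
  Relation.ReflTransGen.trans h h'

theorem Rc.single {S : Finset (Sym2 V)} {u v : V} (h : s(u, v) ∈ S) : Rc S u v :=
  Relation.ReflTransGen.single h

theorem Rc.symm {S : Finset (Sym2 V)} {u v : V} (h : Rc S u v) : Rc S v u := by
  induction h with
  | refl => exact Rc.refl _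
  | tail _ hxy ih => exact Rc.trans (Rc.single (by rw [Sym2.eq_swap]; exact hxy)) ih

theorem Rc.mono {S T : Finset (Sym2 V)} (hST : S ⊆ T) {u v : V} (h : Rc S u v) : Rc T u v := by
  induction h with
  | refl => exact Rc.refl _
  | tail _ hxy ih => exact Rc.trans ih (Rc.single (hST hxy))

/-- a property preserved along edges is preserved along `Rc` -/
theorem Rc.preserve {S : Finset (Sym2 V)} {P : V → Prop}
    (hP : ∀ u w, s(u, w) ∈ S → P u → P w) {u v : V} (h : Rc S u v) (hu : P u) : P v := by
  induction h with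
  | refl => exact hu
  | tail _ hxy ih => exact hP _ _ hxy ih

section sub

variable {G : SimpleGraph V}

/-- the subgraph on the vertices of `H` with a given set of edges -/
def mkT (H : G.Subgraph) (S : Finset (Sym2 V)) (hS : ∀ f ∈ S, f ∈ H.edgeSet) : G.Subgraph where
  verts := H.verts
  Adj u v := s(u, v) ∈ S
  adj_sub h := H.adj_sub (SimpleGraph.Subgraph.mem_edgeSet.1 (hS _ h))
  edge_vert h := H.edge_vert (SimpleGraph.Subgraph.mem_edgeSet.1 (hS _ h))
  symm := ⟨fun x y h => by rw [Sym2.eq_swap]; exact h⟩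

theorem mkT_edgeSet (H : G.Subgraph) (S : Finset (Sym2 V)) (hS : ∀ f ∈ S, f ∈ H.edgeSet) :
    (mkT H S hS).edgeSet = (S : Set (Sym2 V)) := by
  ext f
  induction f using Sym2.ind with
  | h a b => rw [SimpleGraph.Subgraph.mem_edgeSet]; rfl

theorem coe_card_edgeSet (T : G.Subgraph) :
    Nat.card T.coe.edgeSet = T.edgeSet.ncard := by
  rw [← SimpleGraph.Subgraph.image_coe_edgeSet_coe T,
    Set.ncard_image_of_injective _ (Sym2.map.injective Subtype.val_injective)]
  rfl

/-- connectivity of the coerced graph in terms of `Rc` -/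
theorem coe_connected_iff (T : G.Subgraph) (S : Finset (Sym2 V))
    (hTS : T.edgeSet = (S : Set (Sym2 V))) (hne : T.verts.Nonempty) :
    T.coe.Connected ↔ ∀ u ∈ T.verts, ∀ v ∈ T.verts, Rc S u v := by
  have hadj : ∀ u v, T.Adj u v ↔ s(u, v) ∈ S := by
    intro u v
    rw [← SimpleGraph.Subgraph.mem_edgeSet, hTS]
    exact Finset.mem_coe
  constructor
  · intro h u hu v hv
    have h1 := (SimpleGraph.reachable_iff_reflTransGen (G := T.coe) ⟨u, hu⟩ ⟨v, hv⟩).1
      (h.preconnected ⟨u, hu⟩ ⟨v, hv⟩)
    have key : ∀ w : T.verts, Relation.ReflTransGen T.coe.Adj ⟨u, hu⟩ w → Rc S u (w : V) := by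
      intro w hw
      induction hw with
      | refl => exact Rc.refl _
      | tail _ hxy ih => exact Rc.trans ih (Rc.single ((hadj _ _).1 hxy))
    exact key _ h1
  · intro h
    have : Nonempty T.verts := hne.to_subtype
    refine ⟨?_⟩
    rintro ⟨u, hu⟩ ⟨v, hv⟩
    rw [SimpleGraph.reachable_iff_reflTransGen]
    have key : ∀ w, Rc S u w → ∃ hw : w ∈ T.verts,
        Relation.ReflTransGen T.coe.Adj ⟨u, hu⟩ ⟨w, hw⟩ := by
      intro w hw
      induction hw with
      | refl => exact ⟨hu, Relation.ReflTransGen.refl⟩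
      | tail _ hxy ih =>
        obtain ⟨hx, hr⟩ := ih
        have ha := (hadj _ _).2 hxy
        exact ⟨T.edge_vert ha.symm, hr.tail ha⟩
    obtain ⟨_, h2⟩ := key v (h u hu v hv)
    exact h2

/-- characterization of the edge sets of spanning trees -/
structure IsT (H : G.Subgraph) (S : Finset (Sym2 V)) : Prop where
  sub : ∀ f ∈ S, f ∈ H.edgeSet
  conn : ∀ u ∈ H.verts, ∀ v ∈ H.verts, Rc S u v
  card : S.card + 1 = H.verts.ncard

theorem mem_treeSets_iff (H : G.Subgraph) (hV : H.verts.Finite) (hE : H.edgeSet.Finite)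
    (hne : H.verts.Nonempty) (S : Finset (Sym2 V)) : S ∈ treeSets H hE ↔ IsT H S := by
  classical
  have hfin : Finite H.verts := hV
  unfold treeSets
  rw [Finset.mem_filter, Finset.mem_powerset]
  constructor
  · rintro ⟨hS, T, ⟨hTH, hTV, hT⟩, hTS⟩
    have hfinT : Finite T.verts := by rw [hTV]; exact hfin
    rw [SimpleGraph.isTree_iff_connected_and_card, coe_card_edgeSet, hTS, Set.ncard_coe_finset,
      Nat.card_coe_set_eq] at hT
    refine ⟨fun f hf => hE.mem_toFinset.1 (hS hf), ?_, hTV ▸ hT.2⟩
    have := (coe_connected_iff T S hTS (hTV ▸ hne)).1 hT.1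
    rwa [hTV] at this
  · rintro ⟨hsub, hconn, hcard⟩
    refine ⟨fun f hf => hE.mem_toFinset.2 (hsub f hf), mkT H S hsub, ⟨?_, rfl, ?_⟩,
      mkT_edgeSet H S hsub⟩
    · refine ⟨le_refl _, fun u v huv => SimpleGraph.Subgraph.mem_edgeSet.1 (hsub _ huv)⟩
    · have hfin' : Finite (mkT H S hsub).verts := hfin
      rw [SimpleGraph.isTree_iff_connected_and_card, coe_card_edgeSet, mkT_edgeSet,
        Set.ncard_coe_finset, Nat.card_coe_set_eq]
      exact ⟨(coe_connected_iff (mkT H S hsub) S (mkT_edgeSet H S hsub) hne).2 hconn, hcard⟩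

/-- tree edges are bridges -/
theorem IsT.bridge [DecidableEq (Sym2 V)] {H : G.Subgraph} (hV : H.verts.Finite)
    {S : Finset (Sym2 V)} (hS : IsT H S) {x y : V} (hf : s(x, y) ∈ S) :
    ¬ Rc (S.erase s(x, y)) x y := by
  intro hR
  have hfin : Finite H.verts := hV
  have hx : x ∈ H.verts := H.edge_vert (SimpleGraph.Subgraph.mem_edgeSet.1 (hS.sub _ hf))
  have hsub : ∀ f ∈ S.erase s(x, y), f ∈ H.edgeSet :=
    fun f hf' => hS.sub f (Finset.mem_of_mem_erase hf')
  have hconn : ∀ u ∈ H.verts, ∀ v ∈ H.verts, Rc (S.erase s(x, y)) u v := by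
    intro u hu v hv
    apply Rc.preserve (P := fun z => Rc (S.erase s(x, y)) u z) _ (hS.conn u hu v hv) (Rc.refl u)
    intro a b hab hua
    by_cases h : s(a, b) = s(x, y)
    · rcases Sym2.eq_iff.1 h with ⟨rfl, rfl⟩ | ⟨rfl, rfl⟩
      · exact hua.trans hR
      · exact hua.trans hR.symm
    · exact hua.trans (Rc.single (Finset.mem_erase.2 ⟨h, hab⟩))
  have h1 := (coe_connected_iff (mkT H (S.erase s(x, y)) hsub) _ (mkT_edgeSet H _ hsub)
    ⟨x, hx⟩).2 hconn
  have h2 := h1.card_vert_le_card_edgeSet_add_one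
  rw [coe_card_edgeSet, mkT_edgeSet, Set.ncard_coe_finset, Nat.card_coe_set_eq,
    Finset.card_erase_of_mem hf] at h2
  have h3 := hS.card
  have h4 : 0 < S.card := Finset.card_pos.2 ⟨_, hf⟩
  change H.verts.ncard ≤ _ at h2
  omega

/-- removing an edge splits a tree into the sides of its endpoints -/
theorem IsT.split [DecidableEq (Sym2 V)] {H : G.Subgraph}
    {S : Finset (Sym2 V)} (hS : IsT H S) {x y z : V} (hx : x ∈ H.verts) (hz : z ∈ H.verts) :
    Rc (S.erase s(x, y)) x z ∨ Rc (S.erase s(x, y)) y z := by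
  apply Rc.preserve (P := fun z => Rc (S.erase s(x, y)) x z ∨ Rc (S.erase s(x, y)) y z) _
    (hS.conn x hx z hz) (Or.inl (Rc.refl x))
  intro a b hab h
  by_cases hab' : s(a, b) = s(x, y)
  · rcases Sym2.eq_iff.1 hab' with ⟨rfl, rfl⟩ | ⟨rfl, rfl⟩
    · exact Or.inr (Rc.refl _)
    · exact Or.inl (Rc.refl _)
  · have h1 : Rc (S.erase s(x, y)) a b := Rc.single (Finset.mem_erase.2 ⟨hab', hab⟩)
    rcases h with h | h
    · exact Or.inl (h.trans h1)
    · exact Or.inr (h.trans h1)

/-- exchange of edges -/
theorem IsT.exchange [DecidableEq (Sym2 V)] {H : G.Subgraph}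
    {S : Finset (Sym2 V)} (hS : IsT H S) {x y a b : V} (hf : s(x, y) ∈ S)
    (he : s(a, b) ∈ H.edgeSet) (hab : ¬ Rc (S.erase s(x, y)) a b) :
    IsT H (insert s(a, b) (S.erase s(x, y))) := by
  have hadj := SimpleGraph.Subgraph.mem_edgeSet.1 he
  have ha : a ∈ H.verts := H.edge_vert hadj
  have hb : b ∈ H.verts := H.edge_vert hadj.symm
  have hfadj := SimpleGraph.Subgraph.mem_edgeSet.1 (hS.sub _ hf)
  have hx : x ∈ H.verts := H.edge_vert hfadj
  set S0 := S.erase s(x, y) with hS0
  have hmono : S0 ⊆ insert s(a, b) S0 := Finset.subset_insert _ _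
  have he1 : Rc (insert s(a, b) S0) a b := Rc.single (Finset.mem_insert_self _ _)
  have hxy : Rc (insert s(a, b) S0) x y := by
    rcases hS.split (y := y) hx ha with h1 | h1 <;> rcases hS.split (y := y) hx hb with h2 | h2
    · exact absurd (h1.symm.trans h2) hab
    · exact ((h1.mono hmono).trans he1).trans (h2.mono hmono).symm
    · exact ((h2.mono hmono).trans he1.symm).trans (h1.mono hmono).symm
    · exact absurd (h1.symm.trans h2) hab
  refine ⟨?_, ?_, ?_⟩
  · intro f hf'
    rcases Finset.mem_insert.1 hf' with rfl | hf'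
    · exact he
    · exact hS.sub f (Finset.mem_of_mem_erase hf')
  · intro u hu v hv
    apply Rc.preserve (P := fun z => Rc (insert s(a, b) S0) u z) _ (hS.conn u hu v hv)
      (Rc.refl u)
    intro c d hcd huc
    by_cases h : s(c, d) = s(x, y)
    · rcases Sym2.eq_iff.1 h with ⟨rfl, rfl⟩ | ⟨rfl, rfl⟩
      · exact huc.trans hxy
      · exact huc.trans hxy.symm
    · exact huc.trans (Rc.single (Finset.mem_insert_of_mem (Finset.mem_erase.2 ⟨h, hcd⟩)))
  · have hnot : s(a, b) ∉ S0 := fun h => hab (Rc.single h)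
    rw [Finset.card_insert_of_notMem hnot, hS0, Finset.card_erase_of_mem hf]
    have h3 := hS.card
    have h4 : 0 < S.card := Finset.card_pos.2 ⟨_, hf⟩
    omega

end sub

/-- the product of the gradients of two functions along an edge -/
def dpr (g h : V → ℝ) : Sym2 V → ℝ :=
  Sym2.lift ⟨fun a b => (g a - g b) * (h a - h b), fun a b => by ring⟩

@[simp] theorem dpr_mk (g h : V → ℝ) (a b : V) : dpr g h s(a, b) = (g a - g b) * (h a - h b) :=
  rfl

@[simp] theorem dsq_mk (h : V → ℝ) (a b : V) : dsq h s(a, b) = (h a - h b) ^ 2 := rfl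

theorem dpr_self (h : V → ℝ) (f : Sym2 V) : dpr h h f = dsq h f := by
  induction f using Sym2.ind with
  | h a b => rw [dpr_mk, dsq_mk]; ring

open Classical in
/-- indicator of the side of `a` -/
noncomputable def side (S : Finset (Sym2 V)) (a z : V) : ℝ := if Rc S a z then 1 else 0

theorem side_self (S : Finset (Sym2 V)) (a : V) : side S a a = 1 := by
  unfold side; rw [if_pos (Rc.refl a)]

theorem side_eq_of_Rc {S : Finset (Sym2 V)} {a x y : V} (h : Rc S x y) :
    side S a x = side S a y := by
  unfold side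
  by_cases hx : Rc S a x
  · rw [if_pos hx, if_pos (hx.trans h)]
  · rw [if_neg hx, if_neg (fun hy => hx (hy.trans h.symm))]

theorem dpr_eq_zero {g h : V → ℝ} {x y : V} (hg : g x = g y) : dpr g h s(x, y) = 0 := by
  rw [dpr_mk, hg, sub_self, zero_mul]

theorem dpr_sum {α : Type*} (A : Finset α) (w : α → ℝ) (k : α → V → ℝ) (h : V → ℝ)
    (f : Sym2 V) :
    dpr (fun z => ∑ S ∈ A, w S * k S z) h f = ∑ S ∈ A, w S * dpr (k S) h f := by
  induction f using Sym2.ind with
  | h x y =>
    simp only [dpr_mk]
    rw [← Finset.sum_sub_distrib, Finset.sum_mul]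
    exact Finset.sum_congr rfl (fun S _ => by ring)

section main

variable {G : SimpleGraph V}

open Classical in
/-- the potential is recovered from its differences along the tree -/
theorem telescope {H : G.Subgraph} (hV : H.verts.Finite) {S : Finset (Sym2 V)} (hS : IsT H S)
    {a z : V} (ha : a ∈ H.verts) (hz : z ∈ H.verts) (h : V → ℝ) :
    ∑ f ∈ S, dpr (side (S.erase f) a) h f * (1 - side (S.erase f) a z) = h a - h z := by
  have key : ∑ f ∈ S, dpr (side (S.erase f) a) h f * (1 - side (S.erase f) a z) + h z = h a := by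
    apply Rc.preserve (S := S) (u := a)
      (P := fun z => ∑ f ∈ S, dpr (side (S.erase f) a) h f * (1 - side (S.erase f) a z) + h z =
        h a) _ (hS.conn a ha z hz)
    · simp [side_self]
    · intro u w huw hu
      rw [← hu]
      have hadj := SimpleGraph.Subgraph.mem_edgeSet.1 (hS.sub _ huw)
      have huV : u ∈ H.verts := H.edge_vert hadj
      have h1 : ∑ f ∈ S, dpr (side (S.erase f) a) h f * (1 - side (S.erase f) a w) -
          ∑ f ∈ S, dpr (side (S.erase f) a) h f * (1 - side (S.erase f) a u) = h u - h w := by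
        rw [← Finset.sum_sub_distrib, Finset.sum_eq_single s(u, w)]
        · have h2 : (side (S.erase s(u, w)) a u = 1 ∧ side (S.erase s(u, w)) a w = 0) ∨
              (side (S.erase s(u, w)) a u = 0 ∧ side (S.erase s(u, w)) a w = 1) := by
            have hb := hS.bridge hV huw
            unfold side
            rcases hS.split (y := w) huV ha with h3 | h3
            · left
              exact ⟨if_pos h3.symm, if_neg (fun h4 => hb (h3.trans h4))⟩
            · right
              exact ⟨if_neg (fun h4 => hb (h3.trans h4).symm), if_pos h3.symm⟩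
          rw [dpr_mk]
          rcases h2 with ⟨e1, e2⟩ | ⟨e1, e2⟩ <;> rw [e1, e2] <;> ring
        · intro f _ hne
          have : side (S.erase f) a u = side (S.erase f) a w :=
            side_eq_of_Rc (Rc.single (Finset.mem_erase.2 ⟨hne.symm, huw⟩))
          rw [this]; ring
        · intro hn; exact absurd huw hn
      linarith
  linarith

/-- `f` joins two different components of `R` -/
def nc (R : Finset (Sym2 V)) (f : Sym2 V) : Prop := ∀ x y, s(x, y) = f → ¬ Rc R x y

theorem dpr_side_of_not_nc {R : Finset (Sym2 V)} {f : Sym2 V} (a : V) (h : V → ℝ)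
    (hf : ¬ nc R f) : dpr (side R a) h f = 0 := by
  unfold nc at hf
  push Not at hf
  obtain ⟨x, y, rfl, hR⟩ := hf
  exact dpr_eq_zero (side_eq_of_Rc hR)

theorem notMem_of_nc {R : Finset (Sym2 V)} {f : Sym2 V} (hf : nc R f) : f ∉ R := by
  induction f using Sym2.ind with
  | h x y => exact fun hm => hf x y rfl (Rc.single hm)

open Classical in
/-- the sum of the sides of `a` over the spanning trees containing `e` -/
noncomputable def volt (H : G.Subgraph) (hE : H.edgeSet.Finite) (y : Sym2 V → ℝ) (e : Sym2 V)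
    (a z : V) : ℝ :=
  ∑ S ∈ (treeSets H hE).filter (fun S => e ∈ S), (∏ f ∈ S, Real.exp (y f)) * side (S.erase e) a z

open Classical in
theorem bilinear_identity (H : G.Subgraph) (hV : H.verts.Finite) (hE : H.edgeSet.Finite)
    (y : Sym2 V → ℝ) {a b : V} (he : s(a, b) ∈ H.edgeSet) (h : V → ℝ) :
    ∑ f ∈ hE.toFinset, Real.exp (y f) * dpr (volt H hE y s(a, b) a) h f =
      Real.exp (y s(a, b)) * (∑ S ∈ treeSets H hE, ∏ f ∈ S, Real.exp (y f)) * (h a - h b) := by
  have hadj := SimpleGraph.Subgraph.mem_edgeSet.1 he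
  have ha : a ∈ H.verts := H.edge_vert hadj
  have hb : b ∈ H.verts := H.edge_vert hadj.symm
  have hne : H.verts.Nonempty := ⟨a, ha⟩
  have hmem : ∀ S, S ∈ treeSets H hE ↔ IsT H S := mem_treeSets_iff H hV hE hne
  set e : Sym2 V := s(a, b) with hedef
  set TS := treeSets H hE with hTS
  set E := hE.toFinset with hEdef
  -- left side as a sum over pairs
  have hL : ∑ f ∈ E, Real.exp (y f) * dpr (volt H hE y e a) h f =
      ∑ p ∈ (TS ×ˢ E).filter (fun p => e ∈ p.1 ∧ nc (p.1.erase e) p.2),
        Real.exp (y p.2) * (∏ f ∈ p.1, Real.exp (y f)) * dpr (side (p.1.erase e) a) h p.2 := by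
    have h1 : ∀ f ∈ E, Real.exp (y f) * dpr (volt H hE y e a) h f =
        ∑ S ∈ TS.filter (fun S => e ∈ S), Real.exp (y f) * (∏ f ∈ S, Real.exp (y f)) *
          dpr (side (S.erase e) a) h f := by
      intro f _
      unfold volt
      rw [dpr_sum, Finset.mul_sum]
      exact Finset.sum_congr rfl (fun S _ => by ring)
    rw [Finset.sum_congr rfl h1, Finset.sum_comm, Finset.sum_filter, Finset.sum_filter,
      Finset.sum_product]
    apply Finset.sum_congr rfl
    intro S _
    by_cases heS : e ∈ S
    · rw [if_pos heS]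
      apply Finset.sum_congr rfl
      intro f _
      by_cases hn : nc (S.erase e) f
      · rw [if_pos ⟨heS, hn⟩]
      · rw [if_neg (fun hh => hn hh.2), dpr_side_of_not_nc a h hn, mul_zero]
    · rw [if_neg heS]
      symm
      apply Finset.sum_eq_zero
      intro f _
      rw [if_neg (fun hh => heS hh.1)]
  have hR : Real.exp (y e) * (∑ S ∈ TS, ∏ f ∈ S, Real.exp (y f)) * (h a - h b) =
      ∑ p ∈ (TS ×ˢ E).filter (fun p => p.2 ∈ p.1 ∧ ¬ Rc (p.1.erase p.2) a b),
        Real.exp (y e) * (∏ f ∈ p.1, Real.exp (y f)) * dpr (side (p.1.erase p.2) a) h p.2 := by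
    rw [Finset.sum_filter, Finset.sum_product, Finset.mul_sum, Finset.sum_mul]
    apply Finset.sum_congr rfl
    intro S hS
    have hT := (hmem S).1 hS
    rw [← telescope hV hT ha hb h, Finset.mul_sum]
    have hsub : S ⊆ E := fun f hf => hE.mem_toFinset.2 (hT.sub f hf)
    rw [← Finset.sum_subset hsub]
    · apply Finset.sum_congr rfl
      intro f hf
      by_cases hRc : Rc (S.erase f) a b
      · rw [if_neg (fun hh => hh.2 hRc)]
        unfold side
        rw [if_pos hRc]
        ring
      · rw [if_pos ⟨hf, hRc⟩]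
        have : side (S.erase f) a b = 0 := by unfold side; rw [if_neg hRc]
        rw [this]
        ring
    · intro f _ hf
      rw [if_neg (fun hh => hf hh.1)]
  rw [hL, hR]
  refine Finset.sum_nbij' (fun p => (insert p.2 (p.1.erase e), p.2))
    (fun p => (insert e (p.1.erase p.2), p.2)) ?_ ?_ ?_ ?_ ?_
  · rintro ⟨S, f⟩ hp
    simp only [Finset.mem_filter, Finset.mem_product] at hp ⊢
    obtain ⟨⟨hS, hf⟩, heS, hn⟩ := hp
    have hT := (hmem S).1 hS
    have hnot := notMem_of_nc hn
    refine ⟨⟨?_, hf⟩, Finset.mem_insert_self _ _, ?_⟩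
    · rw [hmem]
      induction f using Sym2.ind with
      | h x z =>
        exact hT.exchange heS (hE.mem_toFinset.1 hf) (hn x z rfl)
    · rw [Finset.erase_insert hnot]
      exact hT.bridge hV heS
  · rintro ⟨S, f⟩ hp
    simp only [Finset.mem_filter, Finset.mem_product] at hp ⊢
    obtain ⟨⟨hS, hf⟩, hfS, hn⟩ := hp
    have hT := (hmem S).1 hS
    have hnot : e ∉ S.erase f := fun hh => hn (Rc.single hh)
    refine ⟨⟨?_, hf⟩, Finset.mem_insert_self _ _, ?_⟩
    · rw [hmem]
      induction f using Sym2.ind with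
      | h x z => exact hT.exchange hfS he hn
    · rw [Finset.erase_insert hnot]
      rintro x z rfl
      exact hT.bridge hV hfS
  · rintro ⟨S, f⟩ hp
    simp only [Finset.mem_filter, Finset.mem_product] at hp ⊢
    obtain ⟨⟨hS, hf⟩, heS, hn⟩ := hp
    rw [Finset.erase_insert (notMem_of_nc hn), Finset.insert_erase heS]
  · rintro ⟨S, f⟩ hp
    simp only [Finset.mem_filter, Finset.mem_product] at hp ⊢
    obtain ⟨⟨hS, hf⟩, hfS, hn⟩ := hp
    rw [Finset.erase_insert (fun hh => hn (Rc.single hh)), Finset.insert_erase hfS]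
  · rintro ⟨S, f⟩ hp
    simp only [Finset.mem_filter, Finset.mem_product] at hp ⊢
    obtain ⟨⟨hS, hf⟩, heS, hn⟩ := hp
    have hnot := notMem_of_nc hn
    rw [Finset.erase_insert hnot, Finset.prod_insert hnot, ← Finset.mul_prod_erase S _ heS]
    ring

end main

end Kirch

section statements

open Kirch

theorem treeSets_nonempty {G : SimpleGraph V} (H : G.Subgraph) (hV : H.verts.Finite)
    (hE : H.edgeSet.Finite) (hc : H.Connected) : (treeSets H hE).Nonempty := by
  classical
  have hfin : Finite H.verts := hV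
  have hconn : H.coe.Connected := hc.coe
  have hne : H.verts.Nonempty := hc.nonempty
  obtain ⟨T, hTH, hT⟩ := hconn.exists_isTree_le
  -- the edges of `T` as a finset of edges of `G`
  have hfinT : (T.edgeSet).Finite := Set.toFinite _
  have hsub : Sym2.map (Subtype.val : H.verts → V) '' T.edgeSet ⊆ H.edgeSet := by
    rw [← SimpleGraph.Subgraph.image_coe_edgeSet_coe H]
    exact Set.image_mono (SimpleGraph.edgeSet_mono hTH)
  set S : Finset (Sym2 V) := (hE.subset hsub).toFinset with hS
  have hmemS : ∀ f, f ∈ S ↔ f ∈ Sym2.map (Subtype.val : H.verts → V) '' T.edgeSet := by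
    intro f; rw [hS, Set.Finite.mem_toFinset]
  refine ⟨S, (mem_treeSets_iff H hV hE hne S).2 ⟨fun f hf => hsub ((hmemS f).1 hf), ?_, ?_⟩⟩
  · intro u hu v hv
    have h1 := (SimpleGraph.reachable_iff_reflTransGen (G := T) ⟨u, hu⟩ ⟨v, hv⟩).1
      (hT.connected.preconnected ⟨u, hu⟩ ⟨v, hv⟩)
    have key : ∀ w : H.verts, Relation.ReflTransGen T.Adj ⟨u, hu⟩ w → Rc S u (w : V) := by
      intro w hw
      induction hw with
      | refl => exact Rc.refl _
      | @tail p q _ hxy ih =>
        exact Rc.trans ih (Rc.single ((hmemS _).2 ⟨s(p, q), hxy, rfl⟩))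
    exact key _ h1
  · have h1 := (SimpleGraph.isTree_iff_connected_and_card.1 hT).2
    have h2 : S.card = Nat.card T.edgeSet := by
      rw [hS, ← Set.ncard_eq_toFinset_card _ (hE.subset hsub),
        Set.ncard_image_of_injective _ (Sym2.map.injective Subtype.val_injective)]
      rfl
    rw [h2, h1, Nat.card_coe_set_eq]

open Classical in
theorem kirchhoff {G : SimpleGraph V} (H : G.Subgraph) (hV : H.verts.Finite)
    (hE : H.edgeSet.Finite) (hc : H.Connected) (y : Sym2 V → ℝ) {e : Sym2 V}
    (he : e ∈ H.edgeSet) :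
    (∑ S ∈ (treeSets H hE).filter (fun S => e ∈ S), ∏ f ∈ S, Real.exp (y f)) *
        econd hE.toFinset y e =
      Real.exp (y e) * ∑ S ∈ treeSets H hE, ∏ f ∈ S, Real.exp (y f) := by
  induction e using Sym2.ind with
  | h a b =>
  have hadj := SimpleGraph.Subgraph.mem_edgeSet.1 he
  have ha : a ∈ H.verts := H.edge_vert hadj
  have hne : H.verts.Nonempty := ⟨a, ha⟩
  have hab : a ≠ b := (H.adj_sub hadj).ne
  set Z := ∑ S ∈ treeSets H hE, ∏ f ∈ S, Real.exp (y f) with hZ
  set Ze := ∑ S ∈ (treeSets H hE).filter (fun S => s(a, b) ∈ S), ∏ f ∈ S, Real.exp (y f)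
    with hZe
  set v := volt H hE y s(a, b) a with hv
  set c := Real.exp (y s(a, b)) with hcdef
  have hc0 : 0 < c := Real.exp_pos _
  have hW : ∀ S : Finset (Sym2 V), 0 < ∏ f ∈ S, Real.exp (y f) := fun S =>
    Finset.prod_pos (fun f _ => Real.exp_pos _)
  have hZ0 : 0 < Z := Finset.sum_pos (fun S _ => hW S) (treeSets_nonempty H hV hE hc)
  have hbil : ∀ h : V → ℝ, ∑ f ∈ hE.toFinset, Real.exp (y f) * dpr v h f =
      c * Z * (h a - h b) := fun h => bilinear_identity H hV hE y he h
  have hva : v a = Ze := by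
    simp only [hv, volt, side_self, mul_one, hZe]
  have hvb : v b = 0 := by
    simp only [hv, volt]
    apply Finset.sum_eq_zero
    intro S hS
    rw [Finset.mem_filter] at hS
    have hT := (mem_treeSets_iff H hV hE hne S).1 hS.1
    have : side (S.erase s(a, b)) a b = 0 := by
      unfold side
      rw [if_neg (hT.bridge hV hS.2)]
    rw [this, mul_zero]
  have hZe0 : 0 < Ze := by
    have h0 : 0 ≤ Ze := Finset.sum_nonneg (fun S _ => (hW S).le)
    rcases h0.lt_or_eq with h1 | h1
    · exact h1
    · exfalso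
      have h2 : v = fun _ => 0 := by
        funext z
        simp only [hv, volt]
        have h3 := (Finset.sum_eq_zero_iff_of_nonneg (fun S _ => (hW S).le)).1 h1.symm
        apply Finset.sum_eq_zero
        intro S hS
        exact absurd (h3 S hS) (hW S).ne'
      have h4 := hbil (fun z => if z = a then 1 else 0)
      rw [h2, if_pos rfl, if_neg hab.symm] at h4
      have h5 : ∑ f ∈ hE.toFinset, Real.exp (y f) *
          dpr (fun _ => (0 : ℝ)) (fun z => if z = a then (1 : ℝ) else 0) f = 0 := by
        apply Finset.sum_eq_zero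
        intro f _
        have : dpr (fun _ => (0 : ℝ)) (fun z => if z = a then (1 : ℝ) else 0) f = 0 := by
          induction f using Sym2.ind with
          | h p q => exact dpr_eq_zero rfl
        rw [this, mul_zero]
      rw [h5] at h4
      have : 0 < c * Z := mul_pos hc0 hZ0
      linarith
  -- the energy of the voltage
  have hvv : energy hE.toFinset y v = c * Z * Ze := by
    have := hbil v
    rw [hva, hvb, sub_zero] at this
    rw [← this]
    unfold energy
    exact Finset.sum_congr rfl (fun f _ => by rw [dpr_self])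
  have hexp : ∀ (h : V → ℝ) (t : ℝ), energy hE.toFinset y (fun z => h z - t * v z) =
      energy hE.toFinset y h - 2 * t * (c * Z * (h a - h b)) + t ^ 2 * (c * Z * Ze) := by
    intro h t
    rw [← hvv, ← hbil h]
    unfold energy
    rw [Finset.mul_sum, Finset.mul_sum, ← Finset.sum_sub_distrib, ← Finset.sum_add_distrib]
    apply Finset.sum_congr rfl
    intro f _
    induction f using Sym2.ind with
    | h p q => simp only [dsq_mk, dpr_mk]; ring
  have henergy0 : ∀ h : V → ℝ, 0 ≤ energy hE.toFinset y h := by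
    intro h
    unfold energy
    apply Finset.sum_nonneg
    intro f _
    apply mul_nonneg (Real.exp_pos _).le
    induction f using Sym2.ind with
    | h p q => rw [dsq_mk]; positivity
  have hmin : IsLeast (Set.range (fun h : {h : V → ℝ // dsq h s(a, b) = 1} =>
      energy hE.toFinset y h.1)) (c * Z / Ze) := by
    constructor
    · refine ⟨⟨fun z => v z / Ze, ?_⟩, ?_⟩
      · rw [dsq_mk, hva, hvb, zero_div, sub_zero, div_self hZe0.ne', one_pow]
      · simp only
        have h1 : energy hE.toFinset y (fun z => v z / Ze) =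
            energy hE.toFinset y v / Ze ^ 2 := by
          unfold energy
          rw [Finset.sum_div]
          apply Finset.sum_congr rfl
          intro f _
          induction f using Sym2.ind with
          | h p q => simp only [dsq_mk]; field_simp
        rw [h1, hvv]
        field_simp
    · rintro _ ⟨⟨h, hh⟩, rfl⟩
      simp only
      rw [dsq_mk] at hh
      have h1 := henergy0 (fun z => h z - (h a - h b) / Ze * v z)
      rw [hexp] at h1
      have h2 : 2 * ((h a - h b) / Ze) * (c * Z * (h a - h b)) =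
          2 * (c * Z / Ze) := by
        have : 2 * ((h a - h b) / Ze) * (c * Z * (h a - h b)) =
          2 * (c * Z / Ze) * (h a - h b) ^ 2 := by ring
        rw [this, hh, mul_one]
      have h3 : ((h a - h b) / Ze) ^ 2 * (c * Z * Ze) = c * Z / Ze := by
        rw [div_pow, hh]
        field_simp
      rw [h2, h3] at h1
      linarith
  have hecond : econd hE.toFinset y s(a, b) = c * Z / Ze := by
    unfold econd
    exact hmin.csInf_eq
  rw [hecond]
  field_simp

open Classical in
theorem ustProb_eq {G : SimpleGraph V} (H : G.Subgraph) (hE : H.edgeSet.Finite)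
    (A B : Finset (Sym2 V)) :
    ustProb H A B =
      (((treeSets H hE).filter (fun S => ∀ e ∈ A, (e ∈ S ↔ e ∈ B))).card : ℝ) /
        ((treeSets H hE).card : ℝ) := by
  have hinj : Set.InjOn (fun T : G.Subgraph => T.edgeSet) (spanningTrees H) := by
    intro T hT T' hT' heq
    obtain ⟨_, hv, _⟩ := hT
    obtain ⟨_, hv', _⟩ := hT'
    apply SimpleGraph.Subgraph.ext (hv.trans hv'.symm)
    funext u w
    rw [← SimpleGraph.Subgraph.mem_edgeSet, ← SimpleGraph.Subgraph.mem_edgeSet]
    exact congrArg (fun s => s(u, w) ∈ s) heq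
  have key : ∀ Q : Set (Sym2 V) → Prop,
      (spanningTrees H ∩ {T | Q T.edgeSet}).ncard =
        ((treeSets H hE).filter (fun S : Finset (Sym2 V) => Q (S : Set (Sym2 V)))).card := by
    intro Q
    rw [← Set.InjOn.ncard_image (hinj.mono Set.inter_subset_left), ← Set.ncard_coe_finset,
      ← Set.ncard_image_of_injective ((((treeSets H hE).filter
        (fun S : Finset (Sym2 V) => Q (S : Set (Sym2 V)))) : Finset (Finset (Sym2 V))) :
          Set (Finset (Sym2 V)))
        Finset.coe_injective]
    congr 1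
    ext s
    simp only [Set.mem_image, Set.mem_inter_iff, Finset.coe_filter]
    constructor
    · rintro ⟨T, ⟨hT, hQ⟩, rfl⟩
      have hfin : T.edgeSet.Finite :=
        hE.subset (SimpleGraph.Subgraph.edgeSet_mono hT.1)
      refine ⟨hfin.toFinset, ⟨?_, ?_⟩, by simp⟩
      · unfold treeSets
        rw [Finset.mem_filter, Finset.mem_powerset]
        refine ⟨?_, T, hT, by simp⟩
        intro f hf
        rw [Set.Finite.mem_toFinset] at hf ⊢
        exact SimpleGraph.Subgraph.edgeSet_mono hT.1 hf
      · rw [Set.Finite.coe_toFinset]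
        exact hQ
    · rintro ⟨S, ⟨hS, hQ⟩, rfl⟩
      unfold treeSets at hS
      rw [Finset.mem_filter] at hS
      obtain ⟨_, T, hT, hTS⟩ := hS
      refine ⟨T, ⟨hT, ?_⟩, hTS⟩
      change Q T.edgeSet
      rw [hTS]
      exact hQ
  unfold ustProb
  have h1 := key (fun s => ∀ e ∈ A, (e ∈ s ↔ e ∈ B))
  have h2 := key (fun _ => True)
  simp only [Finset.mem_coe] at h1
  simp only [Finset.filter_true] at h2
  have h3 : spanningTrees H ∩ {T : G.Subgraph | True} = spanningTrees H := by
    ext T; simp
  rw [h3] at h2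
  rw [h1, h2]
  congr!

end statements

end Vale.Agent.P143
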