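import Vale.Agent.P143.Sampler

/-!
# The exact law of the signals in finite volume
-/

open MeasureTheory Set Filter Topology ProbabilityTheory
open scoped unitInterval ENNReal

namespace Vale.Agent.P143

universe u

variable {E : Type u}

/-- The law of i.i.d. uniform seeds. -/
noncomputable def iidSeeds (ι : Type*) : Measure (ι → I) :=
  Measure.infinitePi (fun _ : ι => (volume : Measure I))

instance (ι : Type*) : IsProbabilityMeasure (iidSeeds ι) := by
  unfold iidSeeds; infer_instance

theorem measurable_update_pair {ι : Type*} [DecidableEq ι] (j : ι) :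
    Measurable (fun p : (ι → I) × I => Function.update p.1 j p.2) := by
  refine measurable_pi_iff.mpr fun i => ?_
  by_cases hij : i = j
  · subst hij
    simpa using measurable_snd
  · have : (fun p : (ι → I) × I => Function.update p.1 j p.2 i) = fun p => p.1 i := by
      funext p; rw [Function.update_of_ne hij]
    rw [this]
    exact (measurable_pi_apply i).comp measurable_fst

/-- Resampling one coordinate does not change the law. -/
theorem map_update_iidSeeds {ι : Type*} [DecidableEq ι] (j : ι) :
    Measure.map (fun p : (ι → I) × I => Function.update p.1 j p.2)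
      ((iidSeeds ι).prod (volume : Measure I)) = iidSeeds ι := by
  refine Measure.eq_infinitePi _ fun s t ht => ?_
  have hmeas := measurable_update_pair (ι := ι) j
  have hms : MeasurableSet (Set.pi (s : Set ι) t) :=
    MeasurableSet.pi s.countable_toSet fun i _ => ht i
  rw [Measure.map_apply hmeas hms]
  by_cases hj : j ∈ s
  · have hpre : (fun p : (ι → I) × I => Function.update p.1 j p.2) ⁻¹' (Set.pi (s : Set ι) t) =
        (Set.pi ((s.erase j : Finset ι) : Set ι) t) ×ˢ (t j) := by
      ext p
      simp only [mem_preimage, Set.mem_pi, Finset.mem_coe, mem_prod, Finset.mem_erase]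
      constructor
      · intro h
        refine ⟨fun i hi => ?_, ?_⟩
        · have := h i hi.2
          rwa [Function.update_of_ne hi.1] at this
        · have := h j hj
          rwa [Function.update_self] at this
      · rintro ⟨h1, h2⟩ i hi
        by_cases hij : i = j
        · subst hij; rwa [Function.update_self]
        · rw [Function.update_of_ne hij]; exact h1 i ⟨hij, hi⟩
    rw [hpre, Measure.prod_prod]
    unfold iidSeeds
    rw [Measure.infinitePi_pi _ (fun i _ => ht i), mul_comm,
      Finset.mul_prod_erase s (fun i => (volume : Measure I) (t i)) hj]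
  · have hpre : (fun p : (ι → I) × I => Function.update p.1 j p.2) ⁻¹' (Set.pi (s : Set ι) t) =
        (Set.pi (s : Set ι) t) ×ˢ univ := by
      ext p
      simp only [mem_preimage, Set.mem_pi, Finset.mem_coe, mem_prod, mem_univ, and_true]
      refine forall₂_congr fun i hi => ?_
      have hij : i ≠ j := fun h => hj (h ▸ hi)
      rw [Function.update_of_ne hij]
    rw [hpre, Measure.prod_prod, measure_univ, mul_one]
    unfold iidSeeds
    rw [Measure.infinitePi_pi _ (fun i _ => ht i)]

theorem lintegral_iidSeeds_update {ι : Type*} [DecidableEq ι] (j : ι) {F : (ι → I) → ℝ≥0∞}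
    (hF : Measurable F) :
    ∫⁻ v, F v ∂(iidSeeds ι) =
      ∫⁻ v, (∫⁻ t : I, F (Function.update v j t) ∂volume) ∂(iidSeeds ι) := by
  conv_lhs => rw [← map_update_iidSeeds j]
  rw [lintegral_map hF (measurable_update_pair j)]
  exact lintegral_prod (fun p : (ι → I) × I => F (Function.update p.1 j p.2))
    ((hF.comp (measurable_update_pair j)).aemeasurable)

/-- The density of the signals in `J` given that the present edges are those of `S`. -/
noncomputable def jden (J : Finset (ℕ × E)) (S : Finset E) (z : ℕ × E → I) : ℝ :=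
  open Classical in ∏ j ∈ J, gden (decide (j.2 ∈ S)) (z j)

theorem gden_nonneg (b : Bool) (z : I) : 0 ≤ gden b z := by
  unfold gden
  split_ifs <;> linarith [z.2.1, z.2.2]

theorem gden_pos (b : Bool) (z : I) : 0 < gden b z := by
  unfold gden
  split_ifs <;> linarith [z.2.1, z.2.2]

theorem measurable_gden (b : Bool) : Measurable (gden b) := by
  unfold gden
  cases b <;> simp <;> fun_prop

theorem jden_nonneg (J : Finset (ℕ × E)) (S : Finset E) (z : ℕ × E → I) : 0 ≤ jden J S z :=
  Finset.prod_nonneg fun _ _ => gden_nonneg _ _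

theorem measurable_jden (J : Finset (ℕ × E)) (S : Finset E) : Measurable (jden J S) := by
  unfold jden
  exact Finset.measurable_fun_prod _ fun j _ => (measurable_gden _).comp (measurable_pi_apply j)

/-- The lexicographic key of a site. -/
def key (U : E → I) (j : ℕ × E) : ℕ ×ₗ I := toLex (j.1, U j.2)

theorem key_lt_iff (U : E → I) (i j : ℕ × E) :
    key U i < key U j ↔ i.1 < j.1 ∨ (i.1 = j.1 ∧ U i.2 < U j.2) := by
  unfold key
  rw [Prod.Lex.toLex_lt_toLex]

open Classical in
/-- Ratio form of the densities. -/
theorem jden_eq (J : Finset (ℕ × E)) (S : Finset E) (z : ℕ × E → I) :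
    jden J S z = (∏ j ∈ J, gden false (z j)) *
      ∏ f ∈ S, Real.exp (∑ j ∈ J.filter (fun j => j.2 = f), ell (z j)) := by
  have h1 : ∀ j : ℕ × E, gden (decide (j.2 ∈ S)) (z j) =
      gden false (z j) * (if j.2 ∈ S then Real.exp (ell (z j)) else 1) := by
    intro j
    by_cases hj : j.2 ∈ S
    · simp only [hj, decide_true, if_true]
      unfold ell
      rw [Real.exp_log (div_pos (gden_pos _ _) (gden_pos _ _))]
      have := (gden_pos false (z j)).ne'
      field_simp
    · simp [hj]
  unfold jden
  simp_rw [h1]
  rw [Finset.prod_mul_distrib]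
  congr 1
  simp_rw [Real.exp_sum]
  rw [← Finset.prod_filter]
  rw [← Finset.prod_fiberwise_of_maps_to (s := J.filter (fun j => j.2 ∈ S)) (t := S)
    (g := fun j : ℕ × E => j.2) (fun j hj => (Finset.mem_filter.mp hj).2)]
  refine Finset.prod_congr rfl fun f hf => ?_
  refine Finset.prod_congr ?_ fun _ _ => rfl
  ext j
  simp only [Finset.mem_filter]
  constructor
  · rintro ⟨⟨h1, _⟩, h2⟩; exact ⟨h1, h2⟩
  · rintro ⟨h1, h2⟩; exact ⟨⟨h1, h2 ▸ hf⟩, h2⟩


theorem jden_update {J : Finset (ℕ × E)} [DecidableEq (ℕ × E)] {a : ℕ × E} (ha : a ∉ J)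
    (S : Finset E) (z : ℕ × E → I) (t : I) : jden J S (Function.update z a t) = jden J S z := by
  unfold jden
  refine Finset.prod_congr rfl fun j hj => ?_
  have : j ≠ a := fun h => ha (h ▸ hj)
  rw [Function.update_of_ne this]

theorem field_update [DecidableEq (ℕ × E)] (U : E → I) (z : ℕ × E → I) (a : ℕ × E) (t : I)
    (f : E) : field U (Function.update z a t) a.1 a.2 f = field U z a.1 a.2 f := by
  unfold field
  congr 1
  · refine Finset.sum_congr rfl fun i hi => ?_
    have : (i, f) ≠ a := by
      intro h
      have := Finset.mem_range.mp hi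
      rw [← h] at this
      exact lt_irrefl _ this
    rw [Function.update_of_ne this]
  · split_ifs with hlt
    · have : (a.1, f) ≠ a := by
        intro h
        have h2 : f = a.2 := by rw [← h]
        rw [h2] at hlt
        exact lt_irrefl _ hlt
      rw [Function.update_of_ne this]
    · rfl

open Classical in
/-- The tree formula for the posterior mean. -/
def TreeFormula (D : Finset E) (TT : Finset (Finset E)) (m : (E → ℝ) → E → ℝ) : Prop :=
  ∀ (y : E → ℝ), ∀ e ∈ D,
    m y e * ∑ S ∈ TT, ∏ f ∈ S, Real.exp (y f) =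
      ∑ S ∈ TT.filter (fun S => e ∈ S), ∏ f ∈ S, Real.exp (y f)

theorem treeSum_pos {TT : Finset (Finset E)} (hne : TT.Nonempty) (y : E → ℝ) :
    0 < ∑ S ∈ TT, ∏ f ∈ S, Real.exp (y f) :=
  Finset.sum_pos (fun _ _ => Finset.prod_pos fun _ _ => Real.exp_pos _) hne

theorem TreeFormula.congr {D : Finset E} {TT : Finset (Finset E)} {m : (E → ℝ) → E → ℝ}
    (hT : TreeFormula D TT m) (hne : TT.Nonempty) (hsub : ∀ S ∈ TT, S ⊆ D) {y y' : E → ℝ}
    (h : ∀ f ∈ D, y f = y' f) {e : E} (he : e ∈ D) : m y e = m y' e := by
  classical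
  have h1 := hT y e he
  have h2 := hT y' e he
  have h3 : ∀ S ∈ TT, ∏ f ∈ S, Real.exp (y f) = ∏ f ∈ S, Real.exp (y' f) := fun S hS =>
    Finset.prod_congr rfl fun f hf => by rw [h f (hsub S hS hf)]
  have h4 : ∑ S ∈ TT, ∏ f ∈ S, Real.exp (y f) = ∑ S ∈ TT, ∏ f ∈ S, Real.exp (y' f) :=
    Finset.sum_congr rfl h3
  have h5 : ∑ S ∈ TT.filter (fun S => e ∈ S), ∏ f ∈ S, Real.exp (y f) =
      ∑ S ∈ TT.filter (fun S => e ∈ S), ∏ f ∈ S, Real.exp (y' f) :=
    Finset.sum_congr rfl fun S hS => h3 S (Finset.mem_filter.mp hS).1
  have hpos := treeSum_pos hne y'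
  rw [h4, h5, ← h2] at h1
  exact mul_right_cancel₀ hpos.ne' h1

open Classical in
/-- One step of the chain rule for the densities. -/
theorem sum_jden_insert {D : Finset E} {TT : Finset (Finset E)} {m : (E → ℝ) → E → ℝ}
    (hT : TreeFormula D TT m) (hsub : ∀ S ∈ TT, S ⊆ D)
    {J : Finset (ℕ × E)} {a : ℕ × E} (ha : a ∉ J) (haD : a.2 ∈ D) (U : E → I) (z : ℕ × E → I)
    (hfield : ∀ f ∈ D, ∑ j ∈ J.filter (fun j => j.2 = f), ell (z j) = field U z a.1 a.2 f)
    (t : I) :
    ∑ S ∈ TT, jden (insert a J) S (Function.update z a t) =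
      (∑ S ∈ TT, jden J S z) * (1 + param m U z a.1 a.2 * (1 - 2 * (t : ℝ))) := by
  have h1 : ∀ S, jden (insert a J) S (Function.update z a t) =
      gden (decide (a.2 ∈ S)) t * jden J S z := by
    intro S
    rw [← jden_update ha S z t]
    unfold jden
    rw [Finset.prod_insert ha, Function.update_self]
  simp_rw [h1]
  set C := ∏ j ∈ J, gden false (z j) with hC
  set y := field U z a.1 a.2 with hy
  have h2 : ∀ S ∈ TT, jden J S z = C * ∏ f ∈ S, Real.exp (y f) := by
    intro S hS
    rw [jden_eq]
    congr 1
    exact Finset.prod_congr rfl fun f hf => by rw [hfield f (hsub S hS hf)]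
  have h3 : ∑ S ∈ TT, jden J S z = C * ∑ S ∈ TT, ∏ f ∈ S, Real.exp (y f) := by
    rw [Finset.mul_sum]
    exact Finset.sum_congr rfl h2
  have h4 : ∑ S ∈ TT, gden (decide (a.2 ∈ S)) t * jden J S z =
      C * (∑ S ∈ TT, (∏ f ∈ S, Real.exp (y f)) * gden (decide (a.2 ∈ S)) t) := by
    rw [Finset.mul_sum]
    refine Finset.sum_congr rfl fun S hS => ?_
    rw [h2 S hS]; ring
  have h5 : ∀ S : Finset E, gden (decide (a.2 ∈ S)) t =
      (1 - 1 / 5 * (1 - 2 * (t : ℝ))) + (if a.2 ∈ S then 1 else 0) *
        (2 / 5 * (1 - 2 * (t : ℝ))) := by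
    intro S
    unfold gden
    by_cases h : a.2 ∈ S
    · simp [h]; ring
    · simp [h]
  rw [h4, h3]
  simp_rw [h5]
  have h6 : ∑ S ∈ TT, (∏ f ∈ S, Real.exp (y f)) *
      ((1 - 1 / 5 * (1 - 2 * (t : ℝ))) + (if a.2 ∈ S then 1 else 0) *
        (2 / 5 * (1 - 2 * (t : ℝ)))) =
      (1 - 1 / 5 * (1 - 2 * (t : ℝ))) * ∑ S ∈ TT, ∏ f ∈ S, Real.exp (y f) +
      (2 / 5 * (1 - 2 * (t : ℝ))) *
        ∑ S ∈ TT.filter (fun S => a.2 ∈ S), ∏ f ∈ S, Real.exp (y f) := by
    rw [Finset.sum_filter, Finset.mul_sum, Finset.mul_sum, ← Finset.sum_add_distrib]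
    refine Finset.sum_congr rfl fun S _ => ?_
    split_ifs <;> ring
  rw [h6, ← hT y a.2 haD]
  unfold param
  rw [← hy]
  ring

open Classical in
/-- The partially transformed configuration. -/
noncomputable def mix (J : Finset (ℕ × E)) (z v : ℕ × E → I) : ℕ × E → I :=
  fun j => if j ∈ J then z j else v j

theorem measurable_param {m : (E → ℝ) → E → ℝ} {e : E} (hm : Measurable (fun y => m y e))
    (U : E → I) (k : ℕ) : Measurable (fun z : ℕ × E → I => param m U z k e) := by
  unfold param
  have h2 : Measurable (fun z : ℕ × E → I => field U z k e) :=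
    measurable_pi_iff.mpr fun f => measurable_field (U := fun _ => U) (z := fun z => z)
      (fun _ => measurable_const) (fun j => measurable_pi_apply j) k e f
  exact ((hm.comp h2).const_mul 2 |>.sub_const 1).const_mul (1 / 5)

open Classical in
/-- The law of the signals, by induction over the initial segments of the sites. -/
theorem lintegral_mix {D : Finset E} {TT : Finset (Finset E)} (hne : TT.Nonempty)
    {m : (E → ℝ) → E → ℝ} (hm : IsMean m) (hmeas : ∀ e ∈ D, Measurable (fun y => m y e))
    (hT : TreeFormula D TT m) (hsub : ∀ S ∈ TT, S ⊆ D) (U : E → I) (hU : Set.InjOn U D)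
    (Z : (ℕ × E → I) → (ℕ × E → I)) (hZ : ∀ v, IsSol m U D v (Z v))
    (N : ℕ) (J : Finset (ℕ × E)) :
    J ⊆ Finset.range N ×ˢ D →
    (∀ j ∈ J, ∀ i ∈ Finset.range N ×ˢ D, key U i < key U j → i ∈ J) →
    ∀ F : (ℕ × E → I) → ℝ≥0∞, Measurable F →
    (TT.card : ℝ≥0∞) * ∫⁻ v, F (mix J (Z v) v) ∂(iidSeeds (ℕ × E)) =
      ∫⁻ z, F z * ENNReal.ofReal (∑ S ∈ TT, jden J S z) ∂(iidSeeds (ℕ × E)) := by
  induction J using Finset.induction_on_max_value (key U) with
  | empty =>
    intro _ _ F hF
    have h1 : ∀ v, mix (∅ : Finset (ℕ × E)) (Z v) v = v := by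
      intro v; funext j; simp [mix]
    have h2 : ∀ z, ∑ S ∈ TT, jden (∅ : Finset (ℕ × E)) S z = TT.card := by
      intro z; simp [jden]
    simp_rw [h1, h2]
    rw [lintegral_mul_const _ hF, mul_comm]
    simp
  | insert a J haJ hmax ih =>
    intro hsubJ hinit F hF
    have haI : a ∈ Finset.range N ×ˢ D := hsubJ (Finset.mem_insert_self a J)
    have haD : a.2 ∈ D := (Finset.mem_product.mp haI).2
    have haN : a.1 < N := Finset.mem_range.mp (Finset.mem_product.mp haI).1
    -- description of `J`
    have hJ : ∀ j, j ∈ J ↔ j ∈ Finset.range N ×ˢ D ∧ key U j < key U a := by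
      intro j
      constructor
      · intro hj
        have hjI := hsubJ (Finset.mem_insert_of_mem hj)
        refine ⟨hjI, lt_of_le_of_ne (hmax j hj) fun heq => ?_⟩
        have h1 : j.1 = a.1 := congrArg (fun p => (ofLex p).1) heq
        have h2 : U j.2 = U a.2 := congrArg (fun p => (ofLex p).2) heq
        have h3 : j.2 = a.2 := hU (Finset.mem_product.mp hjI).2 haD h2
        exact haJ (Prod.ext h1 h3 ▸ hj)
      · rintro ⟨hjI, hlt⟩
        have := hinit a (Finset.mem_insert_self a J) j hjI hlt
        rcases Finset.mem_insert.mp this with h | h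
        · rw [h] at hlt; exact absurd hlt (lt_irrefl _)
        · exact h
    have hsubJ' : J ⊆ Finset.range N ×ˢ D := fun j hj => hsubJ (Finset.mem_insert_of_mem hj)
    have hinit' : ∀ j ∈ J, ∀ i ∈ Finset.range N ×ˢ D, key U i < key U j → i ∈ J := by
      intro j hj i hi hlt
      exact (hJ i).mpr ⟨hi, hlt.trans ((hJ j).mp hj).2⟩
    have ih' := ih hsubJ' hinit'
    -- the field at `a`
    have hmem : ∀ f ∈ D, ∀ i, i < a.1 → (i, f) ∈ J := fun f hf i hi =>
      (hJ _).mpr ⟨Finset.mem_product.mpr ⟨Finset.mem_range.mpr (hi.trans haN), hf⟩,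
        (key_lt_iff U _ _).mpr (Or.inl hi)⟩
    have hmem' : ∀ f ∈ D, U f < U a.2 → (a.1, f) ∈ J := fun f hf hlt =>
      (hJ _).mpr ⟨Finset.mem_product.mpr ⟨Finset.mem_range.mpr haN, hf⟩,
        (key_lt_iff U _ _).mpr (Or.inr ⟨rfl, hlt⟩)⟩
    have hfield : ∀ z : ℕ × E → I, ∀ f ∈ D,
        ∑ j ∈ J.filter (fun j => j.2 = f), ell (z j) = field U z a.1 a.2 f := by
      intro z f hf
      unfold field
      have hset : J.filter (fun j => j.2 = f) =
          (Finset.range a.1).image (fun i => (i, f)) ∪
            (if U f < U a.2 then {(a.1, f)} else ∅) := by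
        ext j
        rw [Finset.mem_filter, Finset.mem_union, Finset.mem_image]
        constructor
        · rintro ⟨hj, hjf⟩
          have := ((hJ j).mp hj).2
          rw [key_lt_iff] at this
          rcases this with h | ⟨h, h'⟩
          · exact Or.inl ⟨j.1, Finset.mem_range.mpr h, Prod.ext rfl hjf.symm⟩
          · refine Or.inr ?_
            rw [hjf] at h'
            rw [if_pos h', Finset.mem_singleton]
            exact Prod.ext h hjf
        · rintro (⟨i, hi, rfl⟩ | h)
          · exact ⟨hmem f hf i (Finset.mem_range.mp hi), rfl⟩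
          · split_ifs at h with hlt
            · rw [Finset.mem_singleton] at h
              subst h
              exact ⟨hmem' f hf hlt, rfl⟩
            · exact absurd h (Finset.notMem_empty _)
      rw [hset, Finset.sum_union]
      · congr 1
        · rw [Finset.sum_image]
          intro i _ i' _ h
          exact congrArg Prod.fst h
        · split_ifs <;> simp
      · rw [Finset.disjoint_left]
        rintro j hj hj'
        rw [Finset.mem_image] at hj
        obtain ⟨i, hi, rfl⟩ := hj
        split_ifs at hj' with hlt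
        · rw [Finset.mem_singleton] at hj'
          have : i = a.1 := congrArg Prod.fst hj'
          have := Finset.mem_range.mp hi
          omega
        · exact absurd hj' (Finset.notMem_empty _)
    -- one step
    set τ : (ℕ × E → I) → (ℕ × E → I) := fun z =>
      Function.update z a (sig (param m U z a.1 a.2) (z a)) with hτ
    have hτm : Measurable τ := by
      have h1 : Measurable (fun z : ℕ × E → I => (z, sig (param m U z a.1 a.2) (z a))) :=
        measurable_id.prodMk (measurable_sig.comp
          ((measurable_param (hmeas a.2 haD) U a.1).prodMk (measurable_pi_apply a)))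
      exact (measurable_update_pair a).comp h1
    have hstep : ∀ v, mix (insert a J) (Z v) v = τ (mix J (Z v) v) := by
      intro v
      have hpar : param m U (Z v) a.1 a.2 = param m U (mix J (Z v) v) a.1 a.2 := by
        unfold param
        rw [hT.congr hne hsub (y' := field U (mix J (Z v) v) a.1 a.2) ?_ haD]
        intro f hf
        unfold field
        congr 1
        · refine Finset.sum_congr rfl fun i hi => ?_
          unfold mix
          rw [if_pos (hmem f hf i (Finset.mem_range.mp hi))]
        · split_ifs with hlt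
          · unfold mix
            rw [if_pos (hmem' f hf hlt)]
          · rfl
      funext j
      by_cases hja : j = a
      · subst hja
        rw [hτ]
        simp only [Function.update_self]
        unfold mix
        rw [if_pos (Finset.mem_insert_self _ _), if_neg haJ]
        rw [show (fun j => if j ∈ J then Z v j else v j) = mix J (Z v) v from rfl, ← hpar]
        exact hZ v j.1 j.2 haD
      · rw [hτ]
        simp only [Function.update_of_ne hja]
        unfold mix
        by_cases hjJ : j ∈ J
        · rw [if_pos (Finset.mem_insert_of_mem hjJ), if_pos hjJ]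
        · rw [if_neg (by rw [Finset.mem_insert]; tauto), if_neg hjJ]
    simp_rw [hstep]
    rw [ih' (fun z => F (τ z)) (hF.comp hτm)]
    -- Fubini in the coordinate `a`
    have hg1 : Measurable (fun z : ℕ × E → I => ENNReal.ofReal (∑ S ∈ TT, jden J S z)) :=
      (Finset.measurable_fun_sum _ fun S _ => measurable_jden J S).ennreal_ofReal
    have hg2 : Measurable (fun z : ℕ × E → I =>
        ENNReal.ofReal (∑ S ∈ TT, jden (insert a J) S z)) :=
      (Finset.measurable_fun_sum _ fun S _ => measurable_jden _ S).ennreal_ofReal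
    rw [lintegral_iidSeeds_update a
        (F := fun z => F (τ z) * ENNReal.ofReal (∑ S ∈ TT, jden J S z)) ((hF.comp hτm).mul hg1),
      lintegral_iidSeeds_update a
        (F := fun z => F z * ENNReal.ofReal (∑ S ∈ TT, jden (insert a J) S z)) (hF.mul hg2)]
    refine lintegral_congr fun z => ?_
    have hs : |param m U z a.1 a.2| ≤ 1 / 5 := abs_param_le hm U z a.1 a.2
    have hpu : ∀ t, param m U (Function.update z a t) a.1 a.2 = param m U z a.1 a.2 := by
      intro t
      unfold param
      have : field U (Function.update z a t) a.1 a.2 = field U z a.1 a.2 :=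
        funext fun f => field_update U z a t f
      rw [this]
    have hτu : ∀ t, τ (Function.update z a t) =
        Function.update z a (sig (param m U z a.1 a.2) t) := by
      intro t
      rw [hτ]
      simp only [Function.update_self, Function.update_idem]
      rw [hpu t]
    have hju : ∀ t, ∑ S ∈ TT, jden J S (Function.update z a t) = ∑ S ∈ TT, jden J S z :=
      fun t => Finset.sum_congr rfl fun S _ => jden_update haJ S z t
    simp_rw [hτu, hju]
    have hFu : Measurable (fun t : I => F (Function.update z a t)) :=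
      hF.comp ((measurable_update_pair a).comp (measurable_const.prodMk measurable_id))
    have hsm : Measurable (sig (param m U z a.1 a.2)) :=
      measurable_sig.comp (measurable_const.prodMk measurable_id)
    have hFs : Measurable (fun t : I => F (Function.update z a (sig (param m U z a.1 a.2) t))) :=
      hFu.comp hsm
    have hd : Measurable (fun t : I => F (Function.update z a t) *
        ENNReal.ofReal (1 + param m U z a.1 a.2 * (1 - 2 * (t : ℝ)))) :=
      hFu.mul (by fun_prop)
    rw [lintegral_mul_const _ hFs, lintegral_sig hs hFu, ← lintegral_mul_const _ hd]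
    refine lintegral_congr fun t => ?_
    rw [sum_jden_insert hT hsub haJ haD U z (hfield z) t, mul_assoc]
    congr 1
    have hnn : 0 ≤ 1 + param m U z a.1 a.2 * (1 - 2 * (t : ℝ)) := by
      have h3 : |param m U z a.1 a.2 * (1 - 2 * (t : ℝ))| ≤ 1 / 5 := by
        rw [abs_mul]
        have : |1 - 2 * (t : ℝ)| ≤ 1 := by
          rw [abs_le]; constructor <;> linarith [t.2.1, t.2.2]
        calc |param m U z a.1 a.2| * |1 - 2 * (t : ℝ)| ≤ 1 / 5 * 1 := by gcongr
          _ = 1 / 5 := by ring
      linarith [(abs_le.mp h3).1]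
    rw [mul_comm, ← ENNReal.ofReal_mul (Finset.sum_nonneg fun S _ => jden_nonneg _ _ _)]

end Vale.Agent.P143
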