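import Vale.Agent.P143.Conduct

/-!
# Convergence of the posterior mean functions along an exhaustion
-/

open MeasureTheory Set Filter Topology
open scoped unitInterval ENNReal

namespace Vale.Agent.P143

universe u

variable {V : Type u}

theorem icond_ne_top {G : SimpleGraph V} (hG : ∀ v, (G.neighborSet v).Finite) {e : Sym2 V}
    (he : e ∈ G.edgeSet) (y : Sym2 V → ℝ) : icond G y e ≠ ∞ := by
  classical
  induction e with
  | _ a b =>
    have hab : G.Adj a b := he
    -- the finite set of edges at `a`
    set K : Finset (Sym2 V) := (hG a).toFinset.image (fun x => s(a, x)) with hK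
    set h : V → ℝ := fun x => if x = a then 1 else 0 with hh
    have hh1 : dsq h s(a, b) = 1 := by
      simp [hh, hab.ne']
    have hbound : ∀ H : Finset (Sym2 V), (H : Set (Sym2 V)) ⊆ G.edgeSet →
        econd H y s(a, b) ≤ ∑ f ∈ K, Real.exp (y f) := by
      intro H hH
      refine (econd_le hh1).trans ?_
      unfold energy
      have h1 : ∀ f ∈ H, f ∉ K → Real.exp (y f) * dsq h f = 0 := by
        intro f hf hfK
        induction f with
        | _ c d =>
          have hcd : G.Adj c d := hH hf
          have hca : c ≠ a := by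
            rintro rfl
            refine hfK ?_
            rw [hK, Finset.mem_image]
            exact ⟨d, by simpa using hcd, rfl⟩
          have hda : d ≠ a := by
            rintro rfl
            refine hfK ?_
            rw [hK, Finset.mem_image]
            exact ⟨c, by simpa using hcd.symm, Sym2.eq_swap⟩
          simp [hh, hca, hda]
      have h2 : ∀ f : Sym2 V, dsq h f ≤ 1 := by
        intro f
        induction f with
        | _ c d =>
          simp only [dsq_mk, hh]
          split_ifs <;> norm_num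
      calc ∑ f ∈ H, Real.exp (y f) * dsq h f
          = ∑ f ∈ H ∩ K, Real.exp (y f) * dsq h f := by
            symm
            refine Finset.sum_subset Finset.inter_subset_left fun f hf hf' => ?_
            refine h1 f hf fun hfK => hf' (Finset.mem_inter.mpr ⟨hf, hfK⟩)
        _ ≤ ∑ f ∈ K, Real.exp (y f) * dsq h f :=
            Finset.sum_le_sum_of_subset_of_nonneg Finset.inter_subset_right
              fun f _ _ => mul_nonneg (Real.exp_pos _).le (dsq_nonneg h f)
        _ ≤ ∑ f ∈ K, Real.exp (y f) := by
            refine Finset.sum_le_sum fun f _ => ?_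
            have := h2 f
            nlinarith [Real.exp_pos (y f), dsq_nonneg h f]
    refine ne_top_of_le_ne_top (ENNReal.ofReal_ne_top (r := ∑ f ∈ K, Real.exp (y f))) ?_
    exact iSup₂_le fun H hH => ENNReal.ofReal_le_ofReal (hbound H hH)

/-- For a graph with finitely many edges the supremum is attained at the full edge set. -/
theorem icond_of_finite {G : SimpleGraph V} {H : Finset (Sym2 V)}
    (hH : G.edgeSet = (H : Set (Sym2 V))) {e : Sym2 V} (he : ¬ e.IsDiag) (y : Sym2 V → ℝ) :
    icond G y e = ENNReal.ofReal (econd H y e) := by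
  refine le_antisymm (iSup₂_le fun K hK => ?_) (econd_le_icond hH.ge y e)
  rw [hH] at hK
  exact ENNReal.ofReal_le_ofReal (econd_mono (by exact_mod_cast hK) y he)

theorem gmean_of_finite {G : SimpleGraph V} {H : Finset (Sym2 V)}
    (hH : G.edgeSet = (H : Set (Sym2 V))) {e : Sym2 V} (he : e ∈ H) (y : Sym2 V → ℝ) :
    gmean G y e = Real.exp (y e) / econd H y e := by
  have heG : e ∈ G.edgeSet := by rw [hH]; exact he
  have hd : ¬ e.IsDiag := G.not_isDiag_of_mem_edgeSet heG
  unfold gmean
  rw [if_pos heG, icond_of_finite hH hd, ENNReal.toReal_div,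
    ENNReal.toReal_ofReal (Real.exp_pos _).le, ENNReal.toReal_ofReal (econd_nonneg _ _ _)]

theorem gmean_of_locallyFinite {G : SimpleGraph V} {e : Sym2 V} (he : e ∈ G.edgeSet)
    (y : Sym2 V → ℝ) : gmean G y e = Real.exp (y e) / (icond G y e).toReal := by
  unfold gmean
  rw [if_pos he, ENNReal.toReal_div, ENNReal.toReal_ofReal (Real.exp_pos _).le]

theorem econd_le_toReal_icond {G : SimpleGraph V} (hG : ∀ v, (G.neighborSet v).Finite)
    {e : Sym2 V} (he : e ∈ G.edgeSet) {H : Finset (Sym2 V)}
    (hH : (H : Set (Sym2 V)) ⊆ G.edgeSet) (y : Sym2 V → ℝ) :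
    econd H y e ≤ (icond G y e).toReal := by
  rw [← ENNReal.toReal_ofReal (econd_nonneg H y e)]
  exact ENNReal.toReal_mono (icond_ne_top hG he y) (econd_le_icond hH y e)

theorem exists_econd_gt {G : SimpleGraph V} {e : Sym2 V} (he : e ∈ G.edgeSet) (y : Sym2 V → ℝ) {ε : ℝ} (hε : 0 < ε) :
    ∃ K : Finset (Sym2 V), (K : Set (Sym2 V)) ⊆ G.edgeSet ∧
      (icond G y e).toReal - ε < econd K y e := by
  by_contra hcon
  push Not at hcon
  have h1 : icond G y e ≤ ENNReal.ofReal ((icond G y e).toReal - ε) :=
    iSup₂_le fun K hK => ENNReal.ofReal_le_ofReal (hcon K hK)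
  have hpos : 0 < (icond G y e).toReal - ε := by
    have h2 := exp_le_icond he y
    have h3 : 0 < ENNReal.ofReal ((icond G y e).toReal - ε) :=
      lt_of_lt_of_le (ENNReal.ofReal_pos.mpr (Real.exp_pos (y e))) (h2.trans h1)
    exact ENNReal.ofReal_pos.mp h3
  have h4 := ENNReal.toReal_mono ENNReal.ofReal_ne_top h1
  rw [ENNReal.toReal_ofReal hpos.le] at h4
  linarith

/-- The key continuity statement. -/
theorem tendsto_econd_icond {G : SimpleGraph V} (hG : ∀ v, (G.neighborSet v).Finite)
    {e : Sym2 V} (he : e ∈ G.edgeSet) {F : Filter ℕ} {H : ℕ → Finset (Sym2 V)}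
    (hH : ∀ n, (H n : Set (Sym2 V)) ⊆ G.edgeSet)
    (hex : ∀ f ∈ G.edgeSet, ∀ᶠ n in F, f ∈ H n)
    {yn : ℕ → Sym2 V → ℝ} {y : Sym2 V → ℝ} {M : ℝ} (hM : ∀ n f, |yn n f| ≤ M)
    (hMy : ∀ f, |y f| ≤ M) (hlim : ∀ f, Tendsto (fun n => yn n f) F (𝓝 (y f))) :
    Tendsto (fun n => econd (H n) (yn n) e) F (𝓝 (icond G y e).toReal) := by
  classical
  have hd : ¬ e.IsDiag := G.not_isDiag_of_mem_edgeSet he
  set κ := (icond G y e).toReal with hκ
  have hM0 : 0 ≤ M := (abs_nonneg _).trans (hMy e)
  have hexK : ∀ K : Finset (Sym2 V), (K : Set (Sym2 V)) ⊆ G.edgeSet →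
      ∀ᶠ n in F, K ⊆ H n := by
    intro K hK
    have : ∀ᶠ n in F, ∀ f ∈ K, f ∈ H n :=
      (eventually_all_finset K).mpr fun f hf => hex f (hK hf)
    filter_upwards [this] with n hn f hf using hn f hf
  rw [tendsto_order]
  constructor
  · intro c hc
    obtain ⟨K, hK, hKlt⟩ := exists_econd_gt he y (ε := κ - c) (by linarith)
    have hKlt' : c < econd K y e := by
      have : (icond G y e).toReal - (κ - c) = c := by rw [← hκ]; ring
      linarith
    have h1 : ∀ᶠ n in F, c < econd K (yn n) e :=
      (tendsto_econd K hd fun f _ => hlim f).eventually (lt_mem_nhds hKlt')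
    filter_upwards [h1, hexK K hK] with n h1 h2
    exact h1.trans_le (econd_mono h2 _ hd)
  · intro c hc
    set lam := Real.exp (2 * M) with hlam
    have hlam1 : 1 ≤ lam := Real.one_le_exp (by linarith)
    -- choose `ε` with `κ + (lam - 1) ε < c`
    obtain ⟨ε, hε, hεc⟩ : ∃ ε > 0, κ + (lam - 1) * ε < c := by
      refine ⟨(c - κ) / (2 * lam), by apply div_pos <;> linarith, ?_⟩
      have h1 : (lam - 1) * ((c - κ) / (2 * lam)) ≤ (c - κ) / 2 := by
        rw [mul_div_assoc', div_le_div_iff₀ (by linarith) (by norm_num)]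
        nlinarith
      linarith
    obtain ⟨K, hK, hKlt⟩ := exists_econd_gt he y hε
    -- the error on `K`
    set s : ℕ → ℝ := fun n => ∑ f ∈ K, |yn n f - y f| with hs
    have hs0 : Tendsto s F (𝓝 0) := by
      have : Tendsto s F (𝓝 (∑ f ∈ K, |y f - y f|)) :=
        tendsto_finsetSum _ fun f _ => ((hlim f).sub_const _).abs
      simpa using this
    have hsn : ∀ n, 0 ≤ s n := fun n => Finset.sum_nonneg fun _ _ => abs_nonneg _
    have hle : ∀ n, ∀ f ∈ K, |yn n f - y f| ≤ s n := fun n f hf =>
      Finset.single_le_sum (f := fun f => |yn n f - y f|) (fun _ _ => abs_nonneg _) hf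
    -- comparison field
    set y' : Sym2 V → ℝ := fun f => if f ∈ K then y f else y f + 2 * M with hy'
    have hmain : ∀ n, K ⊆ H n →
        econd (H n) (yn n) e ≤ Real.exp (s n) * (κ + (lam - 1) * ε) := by
      intro n hKn
      have h1 : econd (H n) (yn n) e ≤ Real.exp (s n) * econd (H n) y' e := by
        refine econd_scale hd fun f _ => ?_
        by_cases hf : f ∈ K
        · simp only [hy', if_pos hf]
          linarith [(abs_le.mp (hle n f hf)).2]
        · simp only [hy', if_neg hf]
          linarith [(abs_le.mp (hM n f)).2, (abs_le.mp (hMy f)).1, hsn n]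
      have h2 : econd (H n) y' e ≤
          econd (H n) y e + (lam - 1) * (econd (H n) y e - econd K y e) := by
        refine econd_concave hKn hlam1 hd (fun f hf => by simp [hy', hf]) fun f _ hf => ?_
        simp only [hy', if_neg hf, hlam]
        rw [Real.exp_add, mul_comm]
      have h3 : econd (H n) y e ≤ κ := econd_le_toReal_icond hG he (hH n) y
      have h4 : econd (H n) y e + (lam - 1) * (econd (H n) y e - econd K y e) ≤
          κ + (lam - 1) * ε := by
        have h5 : econd (H n) y e - econd K y e ≤ ε := by linarith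
        nlinarith
      calc econd (H n) (yn n) e ≤ Real.exp (s n) * econd (H n) y' e := h1
        _ ≤ Real.exp (s n) * (κ + (lam - 1) * ε) := by
            gcongr
            linarith
    have hlim2 : Tendsto (fun n => Real.exp (s n) * (κ + (lam - 1) * ε)) F
        (𝓝 (κ + (lam - 1) * ε)) := by
      have := ((Real.continuous_exp.tendsto 0).comp hs0).mul_const (κ + (lam - 1) * ε)
      simpa using this
    filter_upwards [hlim2.eventually (gt_mem_nhds hεc), hexK K hK] with n h1 h2
    exact (hmain n h2).trans_lt h1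

/-- The posterior mean functions of finite subgraphs exhausting `G` converge. -/
theorem meanTendsto_gmean {G : SimpleGraph V} (hG : ∀ v, (G.neighborSet v).Finite)
    {Gn : ℕ → SimpleGraph V} {H : ℕ → Finset (Sym2 V)}
    (hGn : ∀ n, (Gn n).edgeSet = (H n : Set (Sym2 V)))
    (hH : ∀ n, (H n : Set (Sym2 V)) ⊆ G.edgeSet)
    (hex : ∀ f ∈ G.edgeSet, ∀ᶠ n in atTop, f ∈ H n) :
    MeanTendsto (fun n => gmean (Gn n)) (gmean G) := by
  intro F hF yn y M hM hlim e
  by_cases hbot : F = ⊥
  · rw [hbot]; exact tendsto_bot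
  have hne : F.NeBot := ⟨hbot⟩
  have hMy : ∀ f, |y f| ≤ M := fun f =>
    le_of_tendsto (hlim f).abs (Eventually.of_forall fun n => hM n f)
  by_cases he : e ∈ G.edgeSet
  · have hd : ¬ e.IsDiag := G.not_isDiag_of_mem_edgeSet he
    have h1 := tendsto_econd_icond hG he hH (fun f hf => (hex f hf).filter_mono hF) hM hMy hlim
    have hpos : (icond G y e).toReal ≠ 0 := by
      have := econd_le_toReal_icond hG he (H := {e}) (by simpa using he) y
      have h2 := exp_le_econd (H := {e}) (y := y) hd (by simp)
      have h3 := Real.exp_pos (y e)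
      linarith
    have h2 : Tendsto (fun n => Real.exp (yn n e) / econd (H n) (yn n) e) F
        (𝓝 (Real.exp (y e) / (icond G y e).toReal)) :=
      ((Real.continuous_exp.tendsto _).comp (hlim e)).div h1 hpos
    rw [gmean_of_locallyFinite he]
    refine h2.congr' ?_
    filter_upwards [(hex e he).filter_mono hF] with n hn
    exact (gmean_of_finite (hGn n) hn (yn n)).symm
  · have h0 : gmean G y e = 0 := by unfold gmean; rw [if_neg he]
    rw [h0]
    refine tendsto_const_nhds.congr fun n => ?_
    have hn : e ∉ (Gn n).edgeSet := by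
      rw [hGn n]
      exact fun h => he (hH n h)
    show 0 = gmean (Gn n) (yn n) e
    unfold gmean
    rw [if_neg hn]

end Vale.Agent.P143
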