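import Vale.Agent.P143.SigLaws
import Vale.Agent.P143.MeanLim
import Vale.Agent.P143.Kirchhoff

/-!
# The law of the decoded edge set
-/

open MeasureTheory Set Filter Topology ProbabilityTheory
open scoped unitInterval ENNReal

namespace Vale.Agent.P143

universe u

variable {V : Type u}

theorem edgeSet_finite {G : SimpleGraph V} {H : G.Subgraph} (hV : H.verts.Finite) :
    H.edgeSet.Finite := by
  refine ((hV.prod hV).image (fun p : V × V => s(p.1, p.2))).subset ?_
  intro e he
  induction e with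
  | _ a b =>
    have hab : H.Adj a b := he
    exact ⟨(a, b), ⟨H.edge_vert hab, H.edge_vert hab.symm⟩, rfl⟩

theorem IsExhaustion.eventually_mem {G : SimpleGraph V} {H : ℕ → G.Subgraph}
    (hH : IsExhaustion G H) {e : Sym2 V} (he : e ∈ G.edgeSet) :
    ∀ᶠ n in atTop, e ∈ (H n).edgeSet := by
  have h1 : e ∈ (⨆ n, H n).edgeSet := by
    rw [hH.iSup_eq, SimpleGraph.Subgraph.edgeSet_top]
    exact he
  rw [SimpleGraph.Subgraph.edgeSet_iSup, mem_iUnion] at h1
  obtain ⟨n0, hn0⟩ := h1
  refine eventually_atTop.mpr ⟨n0, fun n hn => ?_⟩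
  exact SimpleGraph.Subgraph.edgeSet_mono (hH.mono hn) hn0

theorem treeFormula {G : SimpleGraph V} (H : G.Subgraph) (hV : H.verts.Finite)
    (hE : H.edgeSet.Finite) (hc : H.Connected) :
    TreeFormula hE.toFinset (treeSets H hE) (gmean H.spanningCoe) := by
  classical
  intro y e he
  have heH : e ∈ H.edgeSet := by simpa using he
  have hd : ¬ e.IsDiag := G.not_isDiag_of_mem_edgeSet (H.edgeSet_subset heH)
  have hk := kirchhoff H hV hE hc y heH
  have hset : (H.spanningCoe).edgeSet = (hE.toFinset : Set (Sym2 V)) := by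
    rw [SimpleGraph.Subgraph.edgeSet_spanningCoe]
    simp
  rw [gmean_of_finite hset he y]
  have hpos : 0 < econd hE.toFinset y e :=
    lt_of_lt_of_le (Real.exp_pos _) (exp_le_econd hd he)
  rw [div_mul_eq_mul_div, div_eq_iff hpos.ne', ← hk]
  congr!

theorem treeSets_subset {G : SimpleGraph V} {H : G.Subgraph} {hE : H.edgeSet.Finite}
    {S : Finset (Sym2 V)} (hS : S ∈ treeSets H hE) : S ⊆ hE.toFinset := by
  classical
  unfold treeSets at hS
  exact Finset.mem_powerset.mp (Finset.mem_filter.mp hS).1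

section Est

variable {E : Type*}

/-- The unbiased estimator of the indicator of a cylinder. -/
noncomputable def est (A : Finset E) (a : E → ℝ) (N : ℕ) (z : ℕ × E → I) : ℝ :=
  ∏ e ∈ A, ((1 + a e * stat N z e) / 2)

/-- The signs of the edges of `B`. -/
noncomputable def pat (B : Finset E) (e : E) : ℝ := open Classical in if e ∈ B then 1 else -1

theorem abs_pat_le (B : Finset E) (e : E) : |pat B e| ≤ 1 := by
  unfold pat
  split_ifs <;> simp

theorem measurable_est (A : Finset E) (a : E → ℝ) (N : ℕ) : Measurable (est A a N) := by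
  unfold est
  exact Finset.measurable_fun_prod _ fun e _ =>
    (((measurable_stat N e).const_mul (a e)).const_add 1).div_const 2

theorem abs_factor_le {a x : ℝ} (ha : |a| ≤ 1) (hx : |x| ≤ 15) : |(1 + a * x) / 2| ≤ 8 := by
  have h1 : |a * x| ≤ 15 := by
    rw [abs_mul]
    calc |a| * |x| ≤ 1 * 15 := mul_le_mul ha hx (abs_nonneg _) zero_le_one
      _ = 15 := by ring
  rw [abs_div, abs_of_pos (by norm_num : (0 : ℝ) < 2)]
  have h2 : |1 + a * x| ≤ 16 := (abs_add_le _ _).trans (by rw [abs_one]; linarith)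
  linarith

theorem abs_est_le (A : Finset E) {a : E → ℝ} (ha : ∀ e, |a e| ≤ 1) (N : ℕ)
    (z : ℕ × E → I) : |est A a N z| ≤ 8 ^ A.card := by
  unfold est
  rw [Finset.abs_prod]
  calc ∏ e ∈ A, |(1 + a e * stat N z e) / 2| ≤ ∏ _e ∈ A, (8 : ℝ) :=
        Finset.prod_le_prod (fun _ _ => abs_nonneg _)
          fun e _ => abs_factor_le (ha e) (abs_stat_le N z e)
    _ = 8 ^ A.card := by simp

open Classical in
theorem prod_pat (A B S : Finset E) :
    ∏ e ∈ A, ((1 + pat B e * sgnb (decide (e ∈ S))) / 2) =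
      if (∀ e ∈ A, (e ∈ S ↔ e ∈ B)) then 1 else 0 := by
  have h1 : ∀ e, (1 + pat B e * sgnb (decide (e ∈ S))) / 2 = if (e ∈ S ↔ e ∈ B) then 1 else 0 := by
    intro e
    unfold pat sgnb
    by_cases h1 : e ∈ S <;> by_cases h2 : e ∈ B <;> simp [h1, h2]
  simp_rw [h1]
  rw [Finset.prod_ite_zero]
  simp

theorem stat_congr {N : ℕ} {z z' : ℕ × E → I} {e : E} (h : ∀ k < N, z (k, e) = z' (k, e)) :
    stat N z e = stat N z' e := by
  unfold stat
  congr 1
  exact Finset.sum_congr rfl fun k hk => by rw [h k (Finset.mem_range.mp hk)]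

theorem tendsto_stat {ι : Type*} {F : Filter ι} (N : ℕ) {zn : ι → ℕ × E → I} {z : ℕ × E → I}
    (h : ∀ j, Tendsto (fun n => zn n j) F (𝓝 (z j))) (e : E) :
    Tendsto (fun n => stat N (zn n) e) F (𝓝 (stat N z e)) := by
  unfold stat
  refine Tendsto.const_mul _ (tendsto_finsetSum _ fun k _ => ?_)
  exact ((continuous_subtype_val.tendsto _).comp (h (k, e))).const_sub (1 / 2)

end Est

section Main

variable [Countable V] {G : SimpleGraph V}

/-- The signals of the sampler of `G`. -/
noncomputable def Zs (G : SimpleGraph V) (U : Sym2 V → I) (v : ℕ × Sym2 V → I) :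
    ℕ × Sym2 V → I := sampler (gmean G) U v

theorem measurable_Zs (G : SimpleGraph V) (U : Sym2 V → I) : Measurable (Zs G U) := by
  refine measurable_pi_iff.mpr fun j => ?_
  exact measurable_sampler (A := SimpleGraph V) (m := gmean) measurable_gmean
    (a := fun _ : ℕ × Sym2 V → I => G) measurable_const (U := fun _ => U) (v := fun v => v)
    (fun _ => measurable_const) (fun j => measurable_pi_apply j) j

theorem measurable_gmean_apply (G : SimpleGraph V) (e : Sym2 V) :
    Measurable (fun y : Sym2 V → ℝ => gmean G y e) :=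
  (measurable_gmean e).comp (measurable_const.prodMk measurable_id)

/-- Averages over the tree measures. -/
theorem integral_Zs_finite (H : G.Subgraph) (hV : H.verts.Finite)
    (hE : H.edgeSet.Finite) (hc : H.Connected) (U : Sym2 V → I) (hU : Function.Injective U)
    (N : ℕ) (F : (ℕ × Sym2 V → I) → ℝ) (hF : Measurable F) {C : ℝ} (hC : ∀ z, |F z| ≤ C)
    (hloc : ∀ z z' : ℕ × Sym2 V → I,
      (∀ j ∈ Finset.range N ×ˢ hE.toFinset, z j = z' j) → F z = F z') :
    ((treeSets H hE).card : ℝ) * ∫ v, F (Zs H.spanningCoe U v) ∂(iidSeeds (ℕ × Sym2 V)) =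
      ∑ S ∈ treeSets H hE, ∫ z, F z ∂(sigLaws (Finset.range N ×ˢ hE.toFinset) S) :=
  law_identity_real (treeSets_nonempty H hV hE hc) (isMean_gmean _)
    (fun e _ => measurable_gmean_apply _ e) (treeFormula H hV hE hc)
    (fun _ hS => treeSets_subset hS) U (hU.injOn) (Zs H.spanningCoe U) (measurable_Zs _ U)
    (fun v k e _ => isSol_sampler (isMean_gmean _) U v k e (mem_univ _)) N F hF hC hloc

theorem treeSets_card_pos (H : G.Subgraph) (hV : H.verts.Finite)
    (hE : H.edgeSet.Finite) (hc : H.Connected) : (0 : ℝ) < (treeSets H hE).card := by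
  exact_mod_cast Finset.card_pos.mpr (treeSets_nonempty H hV hE hc)

theorem integral_est_finite (H : G.Subgraph) (hV : H.verts.Finite)
    (hE : H.edgeSet.Finite) (hc : H.Connected) (U : Sym2 V → I) (hU : Function.Injective U)
    {N : ℕ} (hN : 0 < N) {A : Finset (Sym2 V)} (hA : A ⊆ hE.toFinset) (B : Finset (Sym2 V)) :
    ∫ v, est A (pat B) N (Zs H.spanningCoe U v) ∂(iidSeeds (ℕ × Sym2 V)) = ustProb H A B := by
  classical
  have h := integral_Zs_finite H hV hE hc U hU N (est A (pat B) N) (measurable_est _ _ _)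
    (abs_est_le A (abs_pat_le B) N) (fun z z' hz => by
      unfold est
      refine Finset.prod_congr rfl fun e he => ?_
      rw [stat_congr fun k hk => hz (k, e)
        (Finset.mem_product.mpr ⟨Finset.mem_range.mpr hk, hA he⟩)])
  have h2 : ∀ S ∈ treeSets H hE,
      ∫ z, est A (pat B) N z ∂(sigLaws (Finset.range N ×ˢ hE.toFinset) S) =
        if (∀ e ∈ A, (e ∈ S ↔ e ∈ B)) then 1 else 0 := by
    intro S _
    refine (integral_prod_stat hN S (fun e he k hk =>
      Finset.mem_product.mpr ⟨Finset.mem_range.mpr hk, hA he⟩) (pat B)).trans ?_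
    refine (prod_pat A B S).trans ?_
    congr!
  rw [Finset.sum_congr rfl h2, ← Finset.sum_filter, Finset.sum_const, nsmul_eq_mul, mul_one] at h
  rw [ustProb_eq H hE A B, eq_div_iff (treeSets_card_pos H hV hE hc).ne', mul_comm, h]
  congr!

theorem tendsto_Zs (hG : ∀ v, (G.neighborSet v).Finite) {H : ℕ → G.Subgraph}
    (hH : IsExhaustion G H) (U : Sym2 V → I) (v : ℕ × Sym2 V → I) (j : ℕ × Sym2 V) :
    Tendsto (fun n => Zs (H n).spanningCoe U v j) atTop (𝓝 (Zs G U v j)) := by
  have hE : ∀ n, (H n).edgeSet.Finite := fun n => edgeSet_finite (hH.finite n)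
  refine tendsto_sampler (fun n => isMean_gmean _) (isMean_gmean G) ?_ U v j
  refine meanTendsto_gmean hG (H := fun n => (hE n).toFinset) (fun n => ?_) (fun n => ?_)
    (fun f hf => ?_)
  · rw [SimpleGraph.Subgraph.edgeSet_spanningCoe]; simp
  · simpa using (H n).edgeSet_subset
  · filter_upwards [hH.eventually_mem hf] with n hn
    simpa using hn

/-- Passage to the limit for bounded continuous functions of the signals. -/
theorem tendsto_integral_Zs (hG : ∀ v, (G.neighborSet v).Finite) {H : ℕ → G.Subgraph}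
    (hH : IsExhaustion G H) (U : Sym2 V → I) (F : (ℕ × Sym2 V → I) → ℝ) (hF : Measurable F)
    {C : ℝ} (hC : ∀ z, |F z| ≤ C)
    (hcont : ∀ (zn : ℕ → ℕ × Sym2 V → I) (z : ℕ × Sym2 V → I),
      (∀ j, Tendsto (fun n => zn n j) atTop (𝓝 (z j))) →
      Tendsto (fun n => F (zn n)) atTop (𝓝 (F z))) :
    Tendsto (fun n => ∫ v, F (Zs (H n).spanningCoe U v) ∂(iidSeeds (ℕ × Sym2 V))) atTop
      (𝓝 (∫ v, F (Zs G U v) ∂(iidSeeds (ℕ × Sym2 V)))) := by
  refine tendsto_integral_of_dominated_convergence (fun _ => C) (fun n => ?_)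
    (integrable_const _) (fun n => ae_of_all _ fun v => ?_) (ae_of_all _ fun v => ?_)
  · exact (hF.comp (measurable_Zs _ U)).aestronglyMeasurable
  · rw [Real.norm_eq_abs]; exact hC _
  · exact hcont _ _ fun j => tendsto_Zs hG hH U v j

theorem tendsto_ustProb (hG : ∀ v, (G.neighborSet v).Finite) {H : ℕ → G.Subgraph}
    (hH : IsExhaustion G H) (U : Sym2 V → I) (hU : Function.Injective U) {N : ℕ} (hN : 0 < N)
    {A : Finset (Sym2 V)} (hA : (A : Set (Sym2 V)) ⊆ G.edgeSet) (B : Finset (Sym2 V)) :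
    Tendsto (fun n => ustProb (H n) A B) atTop
      (𝓝 (∫ v, est A (pat B) N (Zs G U v) ∂(iidSeeds (ℕ × Sym2 V)))) := by
  have hE : ∀ n, (H n).edgeSet.Finite := fun n => edgeSet_finite (hH.finite n)
  have h1 := tendsto_integral_Zs hG hH U (est A (pat B) N) (measurable_est _ _ _)
    (abs_est_le A (abs_pat_le B) N) (fun zn z hz => by
      unfold est
      refine tendsto_finsetProd _ fun e _ => ?_
      exact (((tendsto_stat N hz e).const_mul _).const_add 1).div_const 2)
  refine h1.congr' ?_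
  have hev : ∀ᶠ n in atTop, ∀ e ∈ A, e ∈ (H n).edgeSet :=
    (eventually_all_finset A).mpr fun e he => hH.eventually_mem (hA he)
  filter_upwards [hev] with n hn
  exact integral_est_finite (H n) (hH.finite n) (hE n) (hH.connected n) U hU hN
    (fun e he => by simpa using hn e he) B

end Main

end Vale.Agent.P143
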