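import Vale.Agent.P143.SeedDefs

/-!
# Edge seeds obtained from vertex labels are i.i.d.
-/

open MeasureTheory Set Filter Topology
open scoped unitInterval ENNReal

namespace Vale.Agent.P143

universe u

variable {V : Type u}

/-! ### Measurability -/

section Meas

variable [Countable V]

theorem measurable_nrank (u w : V) :
    Measurable (fun p : SimpleGraph V × (V → ℕ → I) => nrank p.1 p.2 u w) := by
  unfold nrank
  apply measurable_ncard.comp
  rw [measurable_set_iff]
  intro x
  have h1 : Measurable (fun p : SimpleGraph V × (V → ℕ → I) => p.1.Adj u x) := by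
    have := (SimpleGraph.measurable_adj (V := V))
    have h2 : Measurable (fun p : SimpleGraph V × (V → ℕ → I) => p.1.Adj) :=
      this.comp measurable_fst
    exact (measurable_pi_apply x).comp ((measurable_pi_apply u).comp h2)
  have h2 : Measurable (fun p : SimpleGraph V × (V → ℕ → I) => p.2 x 0 < p.2 w 0) := by
    refine measurableSet_setOfPred.1 (measurableSet_lt ?_ ?_) <;> fun_prop
  exact h1.and h2

theorem measurable_label (i : ℕ) (u w : V) :
    Measurable (fun p : SimpleGraph V × (V → ℕ → I) =>
      p.2 u (1 + Nat.pair (nrank p.1 p.2 u w) i)) := by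
  have h1 : Measurable (fun q : (ℕ → I) × ℕ => q.1 q.2) :=
    measurable_from_prod_countable_left (fun n => measurable_pi_apply n)
  have h2 : Measurable (fun p : SimpleGraph V × (V → ℕ → I) =>
      1 + Nat.pair (nrank p.1 p.2 u w) i) :=
    (Measurable.of_discrete (f := fun n : ℕ => 1 + Nat.pair n i)).comp (measurable_nrank u w)
  have h3 : Measurable (fun p : SimpleGraph V × (V → ℕ → I) => p.2 u) :=
    (measurable_pi_apply u).comp measurable_snd
  exact h1.comp (h3.prodMk h2)

theorem measurable_seedAux (i : ℕ) (u w : V) :
    Measurable (fun p : SimpleGraph V × (V → ℕ → I) => seedAux p.1 p.2 i u w) := by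
  unfold seedAux
  have h2 : ∀ x w : V, MeasurableSet {p : SimpleGraph V × (V → ℕ → I) | p.2 x 0 < p.2 w 0} := by
    intro x w
    refine measurableSet_lt ?_ ?_ <;> fun_prop
  exact Measurable.ite (h2 u w) (measurable_label i u w)
    (Measurable.ite (h2 w u) (measurable_label i w u) measurable_const)

theorem measurable_seed (e : Sym2 V) (i : ℕ) :
    Measurable (fun p : SimpleGraph V × (V → ℕ → I) => seed p.1 p.2 e i) := by
  induction e using Sym2.ind with
  | _ u w => exact measurable_seedAux i u w

end Meas

/-! ### Equivariance -/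

theorem nrank_map {V' : Type u} (G : SimpleGraph V) (G' : SimpleGraph V') (φ : G ≃g G')
    (W : V → ℕ → I) (u w : V) :
    nrank G' (fun v => W (φ.symm v)) (φ u) (φ w) = nrank G W u w := by
  unfold nrank
  have : {x | G'.Adj (φ u) x ∧ W (φ.symm x) 0 < W (φ.symm (φ w)) 0} =
      φ '' {x | G.Adj u x ∧ W x 0 < W w 0} := by
    ext x
    simp only [Set.mem_ofPred_eq, Set.mem_image, RelIso.symm_apply_apply]
    constructor
    · rintro ⟨h1, h2⟩
      refine ⟨φ.symm x, ⟨?_, h2⟩, by simp⟩
      rw [← φ.map_adj_iff]
      simpa using h1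
    · rintro ⟨y, ⟨h1, h2⟩, rfl⟩
      exact ⟨φ.map_adj_iff.2 h1, by simpa using h2⟩
  rw [this, Set.ncard_image_of_injective _ φ.injective]

theorem seed_map {V' : Type u} (G : SimpleGraph V) (G' : SimpleGraph V') (φ : G ≃g G')
    (W : V → ℕ → I) (e : Sym2 V) (i : ℕ) :
    seed G' (fun v => W (φ.symm v)) (Sym2.map φ e) i = seed G W e i := by
  induction e using Sym2.ind with
  | _ u w =>
    show seedAux G' (fun v => W (φ.symm v)) i (φ u) (φ w) = seedAux G W i u w
    unfold seedAux
    rw [nrank_map, nrank_map]
    simp

/-! ### The law -/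

/-- Injective reindexing of an i.i.d. family. -/
theorem map_reindex {ι κ : Type*} (φ : κ → ι) (hφ : Function.Injective φ) :
    Measure.map (fun (b : ι → I) (k : κ) => b (φ k))
      (Measure.infinitePi (fun _ : ι => (volume : Measure I))) =
      Measure.infinitePi (fun _ : κ => (volume : Measure I)) := by
  classical
  apply Measure.eq_infinitePi
  intro s t ht
  rw [Measure.map_apply (by fun_prop) (.pi s.countable_toSet fun k _ => ht k)]
  have hpre : (fun (b : ι → I) (k : κ) => b (φ k)) ⁻¹' (Set.pi s t) =
      Set.pi (s.image φ : Finset ι)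
        (fun j => if h : ∃ k, φ k = j then t h.choose else Set.univ) := by
    ext b
    simp only [Set.mem_preimage, Set.mem_pi, Finset.mem_coe, Finset.mem_image,
      forall_exists_index, and_imp, forall_apply_eq_imp_iff₂]
    apply forall₂_congr
    intro k _
    have h : ∃ k', φ k' = φ k := ⟨k, rfl⟩
    rw [dif_pos h, hφ h.choose_spec]
  rw [hpre, Measure.infinitePi_pi]
  · rw [Finset.prod_image (fun a _ b _ h => hφ h)]
    apply Finset.prod_congr rfl
    intro k _
    have h : ∃ k', φ k' = φ k := ⟨k, rfl⟩
    rw [dif_pos h, hφ h.choose_spec]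
  · intro j hj
    obtain ⟨k, _, rfl⟩ := Finset.mem_image.1 hj
    have h : ∃ k', φ k' = φ k := ⟨k, rfl⟩
    rw [dif_pos h]
    exact ht _

/-- The labels are almost surely distinct. -/
theorem ae_injective [Countable V] :
    ∀ᵐ a ∂(Measure.infinitePi (fun _ : V => (volume : Measure I))), Function.Injective a := by
  classical
  have h : ∀ u w : V, u ≠ w →
      ∀ᵐ a ∂(Measure.infinitePi (fun _ : V => (volume : Measure I))), a u ≠ a w := by
    intro u w huw
    have hlaw : Measure.map (fun a : V → I => (a u, a w))
        (Measure.infinitePi (fun _ : V => (volume : Measure I))) =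
        (volume : Measure I).prod volume := by
      symm
      apply Measure.prod_eq
      intro s t hs ht
      rw [Measure.map_apply (by fun_prop) (hs.prod ht)]
      have : (fun a : V → I => (a u, a w)) ⁻¹' (s ×ˢ t) =
          Set.pi ({u, w} : Finset V) (fun v => if v = u then s else t) := by
        ext a
        simp [huw.symm]
      rw [this, Measure.infinitePi_pi]
      · rw [Finset.prod_pair huw]
        simp [huw.symm]
      · intro v _
        split_ifs <;> assumption
    have hdiag : ((volume : Measure I).prod volume) {p : I × I | p.1 = p.2} = 0 := by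
      rw [Measure.measure_prod_null (measurableSet_eq_fun measurable_fst measurable_snd)]
      filter_upwards with x
      have : (Prod.mk x ⁻¹' {p : I × I | p.1 = p.2}) = {x} := by
        ext y; simp [eq_comm]
      rw [this]
      simp
    rw [ae_iff]
    have : {a : V → I | ¬ a u ≠ a w} = (fun a : V → I => (a u, a w)) ⁻¹' {p | p.1 = p.2} := by
      ext a; simp
    rw [this, ← Measure.map_apply (by fun_prop)
      (measurableSet_eq_fun measurable_fst measurable_snd), hlaw, hdiag]
  have h2 : ∀ᵐ a ∂(Measure.infinitePi (fun _ : V => (volume : Measure I))),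
      ∀ u w : V, u ≠ w → a u ≠ a w := by
    rw [ae_all_iff]; intro u
    rw [ae_all_iff]; intro w
    by_cases huw : u = w
    · filter_upwards with a h; exact absurd huw h
    · filter_upwards [h u w huw] with a ha _ using ha
  filter_upwards [h2] with a ha u w huw
  by_contra hne
  exact ha u w hne huw

/-- Labels from the first label `a` and the other labels `b`. -/
def assemble (p : (V → I) × (V × ℕ → I)) (v : V) : ℕ → I
  | 0 => p.1 v
  | n + 1 => p.2 (v, n)

theorem measurable_assemble : Measurable (assemble (V := V)) := by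
  rw [measurable_pi_iff]
  intro v
  rw [measurable_pi_iff]
  intro n
  cases n with
  | zero => exact (measurable_pi_apply v).comp measurable_fst
  | succ n => exact (measurable_pi_apply (v, n)).comp measurable_snd

theorem map_assemble :
    Measure.map (assemble (V := V))
      ((Measure.infinitePi (fun _ : V => (volume : Measure I))).prod
        (Measure.infinitePi (fun _ : V × ℕ => (volume : Measure I)))) =
      Measure.infinitePi fun _ : V => Measure.infinitePi fun _ : ℕ => (volume : Measure I) := by
  classical
  rw [← Measure.infinitePi_map_curry (fun (_ : V) (_ : ℕ) => (volume : Measure I))]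
  have key : Measure.map (fun (p : (V → I) × (V × ℕ → I)) (j : V × ℕ) => assemble p j.1 j.2)
      ((Measure.infinitePi (fun _ : V => (volume : Measure I))).prod
        (Measure.infinitePi (fun _ : V × ℕ => (volume : Measure I)))) =
      Measure.infinitePi (fun _ : V × ℕ => (volume : Measure I)) := by
    have hm : Measurable (fun (p : (V → I) × (V × ℕ → I)) (j : V × ℕ) => assemble p j.1 j.2) := by
      rw [measurable_pi_iff]
      intro j
      exact (measurable_pi_apply j.2).comp ((measurable_pi_apply j.1).comp measurable_assemble)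
    apply Measure.eq_infinitePi
    intro s t ht
    rw [Measure.map_apply hm (.pi s.countable_toSet fun k _ => ht k)]
    set A : Finset V := (s.filter (fun j => j.2 = 0)).image Prod.fst with hA
    set B : Finset (V × ℕ) := (s.filter (fun j => j.2 ≠ 0)).image (fun j => (j.1, j.2 - 1)) with hB
    have hpre : (fun (p : (V → I) × (V × ℕ → I)) (j : V × ℕ) => assemble p j.1 j.2) ⁻¹'
        (Set.pi s t) = (Set.pi A (fun v => t (v, 0))) ×ˢ
          (Set.pi B (fun j => t (j.1, j.2 + 1))) := by
      ext p
      simp only [Set.mem_preimage, Set.mem_pi, Finset.mem_coe, Set.mem_prod]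
      constructor
      · intro h
        constructor
        · intro v hv
          obtain ⟨⟨v', n⟩, hj, rfl⟩ := Finset.mem_image.1 hv
          obtain ⟨hj, h0⟩ := Finset.mem_filter.1 hj
          obtain rfl : n = 0 := h0
          exact h _ hj
        · intro j hj
          obtain ⟨⟨v', n⟩, hj', rfl⟩ := Finset.mem_image.1 hj
          obtain ⟨hj'', h0⟩ := Finset.mem_filter.1 hj'
          obtain ⟨m, rfl⟩ : ∃ m, n = m + 1 := Nat.exists_eq_succ_of_ne_zero h0
          exact h _ hj''
      · rintro ⟨h1, h2⟩ ⟨v, n⟩ hj
        cases n with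
        | zero => exact h1 v (Finset.mem_image.2 ⟨(v, 0), Finset.mem_filter.2 ⟨hj, rfl⟩, rfl⟩)
        | succ n =>
          exact h2 (v, n) (Finset.mem_image.2
            ⟨(v, n + 1), Finset.mem_filter.2 ⟨hj, by simp⟩, rfl⟩)
    rw [hpre, Measure.prod_prod, Measure.infinitePi_pi _ (fun v _ => ht _),
      Measure.infinitePi_pi _ (fun v _ => ht _), hA, hB, Finset.prod_image, Finset.prod_image,
      ← Finset.prod_filter_mul_prod_filter_not s (fun j => j.2 = 0)]
    · congr 1
      · apply Finset.prod_congr rfl
        rintro ⟨v, n⟩ hj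
        obtain ⟨_, h0⟩ := Finset.mem_filter.1 hj
        obtain rfl : n = 0 := h0
        rfl
      · apply Finset.prod_congr rfl
        rintro ⟨v, n⟩ hj
        obtain ⟨_, h0⟩ := Finset.mem_filter.1 hj
        obtain ⟨m, rfl⟩ : ∃ m, n = m + 1 := Nat.exists_eq_succ_of_ne_zero h0
        rfl
    · rintro ⟨v, n⟩ hj ⟨v', n'⟩ hj' h
      have h0 := (Finset.mem_filter.1 hj).2
      have h0' := (Finset.mem_filter.1 hj').2
      simp only [ne_eq, Prod.mk.injEq] at h0 h0' h ⊢
      exact ⟨h.1, by omega⟩
    · rintro ⟨v, n⟩ hj ⟨v', n'⟩ hj' h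
      have h0 := (Finset.mem_filter.1 hj).2
      have h0' := (Finset.mem_filter.1 hj').2
      simp only at h0 h0' h
      rw [h0, h0', h]
  conv_rhs => rw [← key]
  rw [Measure.map_map (MeasurableEquiv.measurable _)]
  · rfl
  · rw [measurable_pi_iff]
    intro j
    exact (measurable_pi_apply j.2).comp ((measurable_pi_apply j.1).comp measurable_assemble)

/-- the rank of a neighbour with respect to the first labels -/
noncomputable def rk (G : SimpleGraph V) (a : V → I) (u w : V) : ℕ :=
  {x | G.Adj u x ∧ a x < a w}.ncard

theorem rk_inj (G : SimpleGraph V) (hG : ∀ v, (G.neighborSet v).Finite) {a : V → I}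
    (ha : Function.Injective a) {u w w' : V} (hw : G.Adj u w) (hw' : G.Adj u w')
    (h : rk G a u w = rk G a u w') : w = w' := by
  have key : ∀ w w' : V, G.Adj u w → a w < a w' → rk G a u w < rk G a u w' := by
    intro w w' hw hlt
    apply Set.ncard_lt_ncard
    · refine ⟨fun x hx => ⟨hx.1, hx.2.trans hlt⟩, fun hsub => ?_⟩
      exact lt_irrefl _ (hsub (show w ∈ _ from ⟨hw, hlt⟩)).2
    · exact (hG u).subset (fun x hx => hx.1)
  rcases lt_trichotomy (a w) (a w') with h1 | h1 | h1
  · exact absurd h (key w w' hw h1).ne
  · exact ha h1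
  · exact absurd h (key w' w hw' h1).ne'

/-- the seeds of the edges of a locally finite graph are i.i.d. uniform -/
theorem map_seed [Countable V] (G : SimpleGraph V) (hG : ∀ v, (G.neighborSet v).Finite) :
    Measure.map (fun (W : V → ℕ → I) (j : G.edgeSet × ℕ) => seed G W j.1 j.2)
      (Measure.infinitePi fun _ : V => Measure.infinitePi fun _ : ℕ => (volume : Measure I)) =
    Measure.infinitePi (fun _ : G.edgeSet × ℕ => (volume : Measure I)) := by
  classical
  have hmeas : Measurable (fun (W : V → ℕ → I) (j : G.edgeSet × ℕ) => seed G W j.1 j.2) := by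
    rw [measurable_pi_iff]
    intro j
    exact (measurable_seed (j.1 : Sym2 V) j.2).comp (measurable_const.prodMk measurable_id)
  rw [← map_assemble, Measure.map_map hmeas measurable_assemble]
  ext B hB
  rw [Measure.map_apply (hmeas.comp measurable_assemble) hB, Measure.prod_apply
    ((hmeas.comp measurable_assemble) hB)]
  have hae : ∀ᵐ a ∂(Measure.infinitePi (fun _ : V => (volume : Measure I))),
      (Measure.infinitePi (fun _ : V × ℕ => (volume : Measure I)))
        (Prod.mk a ⁻¹' (((fun (W : V → ℕ → I) (j : G.edgeSet × ℕ) => seed G W j.1 j.2) ∘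
          assemble) ⁻¹' B)) =
      (Measure.infinitePi (fun _ : G.edgeSet × ℕ => (volume : Measure I))) B := by
    filter_upwards [ae_injective (V := V)] with a ha
    -- owners
    have hown : ∀ e : G.edgeSet, ∃ p : V × V, (e : Sym2 V) = s(p.1, p.2) ∧ a p.1 < a p.2 := by
      rintro ⟨e, he⟩
      induction e using Sym2.ind with
      | _ u w =>
        have hne : u ≠ w := G.ne_of_adj he
        rcases lt_or_gt_of_ne (fun h => hne (ha h)) with h | h
        · exact ⟨(u, w), rfl, h⟩
        · exact ⟨(w, u), Sym2.eq_swap, h⟩
    choose p hp hlt using hown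
    have hadj : ∀ e : G.edgeSet, G.Adj (p e).1 (p e).2 := by
      intro e
      have := e.2
      rw [hp e] at this
      exact this
    set φ : G.edgeSet × ℕ → V × ℕ := fun j => ((p j.1).1, Nat.pair (rk G a (p j.1).1 (p j.1).2) j.2)
      with hφ
    have hinj : Function.Injective φ := by
      rintro ⟨e, i⟩ ⟨e', i'⟩ h
      simp only [hφ, Prod.mk.injEq, Nat.pair_eq_pair] at h
      obtain ⟨h1, h2, h3⟩ := h
      subst h3
      have h4 : (p e).2 = (p e').2 := by
        apply rk_inj G hG ha (u := (p e).1) (hadj e)
        · rw [h1]; exact hadj e'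
        · rw [h2, h1]
      have : e = e' := by
        apply Subtype.ext
        rw [hp e, hp e', h1, h4]
      rw [this]
    have hseed : ∀ (b : V × ℕ → I), (fun (j : G.edgeSet × ℕ) =>
        seed G (assemble (a, b)) j.1 j.2) = fun j => b (φ j) := by
      intro b
      funext j
      obtain ⟨e, i⟩ := j
      simp only [hφ]
      rw [hp e]
      show seedAux G (assemble (a, b)) i (p e).1 (p e).2 = _
      unfold seedAux
      rw [if_pos (show assemble (a, b) (p e).1 0 < assemble (a, b) (p e).2 0 from hlt e),
        Nat.add_comm 1]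
      rfl
    rw [← map_reindex φ hinj, Measure.map_apply (by fun_prop) hB]
    congr 1
    ext b
    simp only [Set.mem_preimage, Function.comp]
    rw [hseed b]
  rw [lintegral_congr_ae hae]
  simp

end Vale.Agent.P143
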