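import Vale.Agent.P143.Decode
import Vale.Agent.P143.Seeds

/-!
# The decoded set has the right cylinder probabilities
-/

open MeasureTheory Set Filter Topology ProbabilityTheory
open scoped unitInterval ENNReal

namespace Vale.Agent.P143

universe u

variable {V : Type u} [Countable V] {G : SimpleGraph V}

theorem measurable_decode_mem (G : SimpleGraph V) (e : Sym2 V) :
    Measurable (fun z : ℕ × Sym2 V → I => e ∈ decode G z) := by
  have h : MeasurableSet {z : ℕ × Sym2 V → I | 0 < xlim z e} :=
    measurableSet_lt measurable_const (measurable_xlim e)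
  exact measurable_const.and (measurableSet_setOfPred.1 h)

theorem measurable_decode (G : SimpleGraph V) :
    Measurable (fun z : ℕ × Sym2 V → I => decode G z) :=
  measurable_set_iff.2 fun e => measurable_decode_mem G e

/-- The cylinder event of edge sets. -/
def cyl (A B : Finset (Sym2 V)) : Set (Set (Sym2 V)) := {ω | ∀ e ∈ A, (e ∈ ω ↔ e ∈ B)}

omit [Countable V] in
theorem measurableSet_cyl (A B : Finset (Sym2 V)) : MeasurableSet (cyl A B) := by
  have : cyl A B = ⋂ e ∈ A, {ω : Set (Sym2 V) | (e ∈ ω ↔ e ∈ B)} := by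
    ext ω; simp [cyl]
  rw [this]
  refine Finset.measurableSet_biInter _ fun e _ => ?_
  exact measurableSet_setOfPred.2 ((measurable_set_mem e).iff measurable_const)

theorem tendsto_ustProb_cyl (hG : ∀ v, (G.neighborSet v).Finite) {H : ℕ → G.Subgraph}
    (hH : IsExhaustion G H) (U : Sym2 V → I) (hU : Function.Injective U)
    {A : Finset (Sym2 V)} (hA : (A : Set (Sym2 V)) ⊆ G.edgeSet) (B : Finset (Sym2 V)) :
    Tendsto (fun n => ustProb (H n) A B) atTop
      (𝓝 ((iidSeeds (ℕ × Sym2 V)).real ((fun v => decode G (Zs G U v)) ⁻¹' cyl A B))) := by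
  classical
  have hZ := measurable_Zs G U
  have hD : Measurable (fun v => decode G (Zs G U v)) := (measurable_decode G).comp hZ
  have hms : MeasurableSet ((fun v => decode G (Zs G U v)) ⁻¹' cyl A B) :=
    hD (measurableSet_cyl A B)
  have h0 := tendsto_ustProb hG hH U hU (N := 1) one_pos hA B
  have h1 : ∀ i : ℕ, ∫ v, est A (pat B) (4 ^ i) (Zs G U v) ∂(iidSeeds (ℕ × Sym2 V)) =
      ∫ v, est A (pat B) 1 (Zs G U v) ∂(iidSeeds (ℕ × Sym2 V)) := fun i =>
    tendsto_nhds_unique (tendsto_ustProb hG hH U hU (N := 4 ^ i) (by positivity) hA B) h0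
  have h2 : Tendsto (fun i : ℕ => ∫ v, est A (pat B) (4 ^ i) (Zs G U v)
      ∂(iidSeeds (ℕ × Sym2 V))) atTop
      (𝓝 (∫ v, ((fun v => decode G (Zs G U v)) ⁻¹' cyl A B).indicator (fun _ => (1 : ℝ)) v
        ∂(iidSeeds (ℕ × Sym2 V)))) := by
    refine tendsto_integral_of_dominated_convergence (fun _ => 8 ^ A.card) (fun n => ?_)
      (integrable_const _) (fun n => ae_of_all _ fun v => ?_) ?_
    · exact ((measurable_est _ _ _).comp hZ).aestronglyMeasurable
    · rw [Real.norm_eq_abs]; exact abs_est_le A (abs_pat_le B) _ _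
    · have h3 : ∀ᵐ v ∂(iidSeeds (ℕ × Sym2 V)), ∀ e ∈ A,
          Tendsto (fun i => st i (Zs G U v) e) atTop (𝓝 (xlim (Zs G U v) e)) ∧
            xlim (Zs G U v) e ^ 2 = 1 := by
        have h4 : ∀ᵐ v ∂(iidSeeds (ℕ × Sym2 V)), ∀ e ∈ (A : Set (Sym2 V)),
          Tendsto (fun i => st i (Zs G U v) e) atTop (𝓝 (xlim (Zs G U v) e)) ∧
            xlim (Zs G U v) e ^ 2 = 1 :=
          (ae_ball_iff A.countable_toSet).2 fun e he =>
            ae_tendsto_st hG hH U hU (hA he)
        filter_upwards [h4] with v hv e he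
        exact hv e he
      filter_upwards [h3] with v hv
      have h5 : ((fun v => decode G (Zs G U v)) ⁻¹' cyl A B).indicator (fun _ => (1 : ℝ)) v =
          ∏ e ∈ A, ((1 + pat B e * xlim (Zs G U v) e) / 2) := by
        rw [prod_sign A B _ fun e he => (hv e he).2, indicator_apply]
        have h6 : (v ∈ (fun v => decode G (Zs G U v)) ⁻¹' cyl A B) ↔
            ∀ e ∈ A, (0 < xlim (Zs G U v) e ↔ e ∈ B) := by
          change (∀ e ∈ A, (e ∈ decode G (Zs G U v) ↔ e ∈ B)) ↔ _
          refine forall₂_congr fun e he => ?_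
          have : e ∈ decode G (Zs G U v) ↔ 0 < xlim (Zs G U v) e :=
            ⟨fun h => h.2, fun h => ⟨hA he, h⟩⟩
          rw [this]
        simp only [h6]
        congr!
      rw [h5]
      exact tendsto_finsetProd _ fun e he => (((hv e he).1.const_mul _).const_add 1).div_const 2
  have h3 := tendsto_nhds_unique (h2.congr h1) tendsto_const_nhds
  rw [integral_indicator_const _ hms] at h3
  rw [← h3] at h0
  simpa using h0

open Classical in
/-- The general case: arbitrary finite sets of pairs. -/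
theorem tendsto_ustProb_all (hG : ∀ v, (G.neighborSet v).Finite) {H : ℕ → G.Subgraph}
    (hH : IsExhaustion G H) (U : Sym2 V → I) (hU : Function.Injective U)
    (A B : Finset (Sym2 V)) :
    Tendsto (fun n => ustProb (H n) A B) atTop
      (𝓝 ((iidSeeds (ℕ × Sym2 V)).real ((fun v => decode G (Zs G U v)) ⁻¹' cyl A B))) := by
  by_cases hbad : ∃ e ∈ A, e ∉ G.edgeSet ∧ e ∈ B
  · obtain ⟨e, heA, heG, heB⟩ := hbad
    have h1 : ∀ n, ustProb (H n) A B = 0 := by
      intro n
      have : (spanningTrees (H n) ∩ {T | ∀ e ∈ A, (e ∈ T.edgeSet ↔ e ∈ B)}) = ∅ := by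
        ext T
        simp only [mem_inter_iff, mem_ofPred_eq, mem_empty_iff_false, iff_false, not_and]
        intro _ h
        exact heG (T.edgeSet_subset ((h e heA).2 heB))
      unfold ustProb
      rw [this]
      simp
    have h2 : (fun v => decode G (Zs G U v)) ⁻¹' cyl A B = ∅ := by
      ext v
      simp only [mem_preimage, mem_empty_iff_false, iff_false]
      intro h
      exact heG ((h e heA).2 heB).1
    simp [h1, h2]
  · push Not at hbad
    set A' := A.filter (fun e => e ∈ G.edgeSet) with hA'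
    have h1 : ∀ S : Set (Sym2 V), S ⊆ G.edgeSet →
        ((∀ e ∈ A, (e ∈ S ↔ e ∈ B)) ↔ (∀ e ∈ A', (e ∈ S ↔ e ∈ B))) := by
      intro S hS
      constructor
      · intro h e he
        exact h e (Finset.mem_filter.1 he).1
      · intro h e he
        by_cases heG : e ∈ G.edgeSet
        · exact h e (Finset.mem_filter.2 ⟨he, heG⟩)
        · exact ⟨fun h => absurd (hS h) heG, fun h => absurd h (hbad e he heG)⟩
    have h2 : ∀ n, ustProb (H n) A B = ustProb (H n) A' B := by
      intro n
      unfold ustProb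
      have : {T : G.Subgraph | ∀ e ∈ A, (e ∈ T.edgeSet ↔ e ∈ B)} =
          {T : G.Subgraph | ∀ e ∈ A', (e ∈ T.edgeSet ↔ e ∈ B)} := by
        ext T
        exact h1 _ T.edgeSet_subset
      rw [this]
    have h3 : (fun v => decode G (Zs G U v)) ⁻¹' cyl A B =
        (fun v => decode G (Zs G U v)) ⁻¹' cyl A' B := by
      ext v
      exact h1 _ fun e he => he.1
    rw [h3]
    simp_rw [h2]
    exact tendsto_ustProb_cyl hG hH U hU (fun e he => (Finset.mem_filter.1 he).2) B

/-- The joint map: decoding the signals of the sampler with the order `p.1` and seeds `p.2`. -/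
noncomputable def dec2 (G : SimpleGraph V) (p : (Sym2 V → I) × (ℕ × Sym2 V → I)) :
    Set (Sym2 V) := decode G (Zs G p.1 p.2)

theorem measurable_dec2 (G : SimpleGraph V) : Measurable (dec2 G) := by
  refine (measurable_decode G).comp (measurable_pi_iff.mpr fun j => ?_)
  exact measurable_sampler (A := SimpleGraph V) (m := gmean) measurable_gmean
    (a := fun _ : (Sym2 V → I) × (ℕ × Sym2 V → I) => G) measurable_const
    (U := fun p => p.1) (v := fun p => p.2)
    (fun e => (measurable_pi_apply e).comp measurable_fst)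
    (fun j => (measurable_pi_apply j).comp measurable_snd) j

/-- The law of the decoded set, all seeds being i.i.d. -/
theorem tendsto_ustProb_prod (hG : ∀ v, (G.neighborSet v).Finite) {H : ℕ → G.Subgraph}
    (hH : IsExhaustion G H) (A B : Finset (Sym2 V)) :
    Tendsto (fun n => ustProb (H n) A B) atTop
      (𝓝 (((iidSeeds (Sym2 V)).prod (iidSeeds (ℕ × Sym2 V))).real (dec2 G ⁻¹' cyl A B))) := by
  have hae : ∀ᵐ U ∂(iidSeeds (Sym2 V)), Function.Injective U := ae_injective (V := Sym2 V)
  obtain ⟨U0, hU0⟩ := hae.exists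
  have h0 := tendsto_ustProb_all hG hH U0 hU0 A B
  set L := (iidSeeds (ℕ × Sym2 V)).real ((fun v => decode G (Zs G U0 v)) ⁻¹' cyl A B) with hL
  have hms : MeasurableSet (dec2 G ⁻¹' cyl A B) := measurable_dec2 G (measurableSet_cyl A B)
  have h1 : ((iidSeeds (Sym2 V)).prod (iidSeeds (ℕ × Sym2 V))) (dec2 G ⁻¹' cyl A B) =
      ENNReal.ofReal L := by
    rw [Measure.prod_apply hms]
    have h2 : ∀ᵐ U ∂(iidSeeds (Sym2 V)),
        (iidSeeds (ℕ × Sym2 V)) (Prod.mk U ⁻¹' (dec2 G ⁻¹' cyl A B)) = ENNReal.ofReal L := by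
      filter_upwards [hae] with U hU
      have h3 := tendsto_nhds_unique (tendsto_ustProb_all hG hH U hU A B) h0
      rw [← h3, ofReal_measureReal]
      rfl
    rw [lintegral_congr_ae h2]
    simp
  have h2 : ((iidSeeds (Sym2 V)).prod (iidSeeds (ℕ × Sym2 V))).real (dec2 G ⁻¹' cyl A B) = L := by
    rw [measureReal_def, h1, ENNReal.toReal_ofReal measureReal_nonneg]
  rw [h2]
  exact h0

end Vale.Agent.P143
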