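import Vale.Agent.P143.Signal

/-!
# The quantile function of the signals
-/

open MeasureTheory Set Filter Topology
open scoped unitInterval ENNReal

namespace Vale.Agent.P143

/-- The quadratic distribution function. -/
noncomputable def cdfq (s z : ℝ) : ℝ := z + s * (z - z ^ 2)

theorem quant_aux {s v : ℝ} (hs : |s| ≤ 1 / 5) (hv0 : 0 ≤ v) (hv1 : v ≤ 1) :
    0 ≤ (1 + s) ^ 2 - 4 * s * v ∧ 0 < 1 + s + Real.sqrt ((1 + s) ^ 2 - 4 * s * v) := by
  obtain ⟨h1, h2⟩ := abs_le.mp hs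
  have hd : 0 ≤ (1 + s) ^ 2 - 4 * s * v := by
    rcases le_total 0 s with h | h
    · nlinarith [mul_nonneg h (sub_nonneg.mpr hv1), sq_nonneg (1 - s)]
    · nlinarith [mul_nonneg (neg_nonneg.mpr h) hv0, sq_nonneg (1 + s)]
  refine ⟨hd, ?_⟩
  have := Real.sqrt_nonneg ((1 + s) ^ 2 - 4 * s * v)
  linarith

theorem quant_spec {s v : ℝ} (hs : |s| ≤ 1 / 5) (hv0 : 0 ≤ v) (hv1 : v ≤ 1) :
    quant s v + s * (quant s v - quant s v ^ 2) = v ∧ 0 ≤ quant s v ∧ quant s v ≤ 1 := by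
  obtain ⟨hd, hp⟩ := quant_aux hs hv0 hv1
  obtain ⟨h1, h2⟩ := abs_le.mp hs
  set r := Real.sqrt ((1 + s) ^ 2 - 4 * s * v) with hr
  have hr2 : r ^ 2 = (1 + s) ^ 2 - 4 * s * v := Real.sq_sqrt hd
  have hr0 : 0 ≤ r := Real.sqrt_nonneg _
  have hq : quant s v * (1 + s + r) = 2 * v := by
    unfold quant
    rw [← hr]
    field_simp
  have hpos : 0 ≤ quant s v := by
    unfold quant
    rw [← hr]
    positivity
  -- `s q = ((1 + s) - r) / 2`
  have hsq : 2 * s * quant s v = 1 + s - r := by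
    have : (2 * s * quant s v - (1 + s - r)) * (1 + s + r) = 0 := by
      have e1 : (2 * s * quant s v) * (1 + s + r) = 4 * s * v := by
        calc (2 * s * quant s v) * (1 + s + r) = 2 * s * (quant s v * (1 + s + r)) := by ring
          _ = 4 * s * v := by rw [hq]; ring
      have e2 : (1 + s - r) * (1 + s + r) = 4 * s * v := by
        calc (1 + s - r) * (1 + s + r) = (1 + s) ^ 2 - r ^ 2 := by ring
          _ = 4 * s * v := by rw [hr2]; ring
      linarith [e1, e2, sub_mul (2 * s * quant s v) (1 + s - r) (1 + s + r)]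
    rcases mul_eq_zero.mp this with h | h
    · linarith
    · linarith
  have hspec : quant s v + s * (quant s v - quant s v ^ 2) = v := by
    have e : 2 * v = quant s v * (1 + s + r) := hq.symm
    have e' : r = 1 + s - 2 * s * quant s v := by linarith
    rw [e'] at e
    linarith [e]
  refine ⟨hspec, hpos, ?_⟩
  -- upper bound: the cdf at `q > 1` would exceed `1`
  by_contra hlt
  push Not at hlt
  have hrpos : 2 * s * quant s v ≤ 1 + s := by linarith
  have : (quant s v - 1) * (1 - s * quant s v) > 0 := by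
    apply mul_pos (by linarith)
    nlinarith
  nlinarith

theorem cdfq_sub (s z z' : ℝ) :
    cdfq s z - cdfq s z' = (z - z') * (1 + s * (1 - z - z')) := by
  unfold cdfq; ring

theorem cdfq_sub_abs {s z z' : ℝ} (hs : |s| ≤ 1 / 5) (hz0 : 0 ≤ z) (hz1 : z ≤ 1)
    (hz0' : 0 ≤ z') (hz1' : z' ≤ 1) :
    4 / 5 * |z - z'| ≤ |cdfq s z - cdfq s z'| := by
  rw [cdfq_sub, abs_mul]
  have : 4 / 5 ≤ |1 + s * (1 - z - z')| := by
    have h2 : |s * (1 - z - z')| ≤ 1 / 5 := by
      rw [abs_mul]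
      have : |1 - z - z'| ≤ 1 := by rw [abs_le]; constructor <;> linarith
      calc |s| * |1 - z - z'| ≤ 1 / 5 * 1 := by gcongr
        _ = 1 / 5 := by ring
    have := (abs_le.mp h2).1
    rw [le_abs]; left; linarith
  nlinarith [abs_nonneg (z - z')]

theorem sig_coe {s : ℝ} (hs : |s| ≤ 1 / 5) (v : I) : (sig s v : ℝ) = quant s v := by
  obtain ⟨_, h1, h2⟩ := quant_spec hs v.2.1 v.2.2
  unfold sig
  rw [Set.projIcc_of_mem zero_le_one ⟨h1, h2⟩]

theorem sig_spec {s : ℝ} (hs : |s| ≤ 1 / 5) (v : I) :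
    (sig s v : ℝ) + s * ((sig s v : ℝ) - (sig s v : ℝ) ^ 2) = v := by
  rw [sig_coe hs]
  exact (quant_spec hs v.2.1 v.2.2).1

theorem sig_cdfq {s : ℝ} (hs : |s| ≤ 1 / 5) (v : I) : cdfq s (sig s v) = v := sig_spec hs v

theorem sig_lip {s s' : ℝ} (hs : |s| ≤ 1 / 5) (hs' : |s'| ≤ 1 / 5) (v : I) :
    |(sig s v : ℝ) - sig s' v| ≤ 5 / 16 * |s - s'| := by
  set z : ℝ := (sig s v : ℝ) with hz
  set z' : ℝ := (sig s' v : ℝ) with hz'
  have e1 : cdfq s z = v := sig_cdfq hs v
  have e2 : cdfq s' z' = v := sig_cdfq hs' v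
  have hz0 : 0 ≤ z := (sig s v).2.1
  have hz1 : z ≤ 1 := (sig s v).2.2
  have hz0' : 0 ≤ z' := (sig s' v).2.1
  have hz1' : z' ≤ 1 := (sig s' v).2.2
  have h := cdfq_sub_abs hs hz0 hz1 hz0' hz1'
  have h3 : cdfq s z - cdfq s z' = (s' - s) * (z' - z' ^ 2) := by
    have : cdfq s z' = cdfq s' z' + (s - s') * (z' - z' ^ 2) := by unfold cdfq; ring
    rw [e1, this, e2]; ring
  rw [h3, abs_mul] at h
  have h4 : |z' - z' ^ 2| ≤ 1 / 4 := by
    rw [abs_le]
    constructor
    · nlinarith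
    · nlinarith [sq_nonneg (z' - 1 / 2)]
  have h5 : |s' - s| * |z' - z' ^ 2| ≤ |s' - s| * (1 / 4) := by gcongr
  rw [abs_sub_comm s' s] at h h5
  linarith

theorem measurable_quant : Measurable (fun p : ℝ × ℝ => quant p.1 p.2) := by
  unfold quant
  fun_prop

theorem measurable_sig : Measurable (fun p : ℝ × I => sig p.1 p.2) := by
  unfold sig
  have h : Measurable (Set.projIcc (0:ℝ) 1 zero_le_one) := continuous_projIcc.measurable
  refine h.comp ?_
  exact measurable_quant.comp (by fun_prop : Measurable (fun p : ℝ × I => (p.1, (p.2 : ℝ))))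

theorem setLIntegral_dens {s : ℝ} (hs : |s| ≤ 1 / 5) (x : I) :
    ∫⁻ z in Iic x, ENNReal.ofReal (1 + s * (1 - 2 * (z : ℝ))) = ENNReal.ofReal (cdfq s x) := by
  have h1 : (Iic x : Set I) = ((↑) : I → ℝ) ⁻¹' (Iic (x : ℝ)) := by
    ext z; simp
  have hmp := unitInterval.measurePreserving_coe
  rw [h1, hmp.setLIntegral_comp_preimage_emb unitInterval.measurableEmbedding_coe
    (fun t : ℝ => ENNReal.ofReal (1 + s * (1 - 2 * t))) (Iic (x : ℝ)),
    Measure.restrict_restrict measurableSet_Iic]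
  have h2 : Iic (x : ℝ) ∩ I = Icc 0 (x : ℝ) := by
    ext t
    simp only [mem_inter_iff, mem_Iic, mem_Icc]
    constructor
    · rintro ⟨h, h', _⟩; exact ⟨h', h⟩
    · rintro ⟨h, h'⟩; exact ⟨h', h, h'.trans x.2.2⟩
  rw [h2, ← Measure.restrict_congr_set (Ioc_ae_eq_Icc (μ := volume) (a := (0 : ℝ)) (b := (x : ℝ)))]
  have hnn : ∀ t ∈ Ioc (0 : ℝ) x, 0 ≤ 1 + s * (1 - 2 * t) := by
    intro t ht
    have ht1 : t ≤ 1 := ht.2.trans x.2.2
    have h3 : |s * (1 - 2 * t)| ≤ 1 / 5 := by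
      rw [abs_mul]
      have : |1 - 2 * t| ≤ 1 := by rw [abs_le]; constructor <;> linarith [ht.1]
      calc |s| * |1 - 2 * t| ≤ 1 / 5 * 1 := by gcongr
        _ = 1 / 5 := by ring
    have := (abs_le.mp h3).1
    linarith
  rw [← ofReal_integral_eq_lintegral_ofReal]
  · congr 1
    rw [← intervalIntegral.integral_of_le x.2.1]
    have : ∀ t ∈ Set.uIcc (0 : ℝ) x, HasDerivAt (fun t => cdfq s t) (1 + s * (1 - 2 * t)) t := by
      intro t _
      unfold cdfq
      have := ((hasDerivAt_id' t).add (((hasDerivAt_id' t).sub ((hasDerivAt_id' t).pow 2)).const_mul s))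
      exact this.congr_deriv (by simp)
    rw [intervalIntegral.integral_eq_sub_of_hasDerivAt this]
    · simp [cdfq]
    · exact (by fun_prop : Continuous fun t : ℝ => 1 + s * (1 - 2 * t)).intervalIntegrable _ _
  · exact ((by fun_prop : Continuous fun t : ℝ => 1 + s * (1 - 2 * t)).integrableOn_Icc
      (a := 0) (b := (x : ℝ))).mono_set Ioc_subset_Icc_self
  · rw [EventuallyLE, ae_restrict_iff' measurableSet_Ioc]
    exact ae_of_all _ hnn

theorem cdfq_le_iff {s : ℝ} (hs : |s| ≤ 1 / 5) (z x : I) :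
    (z : ℝ) ≤ x ↔ cdfq s z ≤ cdfq s x := by
  have h2 : |s * (1 - (z : ℝ) - x)| ≤ 1 / 5 := by
    rw [abs_mul]
    have : |1 - (z : ℝ) - x| ≤ 1 := by
      rw [abs_le]; constructor <;> linarith [z.2.1, z.2.2, x.2.1, x.2.2]
    calc |s| * |1 - (z : ℝ) - x| ≤ 1 / 5 * 1 := by gcongr
      _ = 1 / 5 := by ring
  have h3 := (abs_le.mp h2).1
  have h4 := cdfq_sub s z x
  constructor
  · intro h
    nlinarith
  · intro h
    by_contra hlt
    push Not at hlt
    have : 0 < ((z : ℝ) - x) * (1 + s * (1 - z - x)) := mul_pos (by linarith) (by linarith)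
    linarith

theorem cdfq_mem {s : ℝ} (hs : |s| ≤ 1 / 5) (x : I) : cdfq s x ∈ Icc (0 : ℝ) 1 := by
  have h0 : cdfq s 0 = 0 := by simp [cdfq]
  have h1 : cdfq s 1 = 1 := by simp [cdfq]
  constructor
  · rw [← h0]
    exact (cdfq_le_iff hs 0 x).mp x.2.1
  · rw [← h1]
    exact (cdfq_le_iff hs x 1).mp x.2.2

theorem map_sig {s : ℝ} (hs : |s| ≤ 1 / 5) :
    Measure.map (sig s) (volume : Measure I) =
      (volume : Measure I).withDensity (fun z => ENNReal.ofReal (1 + s * (1 - 2 * (z : ℝ)))) := by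
  have hm : Measurable (sig s) := measurable_sig.of_uncurry_left
  have hp : IsProbabilityMeasure (Measure.map (sig s) (volume : Measure I)) :=
    Measure.isProbabilityMeasure_map hm.aemeasurable
  refine Measure.ext_of_Iic _ _ fun x => ?_
  rw [Measure.map_apply hm measurableSet_Iic, withDensity_apply _ measurableSet_Iic,
    setLIntegral_dens hs]
  have : (sig s) ⁻¹' (Iic x) = Iic (⟨cdfq s x, cdfq_mem hs x⟩ : I) := by
    ext v
    simp only [mem_preimage, mem_Iic, ← Subtype.coe_le_coe]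
    rw [cdfq_le_iff hs, sig_cdfq hs]
  rw [this, unitInterval.volume_Iic]

theorem lintegral_sig {s : ℝ} (hs : |s| ≤ 1 / 5) {F : I → ℝ≥0∞} (hF : Measurable F) :
    ∫⁻ v : I, F (sig s v) = ∫⁻ z : I, F z * ENNReal.ofReal (1 + s * (1 - 2 * (z : ℝ))) := by
  have hm : Measurable (sig s) := measurable_sig.of_uncurry_left
  have hd : Measurable (fun z : I => ENNReal.ofReal (1 + s * (1 - 2 * (z : ℝ)))) := by fun_prop
  rw [← lintegral_map hF hm, map_sig hs, lintegral_withDensity_eq_lintegral_mul _ hd hF]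
  simp [mul_comm]

theorem ell_lip (z z' : I) : |ell z - ell z'| ≤ 5 / 6 * |(z : ℝ) - z'| := by
  -- extend `ell` to the real line
  set g : ℝ → ℝ := fun t => Real.log (1 + 1 / 5 * (1 - 2 * t)) - Real.log (1 - 1 / 5 * (1 - 2 * t))
    with hg
  have hell : ∀ w : I, ell w = g w := by
    intro w
    have h0 := w.2.1
    have h1 := w.2.2
    unfold ell gden
    simp only [if_true, Bool.false_eq_true, if_false, hg]
    rw [Real.log_div]
    · have : 0 < 1 + 1 / 5 * (1 - 2 * (w : ℝ)) := by linarith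
      exact this.ne'
    · have : 0 < 1 - 1 / 5 * (1 - 2 * (w : ℝ)) := by linarith
      exact this.ne'
  rw [hell, hell]
  have key := Convex.norm_image_sub_le_of_norm_hasDerivWithin_le (f := g)
    (f' := fun t => (-2 / 5) / (1 + 1 / 5 * (1 - 2 * t)) - (2 / 5) / (1 - 1 / 5 * (1 - 2 * t)))
    (s := Icc (0 : ℝ) 1) (C := 5 / 6) ?_ ?_ (convex_Icc 0 1) z'.2 z.2
  · simpa [Real.norm_eq_abs] using key
  · intro t ht
    have h1 : (1 + 1 / 5 * (1 - 2 * t)) ≠ 0 := by
      have : 0 < 1 + 1 / 5 * (1 - 2 * t) := by linarith [ht.2]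
      exact this.ne'
    have h2 : (1 - 1 / 5 * (1 - 2 * t)) ≠ 0 := by
      have : 0 < 1 - 1 / 5 * (1 - 2 * t) := by linarith [ht.1]
      exact this.ne'
    have d1 : HasDerivAt (fun t : ℝ => 1 + 1 / 5 * (1 - 2 * t)) (-2 / 5) t := by
      have := ((((hasDerivAt_id' t).const_mul (2 : ℝ)).const_sub 1).const_mul (1 / 5 : ℝ)).const_add 1
      exact this.congr_deriv (by norm_num)
    have d2 : HasDerivAt (fun t : ℝ => 1 - 1 / 5 * (1 - 2 * t)) (2 / 5) t := by
      have := ((((hasDerivAt_id' t).const_mul (2 : ℝ)).const_sub 1).const_mul (1 / 5 : ℝ)).const_sub 1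
      exact this.congr_deriv (by norm_num)
    exact ((d1.log h1).sub (d2.log h2)).hasDerivWithinAt
  · intro t ht
    have h1 : 0 < (1 + 1 / 5 * (1 - 2 * t)) := by linarith [ht.2]
    have h2 : 0 < (1 - 1 / 5 * (1 - 2 * t)) := by linarith [ht.1]
    have e : (-2 / 5) / (1 + 1 / 5 * (1 - 2 * t)) - (2 / 5) / (1 - 1 / 5 * (1 - 2 * t)) =
        -((4 / 5) / ((1 + 1 / 5 * (1 - 2 * t)) * (1 - 1 / 5 * (1 - 2 * t)))) := by
      have h1' := h1.ne'
      have h2' := h2.ne'
      rw [div_sub_div _ _ h1' h2', ← neg_div]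
      congr 1
      ring
    rw [e, norm_neg, Real.norm_eq_abs, abs_of_pos (by positivity), div_le_iff₀ (by positivity)]
    nlinarith [ht.1, ht.2, mul_nonneg ht.1 (sub_nonneg.mpr ht.2)]

end Vale.Agent.P143
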