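import Vale.Agent.P143.Defs

/-!
# Edge seeds obtained from vertex labels: definitions
-/

open MeasureTheory Set Filter Topology
open scoped unitInterval ENNReal

namespace Vale.Agent.P143

universe u

variable {V : Type u}

/-- The number of neighbours of `u` whose first label is smaller than that of `w`. -/
noncomputable def nrank (G : SimpleGraph V) (W : V → ℕ → I) (u w : V) : ℕ :=
  {x | G.Adj u x ∧ W x 0 < W w 0}.ncard

open Classical in
/-- The seeds of the edge `s(u, w)` owned by the endpoint with the smaller first label. -/
noncomputable def seedAux (G : SimpleGraph V) (W : V → ℕ → I) (i : ℕ) (u w : V) : I :=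
  if W u 0 < W w 0 then W u (1 + Nat.pair (nrank G W u w) i)
  else if W w 0 < W u 0 then W w (1 + Nat.pair (nrank G W w u) i)
  else 0

theorem seedAux_comm (G : SimpleGraph V) (W : V → ℕ → I) (i : ℕ) (u w : V) :
    seedAux G W i u w = seedAux G W i w u := by
  unfold seedAux
  rcases lt_trichotomy (W u 0) (W w 0) with h | h | h
  · rw [if_pos h, if_neg h.not_gt, if_pos h]
  · rw [if_neg (by simp [h]), if_neg (by simp [h]), if_neg (by simp [h]), if_neg (by simp [h])]
  · rw [if_neg h.not_gt, if_pos h, if_pos h]

/-- The `i`-th seed of the edge `e`. -/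
noncomputable def seed (G : SimpleGraph V) (W : V → ℕ → I) (e : Sym2 V) (i : ℕ) : I :=
  Sym2.lift ⟨fun u w => seedAux G W i u w, fun u w => seedAux_comm G W i u w⟩ e

end Vale.Agent.P143
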