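import Vale.Agent.P143.LawId

/-!
# The law of the signals given the tree, and the unbiased estimators
-/

open MeasureTheory Set Filter Topology ProbabilityTheory
open scoped unitInterval ENNReal

namespace Vale.Agent.P143

universe u

variable {E : Type u}

/-- The sign of an edge: `1` if present, `-1` if absent. -/
def sgnb (b : Bool) : ℝ := if b then 1 else -1

theorem gden_eq (b : Bool) (z : I) : gden b z = 1 + sgnb b * (1 / 5) * (1 - 2 * (z : ℝ)) := by
  cases b
  · simp [gden, sgnb]; ring
  · simp [gden, sgnb]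

theorem abs_sgnb_le (b : Bool) : |sgnb b * (1 / 5)| ≤ 1 / 5 := by
  cases b <;> simp [sgnb]

/-- The law of one signal about an edge which is present (`b = true`) or absent. -/
noncomputable def sigLaw (b : Bool) : Measure I :=
  (volume : Measure I).withDensity (fun z => ENNReal.ofReal (gden b z))

theorem sigLaw_eq_map (b : Bool) :
    sigLaw b = Measure.map (sig (sgnb b * (1 / 5))) (volume : Measure I) := by
  rw [map_sig (abs_sgnb_le b)]
  unfold sigLaw
  congr 1
  funext z
  rw [gden_eq]

instance (b : Bool) : IsProbabilityMeasure (sigLaw b) := by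
  rw [sigLaw_eq_map]
  exact Measure.isProbabilityMeasure_map
    (measurable_sig.comp (measurable_const.prodMk measurable_id)).aemeasurable

theorem integral_unitInterval (g : ℝ → ℝ) :
    ∫ z : I, g z = ∫ t in (0 : ℝ)..1, g t := by
  have h := unitInterval.measurePreserving_coe.integral_comp
    unitInterval.measurableEmbedding_coe g
  rw [h, intervalIntegral.integral_of_le zero_le_one, integral_Icc_eq_integral_Ioc]

theorem integral_half_sub (b : Bool) :
    ∫ z : I, (1 / 2 - (z : ℝ)) ∂(sigLaw b) = sgnb b * (1 / 30) := by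
  unfold sigLaw
  rw [integral_withDensity_eq_integral_toReal_smul]
  · have h1 : ∀ z : I, (ENNReal.ofReal (gden b z)).toReal • (1 / 2 - (z : ℝ)) =
        (fun t : ℝ => (1 + sgnb b * (1 / 5) * (1 - 2 * t)) * (1 / 2 - t)) z := by
      intro z
      rw [ENNReal.toReal_ofReal (gden_nonneg b z), gden_eq, smul_eq_mul]
    simp_rw [h1]
    rw [integral_unitInterval (fun t : ℝ => (1 + sgnb b * (1 / 5) * (1 - 2 * t)) * (1 / 2 - t))]
    have hderiv : ∀ t ∈ Set.uIcc (0 : ℝ) 1, HasDerivAt
        (fun t => (1 / 2 * t - t ^ 2 / 2) +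
          sgnb b * (1 / 5) * (1 / 2 * t - t ^ 2 + 2 / 3 * t ^ 3))
        ((fun t : ℝ => (1 + sgnb b * (1 / 5) * (1 - 2 * t)) * (1 / 2 - t)) t) t := by
      intro t _
      have h2 := (hasDerivAt_id' t).pow 2
      have h3 := (hasDerivAt_id' t).pow 3
      have := (((hasDerivAt_id' t).const_mul (1 / 2 : ℝ)).sub (h2.div_const 2)).add
        (((((hasDerivAt_id' t).const_mul (1 / 2 : ℝ)).sub h2).add
          (h3.const_mul (2 / 3 : ℝ))).const_mul (sgnb b * (1 / 5)))
      refine this.congr_deriv ?_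
      simp only [Nat.cast_ofNat]
      ring
    rw [intervalIntegral.integral_eq_sub_of_hasDerivAt hderiv]
    · ring
    · exact (by fun_prop : Continuous fun t : ℝ =>
        (1 + sgnb b * (1 / 5) * (1 - 2 * t)) * (1 / 2 - t)).intervalIntegrable _ _
  · exact (measurable_gden b).ennreal_ofReal
  · exact ae_of_all _ fun z => ENNReal.ofReal_lt_top

/-- The law of a signal at the site `j` given the tree, for the sites of `J`. -/
noncomputable def siteLaw (J : Finset (ℕ × E)) (S : Finset E) (j : ℕ × E) : Measure I :=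
  open Classical in if j ∈ J then sigLaw (decide (j.2 ∈ S)) else volume

instance (J : Finset (ℕ × E)) (S : Finset E) (j : ℕ × E) :
    IsProbabilityMeasure (siteLaw J S j) := by
  unfold siteLaw
  split_ifs <;> infer_instance

/-- The joint law of the signals given the tree. -/
noncomputable def sigLaws (J : Finset (ℕ × E)) (S : Finset E) : Measure (ℕ × E → I) :=
  Measure.infinitePi (siteLaw J S)

instance (J : Finset (ℕ × E)) (S : Finset E) : IsProbabilityMeasure (sigLaws J S) := by
  unfold sigLaws; infer_instance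

open Classical in
theorem withDensity_jden (J : Finset (ℕ × E)) (S : Finset E) :
    (iidSeeds (ℕ × E)).withDensity (fun z => ENNReal.ofReal (jden J S z)) = sigLaws J S := by
  refine Measure.eq_infinitePi _ fun s t ht => ?_
  have hms : MeasurableSet (Set.pi (s : Set (ℕ × E)) t) :=
    MeasurableSet.pi s.countable_toSet fun i _ => ht i
  rw [withDensity_apply _ hms, ← lintegral_indicator hms]
  set X : ℕ × E → I → ℝ≥0∞ := fun j x =>
    (if j ∈ s then (t j).indicator 1 x else 1) *
      (if j ∈ J then ENNReal.ofReal (gden (decide (j.2 ∈ S)) x) else 1) with hX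
  have hXm : ∀ j, Measurable (X j) := by
    intro j
    refine Measurable.mul ?_ ?_
    · split_ifs
      · exact measurable_one.indicator (ht j)
      · exact measurable_const
    · split_ifs
      · exact (measurable_gden _).ennreal_ofReal
      · exact measurable_const
  have h1 : ∀ z : ℕ × E → I, (Set.pi (s : Set (ℕ × E)) t).indicator
      (fun z => ENNReal.ofReal (jden J S z)) z = ∏ j ∈ s ∪ J, X j (z j) := by
    intro z
    rw [hX]
    simp only
    rw [Finset.prod_mul_distrib]
    have e1 : ∏ j ∈ s ∪ J, (if j ∈ s then (t j).indicator (1 : I → ℝ≥0∞) (z j) else 1) =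
        ∏ j ∈ s, (t j).indicator (1 : I → ℝ≥0∞) (z j) := by
      rw [Finset.prod_ite_mem, Finset.union_inter_cancel_left]
    have e2 : ∏ j ∈ s ∪ J, (if j ∈ J then ENNReal.ofReal (gden (decide (j.2 ∈ S)) (z j)) else 1) =
        ENNReal.ofReal (jden J S z) := by
      rw [Finset.prod_ite_mem, Finset.union_inter_cancel_right]
      unfold jden
      rw [ENNReal.ofReal_prod_of_nonneg fun j _ => gden_nonneg _ _]
    rw [e1, e2]
    by_cases hz : z ∈ Set.pi (s : Set (ℕ × E)) t
    · rw [Set.indicator_of_mem hz]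
      have : ∏ j ∈ s, (t j).indicator (1 : I → ℝ≥0∞) (z j) = 1 := by
        refine Finset.prod_eq_one fun j hj => ?_
        rw [Set.indicator_of_mem (hz j hj)]
        rfl
      rw [this, one_mul]
    · rw [Set.indicator_of_notMem hz]
      have : ∃ j ∈ s, z j ∉ t j := by
        by_contra hcon
        push Not at hcon
        exact hz fun j hj => hcon j hj
      obtain ⟨j, hj, hzj⟩ := this
      rw [Finset.prod_eq_zero hj (Set.indicator_of_notMem hzj _), zero_mul]
  simp_rw [h1]
  have hind : iIndepFun (fun (j : ℕ × E) (z : ℕ × E → I) => X j (z j)) (iidSeeds (ℕ × E)) :=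
    iIndepFun_infinitePi (P := fun _ : ℕ × E => (volume : Measure I)) hXm
  rw [lintegral_prod_eq_prod_lintegral_of_indepFun (s ∪ J) _ hind
    (fun j => (hXm j).comp (measurable_pi_apply j))]
  have h2 : ∀ j, ∫⁻ z, X j (z j) ∂(iidSeeds (ℕ × E)) = ∫⁻ x : I, X j x := by
    intro j
    have := (measurePreserving_eval_infinitePi (fun _ : ℕ × E => (volume : Measure I)) j)
    rw [← this.lintegral_comp (hXm j)]
    rfl
  simp_rw [h2]
  have h3 : ∀ j, ∫⁻ x : I, X j x = if j ∈ s then siteLaw J S j (t j) else 1 := by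
    intro j
    unfold siteLaw
    rw [hX]
    by_cases hjs : j ∈ s
    · by_cases hjJ : j ∈ J
      · simp only [hjs, hjJ, if_true]
        unfold sigLaw
        rw [withDensity_apply _ (ht j), ← lintegral_indicator (ht j)]
        refine lintegral_congr fun x => ?_
        by_cases hx : x ∈ t j <;> simp [hx]
      · simp only [hjs, hjJ, if_true, if_false, mul_one]
        rw [lintegral_indicator_one (ht j)]
    · by_cases hjJ : j ∈ J
      · simp only [hjs, hjJ, if_true, if_false, one_mul]
        have : ∫⁻ x : I, ENNReal.ofReal (gden (decide (j.2 ∈ S)) x) =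
            sigLaw (decide (j.2 ∈ S)) univ := by
          unfold sigLaw
          rw [withDensity_apply _ MeasurableSet.univ, Measure.restrict_univ]
        rw [this, measure_univ]
      · simp only [hjs, hjJ, if_false, mul_one, lintegral_const, measure_univ]
  simp_rw [h3]
  rw [Finset.prod_ite_mem, Finset.union_inter_cancel_left]

open Classical in
/-- The exact law of the signals. -/
theorem law_identity {D : Finset E} {TT : Finset (Finset E)} (hne : TT.Nonempty)
    {m : (E → ℝ) → E → ℝ} (hm : IsMean m) (hmeas : ∀ e ∈ D, Measurable (fun y => m y e))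
    (hT : TreeFormula D TT m) (hsub : ∀ S ∈ TT, S ⊆ D) (U : E → I) (hU : Set.InjOn U D)
    (Z : (ℕ × E → I) → (ℕ × E → I)) (hZ : ∀ v, IsSol m U D v (Z v))
    (N : ℕ) (F : (ℕ × E → I) → ℝ≥0∞) (hF : Measurable F)
    (hloc : ∀ z z' : ℕ × E → I, (∀ j ∈ Finset.range N ×ˢ D, z j = z' j) → F z = F z') :
    (TT.card : ℝ≥0∞) * ∫⁻ v, F (Z v) ∂(iidSeeds (ℕ × E)) =
      ∑ S ∈ TT, ∫⁻ z, F z ∂(sigLaws (Finset.range N ×ˢ D) S) := by
  have h := lintegral_mix hne hm hmeas hT hsub U hU Z hZ N (Finset.range N ×ˢ D)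
    (Finset.Subset.refl _) (fun _ _ _ h _ => h) F hF
  have h1 : ∀ v, F (mix (Finset.range N ×ˢ D) (Z v) v) = F (Z v) := by
    intro v
    refine hloc _ _ fun j hj => ?_
    unfold mix
    rw [if_pos hj]
  simp_rw [h1] at h
  rw [h]
  have h2 : ∀ z, F z * ENNReal.ofReal (∑ S ∈ TT, jden (Finset.range N ×ˢ D) S z) =
      ∑ S ∈ TT, ENNReal.ofReal (jden (Finset.range N ×ˢ D) S z) * F z := by
    intro z
    rw [ENNReal.ofReal_sum_of_nonneg fun S _ => jden_nonneg _ _ _, Finset.mul_sum]
    exact Finset.sum_congr rfl fun S _ => mul_comm _ _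
  simp_rw [h2]
  rw [lintegral_finsetSum]
  · refine Finset.sum_congr rfl fun S _ => ?_
    rw [← withDensity_jden, lintegral_withDensity_eq_lintegral_mul _
      (measurable_jden _ _).ennreal_ofReal hF]
    rfl
  · intro S _
    exact (measurable_jden _ _).ennreal_ofReal.mul hF


/-! ### Moments of the estimators -/

theorem abs_half_sub_le (z : I) : |1 / 2 - (z : ℝ)| ≤ 1 / 2 := by
  rw [abs_le]; constructor <;> linarith [z.2.1, z.2.2]

theorem measurable_stat (N : ℕ) (e : E) : Measurable (fun z : ℕ × E → I => stat N z e) := by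
  unfold stat
  refine Measurable.const_mul (Finset.measurable_fun_sum _ fun k _ => ?_) _
  exact measurable_const.sub (measurable_subtype_coe.comp (measurable_pi_apply (k, e)))

theorem abs_stat_le (N : ℕ) (z : ℕ × E → I) (e : E) : |stat N z e| ≤ 15 := by
  unfold stat
  rcases Nat.eq_zero_or_pos N with rfl | hN
  · simp
  · have hN' : (0 : ℝ) < N := by exact_mod_cast hN
    rw [abs_mul, abs_of_pos (by positivity : (0 : ℝ) < 30 / N)]
    have h1 : |∑ k ∈ Finset.range N, (1 / 2 - (z (k, e) : ℝ))| ≤ N * (1 / 2) := by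
      refine (Finset.abs_sum_le_sum_abs _ _).trans ?_
      calc ∑ k ∈ Finset.range N, |1 / 2 - (z (k, e) : ℝ)| ≤ ∑ _k ∈ Finset.range N, (1 / 2 : ℝ) :=
            Finset.sum_le_sum fun k _ => abs_half_sub_le _
        _ = N * (1 / 2) := by simp
    calc 30 / (N : ℝ) * |∑ k ∈ Finset.range N, (1 / 2 - (z (k, e) : ℝ))|
        ≤ 30 / (N : ℝ) * (N * (1 / 2)) := by gcongr
      _ = 15 := by field_simp; norm_num

theorem integral_site {J : Finset (ℕ × E)} (S : Finset E) {j : ℕ × E} (hj : j ∈ J) :
    ∫ z, (1 / 2 - (z j : ℝ)) ∂(sigLaws J S) = (open Classical in sgnb (decide (j.2 ∈ S))) * (1 / 30) := by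
  have hmp := measurePreserving_eval_infinitePi (siteLaw J S) j
  have h1 : ∫ z, (1 / 2 - (z j : ℝ)) ∂(sigLaws J S) = ∫ x, (1 / 2 - (x : ℝ)) ∂(siteLaw J S j) := by
    rw [← hmp.map_eq, integral_map hmp.measurable.aemeasurable]
    · rfl
    · exact (by fun_prop : Measurable fun x : I => 1 / 2 - (x : ℝ)).aestronglyMeasurable
  rw [h1]
  unfold siteLaw
  rw [if_pos hj]
  exact integral_half_sub _

theorem integrable_of_bounded {Ω : Type*} [MeasurableSpace Ω] {μ : Measure Ω}
    [IsFiniteMeasure μ] {X : Ω → ℝ} (hX : Measurable X) {C : ℝ} (h : ∀ ω, |X ω| ≤ C) :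
    Integrable X μ :=
  Integrable.of_bound hX.aestronglyMeasurable C (ae_of_all _ fun ω => by
    rw [Real.norm_eq_abs]; exact h ω)

theorem integral_stat {J : Finset (ℕ × E)} {N : ℕ} (hN : 0 < N) (S : Finset E) {e : E}
    (he : ∀ k < N, (k, e) ∈ J) :
    ∫ z, stat N z e ∂(sigLaws J S) = (open Classical in sgnb (decide (e ∈ S))) := by
  unfold stat
  rw [integral_const_mul, integral_finsetSum]
  · have h1 : ∀ k ∈ Finset.range N,
        ∫ z, (1 / 2 - (z (k, e) : ℝ)) ∂(sigLaws J S) =
          (open Classical in sgnb (decide (e ∈ S))) * (1 / 30) := fun k hk =>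
      integral_site S (he k (Finset.mem_range.mp hk))
    rw [Finset.sum_congr rfl h1, Finset.sum_const, Finset.card_range, nsmul_eq_mul]
    have hN' : (N : ℝ) ≠ 0 := by positivity
    field_simp
  · intro k _
    refine integrable_of_bounded (C := 1 / 2) ?_ fun z => abs_half_sub_le _
    exact measurable_const.sub (measurable_subtype_coe.comp (measurable_pi_apply (k, e)))

theorem integral_stat_sub_sq {J : Finset (ℕ × E)} {N : ℕ} (hN : 0 < N) (S : Finset E) {e : E}
    (he : ∀ k < N, (k, e) ∈ J) :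
    ∫ z, (stat N z e - (open Classical in sgnb (decide (e ∈ S)))) ^ 2 ∂(sigLaws J S) ≤
      225 / N := by
  classical
  set P := sigLaws J S with hP
  have h0 : ∫ z, stat N z e ∂P = sgnb (decide (e ∈ S)) := integral_stat hN S he
  rw [← h0, ← variance_eq_integral (measurable_stat N e).aemeasurable]
  have h1 : (fun z : ℕ × E → I => stat N z e) = fun z =>
      30 / (N : ℝ) * (∑ k ∈ Finset.range N, fun z : ℕ × E → I => (1 / 2 - (z (k, e) : ℝ))) z := by
    funext z
    simp [stat, Finset.sum_apply]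
  rw [h1, variance_const_mul]
  have hmeas : ∀ k : ℕ, Measurable (fun z : ℕ × E → I => (1 / 2 - (z (k, e) : ℝ))) := fun k =>
    measurable_const.sub (measurable_subtype_coe.comp (measurable_pi_apply (k, e)))
  have hind : iIndepFun (fun (j : ℕ × E) (z : ℕ × E → I) => (1 / 2 - (z j : ℝ))) P :=
    iIndepFun_infinitePi (P := siteLaw J S)
      (X := fun _ x => 1 / 2 - (x : ℝ)) (fun _ => by fun_prop)
  have h2 : Var[∑ k ∈ Finset.range N, fun z : ℕ × E → I => (1 / 2 - (z (k, e) : ℝ)); P] =
      ∑ k ∈ Finset.range N, Var[fun z : ℕ × E → I => (1 / 2 - (z (k, e) : ℝ)); P] := by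
    refine IndepFun.variance_sum (fun k _ => ?_) ?_
    · exact memLp_of_bounded (a := -(1 / 2)) (b := 1 / 2)
        (ae_of_all _ fun z => abs_le.mp (abs_half_sub_le _)) (hmeas k).aestronglyMeasurable 2
    · intro k _ k' _ hkk'
      exact hind.indepFun (fun h => hkk' (congrArg Prod.fst h))
  rw [h2]
  have h3 : ∀ k ∈ Finset.range N,
      Var[fun z : ℕ × E → I => (1 / 2 - (z (k, e) : ℝ)); P] ≤ 1 / 4 := by
    intro k _
    have := variance_le_sq_of_bounded (μ := P) (a := -(1 / 2)) (b := 1 / 2)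
      (X := fun z : ℕ × E → I => (1 / 2 - (z (k, e) : ℝ)))
      (ae_of_all _ fun z => abs_le.mp (abs_half_sub_le _)) (hmeas k).aemeasurable
    refine this.trans (by norm_num)
  have hN' : (0 : ℝ) < N := by exact_mod_cast hN
  have h4 := Finset.sum_le_sum h3
  rw [Finset.sum_const, Finset.card_range, nsmul_eq_mul] at h4
  refine (mul_le_mul_of_nonneg_left h4 (sq_nonneg _)).trans (le_of_eq ?_)
  field_simp
  norm_num

theorem iIndepFun_columns (J : Finset (ℕ × E)) (S : Finset E) :
    iIndepFun (fun (e : E) (z : ℕ × E → I) (k : ℕ) => z (k, e)) (sigLaws J S) := by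
  have hm : ∀ e : E, Measurable (fun (z : ℕ × E → I) (k : ℕ) => z (k, e)) := fun e =>
    measurable_pi_iff.mpr fun k => measurable_pi_apply (k, e)
  rw [iIndepFun_iff_map_fun_eq_infinitePi_map hm]
  have h1 : ∀ e : E, (sigLaws J S).map (fun (z : ℕ × E → I) (k : ℕ) => z (k, e)) =
      Measure.infinitePi (fun k : ℕ => siteLaw J S (k, e)) := by
    intro e
    exact Measure.map_infinitePi_infinitePi_of_inj (P := siteLaw J S) (f := fun k : ℕ => (k, e))
      (fun k k' h => congrArg Prod.fst h)
  simp_rw [h1]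
  have h2 : (sigLaws J S).map (fun (z : ℕ × E → I) (p : E × ℕ) => z (p.2, p.1)) =
      Measure.infinitePi (fun p : E × ℕ => siteLaw J S (p.2, p.1)) :=
    Measure.map_infinitePi_infinitePi_of_inj (P := siteLaw J S)
      (f := fun p : E × ℕ => (p.2, p.1)) (fun p p' h => by
        have h1 : p.2 = p'.2 := congrArg Prod.fst h
        have h2 : p.1 = p'.1 := congrArg Prod.snd h
        exact Prod.ext h2 h1)
  rw [← Measure.infinitePi_map_curry (fun (e : E) (k : ℕ) => siteLaw J S (k, e)), ← h2,
    Measure.map_map (MeasurableEquiv.curry E ℕ I).measurable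
      (measurable_pi_iff.mpr fun p => measurable_pi_apply (p.2, p.1))]
  rfl

theorem integral_prod_stat {J : Finset (ℕ × E)} {N : ℕ} (hN : 0 < N) (S : Finset E)
    {A : Finset E} (hA : ∀ e ∈ A, ∀ k < N, (k, e) ∈ J) (a : E → ℝ) :
    ∫ z, ∏ e ∈ A, ((1 + a e * stat N z e) / 2) ∂(sigLaws J S) =
      ∏ e ∈ A, ((1 + a e * (open Classical in sgnb (decide (e ∈ S)))) / 2) := by
  classical
  set P := sigLaws J S with hP
  set f : A → (ℕ → I) → ℝ := fun e x =>
    (1 + a e * (30 / (N : ℝ) * ∑ k ∈ Finset.range N, (1 / 2 - (x k : ℝ)))) / 2 with hf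
  have hfm : ∀ e : A, Measurable (f e) := by
    intro e
    rw [hf]
    refine Measurable.div_const (Measurable.const_add (Measurable.const_mul
      (Measurable.const_mul (Finset.measurable_fun_sum _ fun k _ => ?_) _) _) _) _
    exact measurable_const.sub (measurable_subtype_coe.comp (measurable_pi_apply k))
  have hind := (iIndepFun_columns J S).precomp
    (Subtype.val_injective (p := fun e => e ∈ A))
  have h := hind.integral_fun_prod_comp (f := f)
    (fun e => (measurable_pi_iff.mpr fun k => measurable_pi_apply (k, (e : E))).aemeasurable)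
    (fun e => (hfm e).aestronglyMeasurable)
  have h1 : ∀ z : ℕ × E → I, ∏ e ∈ A, ((1 + a e * stat N z e) / 2) =
      ∏ e : A, f e (fun k => z (k, (e : E))) := by
    intro z
    rw [← Finset.prod_coe_sort]
    rfl
  simp_rw [h1]
  refine h.trans ?_
  rw [← Finset.prod_coe_sort A]
  refine Finset.prod_congr rfl fun e _ => ?_
  have h2 : ∀ z : ℕ × E → I, f e (fun k => z (k, (e : E))) = (1 + a e * stat N z e) / 2 :=
    fun z => rfl
  have h3 : ∫ z : ℕ × E → I, (1 + a e * stat N z e) / 2 ∂P =
      (1 + a e * ∫ z, stat N z e ∂P) / 2 := by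
    rw [integral_div, integral_add (integrable_const _), integral_const_mul]
    · simp
    · exact (integrable_of_bounded (measurable_stat N (e : E))
        (fun z => abs_stat_le N z e)).const_mul _
  calc ∫ z : ℕ × E → I, f e (fun k => z (k, (e : E))) ∂P
      = ∫ z : ℕ × E → I, (1 + a e * stat N z e) / 2 ∂P := rfl
    _ = _ := by rw [h3, integral_stat hN S (hA e.1 e.2)]


open Classical in
/-- Real-valued version of the law identity. -/
theorem law_identity_real {D : Finset E} {TT : Finset (Finset E)} (hne : TT.Nonempty)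
    {m : (E → ℝ) → E → ℝ} (hm : IsMean m) (hmeas : ∀ e ∈ D, Measurable (fun y => m y e))
    (hT : TreeFormula D TT m) (hsub : ∀ S ∈ TT, S ⊆ D) (U : E → I) (hU : Set.InjOn U D)
    (Z : (ℕ × E → I) → (ℕ × E → I)) (hZm : Measurable Z) (hZ : ∀ v, IsSol m U D v (Z v))
    (N : ℕ) (F : (ℕ × E → I) → ℝ) (hF : Measurable F) {C : ℝ} (hC : ∀ z, |F z| ≤ C)
    (hloc : ∀ z z' : ℕ × E → I, (∀ j ∈ Finset.range N ×ˢ D, z j = z' j) → F z = F z') :
    (TT.card : ℝ) * ∫ v, F (Z v) ∂(iidSeeds (ℕ × E)) =
      ∑ S ∈ TT, ∫ z, F z ∂(sigLaws (Finset.range N ×ˢ D) S) := by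
  have h := law_identity hne hm hmeas hT hsub U hU Z hZ N
    (fun z => ENNReal.ofReal (F z + C)) (hF.add_const C).ennreal_ofReal
    (fun z z' hzz => by rw [hloc z z' hzz])
  have hnn : ∀ z, 0 ≤ F z + C := fun z => by linarith [(abs_le.mp (hC z)).1]
  have hconv : ∀ (μ : Measure (ℕ × E → I)) [IsProbabilityMeasure μ] (g : (ℕ × E → I) → ℝ)
      (_ : Measurable g) (_ : ∀ z, |g z| ≤ C) (_ : ∀ z, 0 ≤ g z + C),
      ∫⁻ z, ENNReal.ofReal (g z + C) ∂μ = ENNReal.ofReal (∫ z, g z ∂μ + C) := by
    intro μ _ g hg hgC hgn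
    have hint : Integrable g μ := integrable_of_bounded hg hgC
    have hint2 : Integrable (fun z => g z + C) μ := hint.add (integrable_const C)
    rw [← ofReal_integral_eq_lintegral_ofReal hint2 (ae_of_all _ hgn),
      integral_add hint (integrable_const C)]
    simp
  rw [hconv _ (fun v => F (Z v)) (hF.comp hZm) (fun v => hC _) (fun v => hnn _)] at h
  have h2 : ∀ S ∈ TT, ∫⁻ z, ENNReal.ofReal (F z + C) ∂(sigLaws (Finset.range N ×ˢ D) S) =
      ENNReal.ofReal (∫ z, F z ∂(sigLaws (Finset.range N ×ˢ D) S) + C) := fun S _ =>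
    hconv _ F hF hC hnn
  rw [Finset.sum_congr rfl h2] at h
  have hpos : ∀ (μ : Measure (ℕ × E → I)) [IsProbabilityMeasure μ] (g : (ℕ × E → I) → ℝ)
      (_ : Measurable g) (_ : ∀ z, |g z| ≤ C), 0 ≤ ∫ z, g z ∂μ + C := by
    intro μ _ g hg hgC
    have hint : Integrable g μ := integrable_of_bounded hg hgC
    have h3 : -C ≤ ∫ z, g z ∂μ := by
      have : ∫ _z, (-C) ∂μ ≤ ∫ z, g z ∂μ :=
        integral_mono (integrable_const _) hint fun z => (abs_le.mp (hgC z)).1
      simpa using this
    linarith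
  rw [← ENNReal.ofReal_sum_of_nonneg (fun S _ => hpos _ F hF hC), ← ENNReal.ofReal_natCast,
    ← ENNReal.ofReal_mul (Nat.cast_nonneg _)] at h
  have h4 := (ENNReal.ofReal_eq_ofReal_iff
    (mul_nonneg (Nat.cast_nonneg _) (hpos _ (fun v => F (Z v)) (hF.comp hZm) (fun v => hC _)))
    (Finset.sum_nonneg fun S _ => hpos _ F hF hC)).mp h
  rw [Finset.sum_add_distrib, Finset.sum_const, nsmul_eq_mul] at h4
  linarith

end Vale.Agent.P143
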