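import Mathlib

/-!
# Signals: definitions
-/

open MeasureTheory Set Filter Topology
open scoped unitInterval ENNReal

namespace Vale.Agent.P143

universe u

/-- The density (at `z`) of a signal about an edge which is present (`b = true`) or absent. -/
noncomputable def gden (b : Bool) (z : I) : ℝ :=
  if b then 1 + 1 / 5 * (1 - 2 * (z : ℝ)) else 1 - 1 / 5 * (1 - 2 * (z : ℝ))

/-- The log likelihood ratio of a signal. -/
noncomputable def ell (z : I) : ℝ := Real.log (gden true z / gden false z)

/-- The inverse of `z ↦ z + s (z - z ^ 2)` on `[0,1]`. -/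
noncomputable def quant (s v : ℝ) : ℝ := 2 * v / (1 + s + Real.sqrt ((1 + s) ^ 2 - 4 * s * v))

/-- The signal produced from the seed `v` when the mixture parameter is `s`. -/
noncomputable def sig (s : ℝ) (v : I) : I := Set.projIcc 0 1 zero_le_one (quant s v)

variable {E : Type u}

open Classical in
/-- The field seen when the signal `(k, e)` is produced from the previous signals. -/
noncomputable def field (U : E → I) (z : ℕ × E → I) (k : ℕ) (e : E) : E → ℝ := fun f =>
  (∑ i ∈ Finset.range k, ell (z (i, f))) + (if U f < U e then ell (z (k, f)) else 0)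

/-- The mixture parameter at `(k, e)`. -/
noncomputable def param (m : (E → ℝ) → E → ℝ) (U : E → I) (z : ℕ × E → I) (k : ℕ) (e : E) : ℝ :=
  1 / 5 * (2 * m (field U z k e) e - 1)

/-- `z` solves the sampler equations with seeds `v` on the sites of `D`. -/
def IsSol (m : (E → ℝ) → E → ℝ) (U : E → I) (D : Set E) (v z : ℕ × E → I) : Prop :=
  ∀ k, ∀ e ∈ D, z (k, e) = sig (param m U z k e) (v (k, e))

/-- `m` is a posterior mean function: it takes values in `[0,1]` and is `2`-Lipschitz for the
supremum norm. -/
structure IsMean (m : (E → ℝ) → E → ℝ) : Prop where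
  nonneg : ∀ y e, 0 ≤ m y e
  le_one : ∀ y e, m y e ≤ 1
  lip : ∀ (y y' : E → ℝ) (s : ℝ), (∀ f, |y f - y' f| ≤ s) → ∀ e, |m y e - m y' e| ≤ 2 * s

/-- The unbiased estimator of the sign (`1` if the edge is present, `-1` otherwise) at `e`. -/
noncomputable def stat (N : ℕ) (z : ℕ × E → I) (e : E) : ℝ :=
  30 / (N : ℝ) * ∑ k ∈ Finset.range N, (1 / 2 - (z (k, e) : ℝ))

end Vale.Agent.P143
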